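import Crest.Agent.SwGap.Adj

/-! Switch connectivity of the realizations of a degree sequence (Havel–Hakimi argument). -/

set_option autoImplicit false
open Finset Crest.SwitchChain

namespace Crest.Agent.SwGap.Conn

variable {n : ℕ}

/-- the switched graph: remove `ac`, `be`, add `ae`, `bc`. -/
noncomputable def sw (G : Finset (Edge n)) (a b c e : Fin n) : Finset (Edge n) :=
  ofAdj fun x y => (Adj G x y ∧ s(x,y) ≠ s(a,c) ∧ s(x,y) ≠ s(b,e)) ∨ s(x,y) = s(a,e) ∨ s(x,y) = s(b,c)

lemma adj_sw {G : Finset (Edge n)} {a b c e : Fin n} (hae : a ≠ e) (hbc : b ≠ c) {x y : Fin n} :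
    Adj (sw G a b c e) x y ↔
      (Adj G x y ∧ s(x,y) ≠ s(a,c) ∧ s(x,y) ≠ s(b,e)) ∨ s(x,y) = s(a,e) ∨ s(x,y) = s(b,c) := by
  unfold sw
  rw [adj_ofAdj]
  · constructor
    · exact fun h => h.2
    · intro h
      refine ⟨?_, h⟩
      rcases h with h | h | h
      · exact h.1.ne
      · rcases Sym2.eq_iff.mp h with ⟨rfl, rfl⟩ | ⟨rfl, rfl⟩
        · exact hae
        · exact hae.symm
      · rcases Sym2.eq_iff.mp h with ⟨rfl, rfl⟩ | ⟨rfl, rfl⟩
        · exact hbc
        · exact hbc.symm
  · intro x y h
    have e : (s(x,y) : Sym2 (Fin n)) = s(y,x) := Sym2.eq_swap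
    rw [← e]
    rcases h with h | h
    · exact Or.inl ⟨h.1.symm, h.2⟩
    · exact Or.inr h

/-- adjacency in the switched graph, explicit. -/
lemma adj_sw' {G : Finset (Edge n)} {a b c e : Fin n} (hae : a ≠ e) (hbc : b ≠ c) {x y : Fin n} :
    Adj (sw G a b c e) x y ↔
      (Adj G x y ∧ ¬ ((x = a ∧ y = c) ∨ (x = c ∧ y = a)) ∧ ¬ ((x = b ∧ y = e) ∨ (x = e ∧ y = b))) ∨
        ((x = a ∧ y = e) ∨ (x = e ∧ y = a)) ∨ ((x = b ∧ y = c) ∨ (x = c ∧ y = b)) := by
  rw [adj_sw hae hbc]
  simp only [ne_eq, Sym2.eq_iff]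

open scoped Classical in
lemma deg_sw {G : Finset (Edge n)} {a b c e : Fin n} (hab : a ≠ b) (hac : a ≠ c) (hae : a ≠ e)
    (hbc : b ≠ c) (hbe : b ≠ e) (hce : c ≠ e) (h1 : Adj G a c) (h2 : Adj G b e)
    (h3 : ¬ Adj G a e) (h4 : ¬ Adj G b c) (v : Fin n) : deg (sw G a b c e) v = deg G v := by
  have h1' := h1.symm
  have h2' := h2.symm
  have h3' : ¬ Adj G e a := fun h => h3 h.symm
  have h4' : ¬ Adj G c b := fun h => h4 h.symm
  rw [deg_eq, deg_eq]
  symm
  by_cases hv1 : v = a ∨ v = b
  · refine Finset.card_equiv (Equiv.swap c e) fun x => ?_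
    simp only [mem_filter, mem_univ, true_and]
    rw [adj_sw' hae hbc]
    by_cases hxc : x = c
    · subst hxc
      rw [Equiv.swap_apply_left]
      rcases hv1 with rfl | rfl <;> tauto
    · by_cases hxe : x = e
      · subst hxe
        rw [Equiv.swap_apply_right]
        rcases hv1 with rfl | rfl <;> tauto
      · rw [Equiv.swap_apply_of_ne_of_ne hxc hxe]
        rcases hv1 with rfl | rfl <;> tauto
  · by_cases hv2 : v = c ∨ v = e
    · refine Finset.card_equiv (Equiv.swap a b) fun x => ?_
      simp only [mem_filter, mem_univ, true_and]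
      rw [adj_sw' hae hbc]
      by_cases hxc : x = a
      · subst hxc
        rw [Equiv.swap_apply_left]
        rcases hv2 with rfl | rfl <;> tauto
      · by_cases hxe : x = b
        · subst hxe
          rw [Equiv.swap_apply_right]
          rcases hv2 with rfl | rfl <;> tauto
        · rw [Equiv.swap_apply_of_ne_of_ne hxc hxe]
          rcases hv2 with rfl | rfl <;> tauto
    · congr 1
      ext x
      simp only [mem_filter, mem_univ, true_and]
      rw [adj_sw' hae hbc]
      tauto

/-- invariance under switches -/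
def SwInv (d : Fin n → ℕ) (f : Finset (Edge n) → ℝ) : Prop :=
  ∀ G G' : Finset (Edge n), G ∈ realizations d → G' ∈ realizations d → ∀ a b c e : Fin n,
      a ≠ b → a ≠ c → a ≠ e → b ≠ c → b ≠ e → c ≠ e →
      Adj G a c → Adj G b e → ¬ Adj G a e → ¬ Adj G b c → ¬ Adj G' a c → ¬ Adj G' b e → Adj G' a e → Adj G' b c →
      (∀ x y, s(x,y) ≠ s(a,c) → s(x,y) ≠ s(b,e) → s(x,y) ≠ s(a,e) → s(x,y) ≠ s(b,c) → (Adj G x y ↔ Adj G' x y)) → f G = f G'

lemma sw_inv {d : Fin n → ℕ} {f : Finset (Edge n) → ℝ} (hf : SwInv d f) {G : Finset (Edge n)}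
    (hG : G ∈ realizations d) {a b c e : Fin n} (hab : a ≠ b) (hac : a ≠ c) (hae : a ≠ e)
    (hbc : b ≠ c) (hbe : b ≠ e) (hce : c ≠ e) (h1 : Adj G a c) (h2 : Adj G b e)
    (h3 : ¬ Adj G a e) (h4 : ¬ Adj G b c) :
    sw G a b c e ∈ realizations d ∧ f (sw G a b c e) = f G := by
  have hr : sw G a b c e ∈ realizations d := by
    rw [mem_realizations] at hG ⊢
    intro v
    rw [deg_sw hab hac hae hbc hbe hce h1 h2 h3 h4, hG]
  refine ⟨hr, ?_⟩
  symm
  refine hf G _ hG hr a b c e hab hac hae hbc hbe hce h1 h2 h3 h4 ?_ ?_ ?_ ?_ ?_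
  · rw [adj_sw' hae hbc]; tauto
  · rw [adj_sw' hae hbc]; tauto
  · rw [adj_sw' hae hbc]; tauto
  · rw [adj_sw' hae hbc]; tauto
  · intro x y k1 k2 k3 k4
    rw [adj_sw hae hbc]
    tauto

open scoped Classical in
/-- one step: replace the neighbour `a` of `v` by `b`. -/
lemma one_side {d : Fin n → ℕ} {f : Finset (Edge n) → ℝ} (hf : SwInv d f) {G : Finset (Edge n)}
    (hG : G ∈ realizations d) {v a b : Fin n} (hva : v < a) (hvb : v < b) (h1 : Adj G v a)
    (h2 : ¬ Adj G v b)
    (hc : (univ.filter fun x => v ≤ x ∧ Adj G a x).card ≤ (univ.filter fun x => v ≤ x ∧ Adj G b x).card) :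
    ∃ G1 ∈ realizations d, f G1 = f G ∧ (∀ x y, x < v → (Adj G1 x y ↔ Adj G x y)) ∧
      ∀ x, (Adj G1 v x ↔ (Adj G v x ∧ x ≠ a) ∨ x = b) := by
  have hab : a ≠ b := by rintro rfl; exact h2 h1
  obtain ⟨c, hcv, hbc, hac, hca⟩ : ∃ c, v ≤ c ∧ Adj G b c ∧ ¬ Adj G a c ∧ c ≠ a := by
    by_contra hno
    push Not at hno
    set A := univ.filter fun x => v ≤ x ∧ Adj G a x with hA
    set B := univ.filter fun x => v ≤ x ∧ Adj G b x with hB
    have hsub : B.erase a ⊆ (A.erase b).erase v := by
      intro x hx
      rw [mem_erase] at hx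
      obtain ⟨hxa, hxB⟩ := hx
      simp only [hB, mem_filter, mem_univ, true_and] at hxB
      have hxA : Adj G a x := by
        by_contra hcon
        exact hxa (hno x hxB.1 hxB.2 hcon)
      rw [mem_erase, mem_erase]
      refine ⟨?_, ?_, ?_⟩
      · rintro rfl; exact h2 hxB.2.symm
      · rintro rfl; exact hxB.2.ne rfl
      · simp only [hA, mem_filter, mem_univ, true_and]; exact ⟨hxB.1, hxA⟩
    have hle := card_le_card hsub
    have hvA : v ∈ A.erase b := by
      rw [mem_erase]
      refine ⟨hvb.ne, ?_⟩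
      simp only [hA, mem_filter, mem_univ, true_and]; exact ⟨le_refl _, h1.symm⟩
    rw [card_erase_of_mem hvA] at hle
    have hpos : 0 < (A.erase b).card := card_pos.mpr ⟨v, hvA⟩
    by_cases hadj : Adj G a b
    · have hbA : b ∈ A := by
        simp only [hA, mem_filter, mem_univ, true_and]; exact ⟨hvb.le, hadj⟩
      have haB : a ∈ B := by
        simp only [hB, mem_filter, mem_univ, true_and]; exact ⟨hva.le, hadj.symm⟩
      rw [card_erase_of_mem haB] at hle
      rw [card_erase_of_mem hbA] at hle hpos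
      have : 0 < B.card := card_pos.mpr ⟨a, haB⟩
      omega
    · have hbA : b ∉ A := by
        simp only [hA, mem_filter, mem_univ, true_and]; exact fun h => hadj h.2
      have haB : a ∉ B := by
        simp only [hB, mem_filter, mem_univ, true_and]; exact fun h => hadj h.2.symm
      rw [erase_eq_of_notMem haB] at hle
      rw [erase_eq_of_notMem hbA] at hle hpos
      omega
  have hvc : v ≠ c := by rintro rfl; exact h2 hbc.symm
  have hcb : c ≠ b := hbc.ne.symm
  have hac' : ¬ Adj G c a := fun h => hac h.symm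
  obtain ⟨hr, hfe⟩ := sw_inv hf hG (a := v) (b := c) (c := a) (e := b) hvc hva.ne hvb.ne hca hcb hab
    h1 hbc.symm h2 hac'
  refine ⟨_, hr, hfe, ?_, ?_⟩
  · intro x y hx
    have x1 : x ≠ v := hx.ne
    have x2 : x ≠ a := (hx.trans hva).ne
    have x3 : x ≠ b := (hx.trans hvb).ne
    have x4 : x ≠ c := (hx.trans_le hcv).ne
    rw [adj_sw' hvb.ne hca]
    tauto
  · intro x
    rw [adj_sw' hvb.ne hca]
    have x2 := hva.ne
    have x3 := hvb.ne
    tauto

open scoped Classical in
lemma card_split (G : Finset (Edge n)) (v x : Fin n) :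
    deg G x = (univ.filter fun y => v ≤ y ∧ Adj G x y).card +
      (univ.filter fun y => y < v ∧ Adj G y x).card := by
  rw [deg_eq, ← card_union_of_disjoint]
  · congr 1
    ext y
    simp only [mem_filter, mem_univ, true_and, mem_union]
    rw [adj_comm (x := y) (y := x)]
    have := le_or_gt v y
    tauto
  · rw [disjoint_left]
    intro y h1 h2
    simp only [mem_filter, mem_univ, true_and] at h1 h2
    exact absurd h2.1 (not_lt.mpr h1.1)

open scoped Classical in
theorem step {d : Fin n → ℕ} {f : Finset (Edge n) → ℝ} (hf : SwInv d f) (v : Fin n)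
    (IH : ∀ G ∈ realizations d, ∀ G' ∈ realizations d,
      (∀ x y, x ≤ v → (Adj G x y ↔ Adj G' x y)) → f G = f G') :
    ∀ N : ℕ, ∀ G ∈ realizations d, ∀ G' ∈ realizations d,
      (∀ x y, x < v → (Adj G x y ↔ Adj G' x y)) →
      (univ.filter fun x => Adj G v x ∧ ¬ Adj G' v x).card = N → f G = f G' := by
  intro N
  induction N with
  | zero =>
    intro G hG G' hG' hagree hcard
    refine IH G hG G' hG' ?_
    have hsub : (univ.filter fun x => Adj G v x) ⊆ (univ.filter fun x => Adj G' v x) := by
      intro x hx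
      simp only [mem_filter, mem_univ, true_and] at hx ⊢
      by_contra hcon
      have : x ∈ (univ.filter fun x => Adj G v x ∧ ¬ Adj G' v x) := by
        simp only [mem_filter, mem_univ, true_and]; exact ⟨hx, hcon⟩
      rw [card_eq_zero] at hcard
      rw [hcard] at this
      simp at this
    have heq := eq_of_subset_of_card_le hsub (by
      rw [← deg_eq, ← deg_eq, mem_realizations.mp hG, mem_realizations.mp hG'])
    intro x y hx
    rcases hx.lt_or_eq with h | h
    · exact hagree x y h
    · subst h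
      have := Finset.ext_iff.mp heq y
      simpa only [mem_filter, mem_univ, true_and] using this
  | succ N ih =>
    intro G hG G' hG' hagree hcard
    obtain ⟨a, ha⟩ : (univ.filter fun x => Adj G v x ∧ ¬ Adj G' v x).Nonempty := by
      rw [← card_pos]; omega
    have ha' := ha
    simp only [mem_filter, mem_univ, true_and] at ha'
    obtain ⟨ha1, ha2⟩ := ha'
    obtain ⟨b, hb1, hb2⟩ : ∃ b, Adj G' v b ∧ ¬ Adj G v b := by
      by_contra hno
      push Not at hno
      have hsub : (univ.filter fun x => Adj G' v x) ⊆ (univ.filter fun x => Adj G v x) := by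
        intro x hx
        simp only [mem_filter, mem_univ, true_and] at hx ⊢
        exact hno x hx
      have heq := eq_of_subset_of_card_le hsub (by
        rw [← deg_eq, ← deg_eq, mem_realizations.mp hG, mem_realizations.mp hG'])
      have := Finset.ext_iff.mp heq a
      simp only [mem_filter, mem_univ, true_and] at this
      exact ha2 (this.mpr ha1)
    have hva : v < a := by
      by_contra h
      have hne : a ≠ v := ha1.ne.symm
      have hlt : a < v := lt_of_le_of_ne (not_lt.mp h) hne
      exact ha2 ((hagree a v hlt).mp ha1.symm).symm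
    have hvb : v < b := by
      by_contra h
      have hne : b ≠ v := hb1.ne.symm
      have hlt : b < v := lt_of_le_of_ne (not_lt.mp h) hne
      exact hb2 ((hagree b v hlt).mpr hb1.symm).symm
    have hcardeq : ∀ x, (univ.filter fun y => v ≤ y ∧ Adj G x y).card =
        (univ.filter fun y => v ≤ y ∧ Adj G' x y).card := by
      intro x
      have e1 := card_split G v x
      have e2 := card_split G' v x
      have e3 : (univ.filter fun y => y < v ∧ Adj G y x) = (univ.filter fun y => y < v ∧ Adj G' y x) := by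
        ext y
        simp only [mem_filter, mem_univ, true_and]
        constructor
        · rintro ⟨h1, h2⟩; exact ⟨h1, (hagree y x h1).mp h2⟩
        · rintro ⟨h1, h2⟩; exact ⟨h1, (hagree y x h1).mpr h2⟩
      rw [mem_realizations.mp hG] at e1
      rw [mem_realizations.mp hG'] at e2
      rw [e3] at e1
      omega
    have hbne : b ≠ a := by rintro rfl; exact hb2 ha1
    rcases le_total (univ.filter fun x => v ≤ x ∧ Adj G a x).card
        (univ.filter fun x => v ≤ x ∧ Adj G b x).card with hle | hle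
    · obtain ⟨G1, hG1, hfe, hag, hnb⟩ := one_side hf hG hva hvb ha1 hb2 hle
      rw [← hfe]
      refine ih G1 hG1 G' hG' ?_ ?_
      · intro x y hx
        rw [hag x y hx]; exact hagree x y hx
      · have : (univ.filter fun x => Adj G1 v x ∧ ¬ Adj G' v x) =
            (univ.filter fun x => Adj G v x ∧ ¬ Adj G' v x).erase a := by
          ext x
          simp only [mem_filter, mem_univ, true_and, mem_erase]
          rw [hnb x]
          constructor
          · rintro ⟨h1 | h1, h2⟩
            · exact ⟨h1.2, h1.1, h2⟩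
            · subst h1; exact absurd hb1 h2
          · rintro ⟨h1, h2, h3⟩
            exact ⟨Or.inl ⟨h2, h1⟩, h3⟩
        rw [this, card_erase_of_mem ha, hcard]
        rfl
    · rw [hcardeq a, hcardeq b] at hle
      obtain ⟨G1, hG1, hfe, hag, hnb⟩ := one_side hf hG' hvb hva hb1 ha2 hle
      rw [← hfe]
      refine ih G hG G1 hG1 ?_ ?_
      · intro x y hx
        rw [hag x y hx]; exact hagree x y hx
      · have : (univ.filter fun x => Adj G v x ∧ ¬ Adj G1 v x) =
            (univ.filter fun x => Adj G v x ∧ ¬ Adj G' v x).erase a := by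
          ext x
          simp only [mem_filter, mem_univ, true_and, mem_erase]
          rw [hnb x]
          constructor
          · rintro ⟨h1, h2⟩
            push Not at h2
            refine ⟨h2.2, h1, fun h3 => ?_⟩
            have := h2.1 h3
            rw [this] at h1
            exact hb2 h1
          · rintro ⟨h1, h2, h3⟩
            refine ⟨h2, ?_⟩
            rintro (h4 | h4)
            · exact h3 h4.1
            · exact h1 h4
        rw [this, card_erase_of_mem ha, hcard]
        rfl

theorem conn_aux {d : Fin n → ℕ} {f : Finset (Edge n) → ℝ} (hf : SwInv d f) :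
    ∀ j : ℕ, j ≤ n → ∀ G ∈ realizations d, ∀ G' ∈ realizations d,
      (∀ x y : Fin n, x.val < n - j → (Adj G x y ↔ Adj G' x y)) → f G = f G' := by
  intro j
  induction j with
  | zero =>
    intro _ G _ G' _ h
    have : G = G' := ext_adj fun x y _ => h x y (by have := x.2; omega)
    rw [this]
  | succ j ih =>
    intro hj G hG G' hG' h
    have hlt : n - (j + 1) < n := by omega
    refine step hf ⟨n - (j + 1), hlt⟩ ?_ _ G hG G' hG' ?_ rfl
    · intro G hG G' hG' h'
      refine ih (by omega) G hG G' hG' fun x y hx => h' x y ?_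
      rw [Fin.le_def]
      show x.val ≤ n - (j + 1)
      omega
    · intro x y hx
      exact h x y hx

end Crest.Agent.SwGap.Conn

namespace Crest.Agent.SwGap

open Crest.SwitchChain

/-- **Switch connectivity.** -/
theorem switch_connected {n : ℕ} (d : Fin n → ℕ) (f : Finset (Edge n) → ℝ)
    (hf : ∀ G G' : Finset (Edge n), G ∈ realizations d → G' ∈ realizations d → ∀ a b c e : Fin n,
      a ≠ b → a ≠ c → a ≠ e → b ≠ c → b ≠ e → c ≠ e →
      Adj G a c → Adj G b e → ¬ Adj G a e → ¬ Adj G b c → ¬ Adj G' a c → ¬ Adj G' b e → Adj G' a e → Adj G' b c →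
      (∀ x y, s(x,y) ≠ s(a,c) → s(x,y) ≠ s(b,e) → s(x,y) ≠ s(a,e) → s(x,y) ≠ s(b,c) → (Adj G x y ↔ Adj G' x y)) → f G = f G') :
    ∀ G ∈ realizations d, ∀ G' ∈ realizations d, f G = f G' := by
  intro G hG G' hG'
  refine Conn.conn_aux hf n le_rfl G hG G' hG' fun x y hx => ?_
  omega

end Crest.Agent.SwGap
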