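import Crest.Agent.SwGap.Rel

/-! Alternating block and the switch involution. -/

set_option autoImplicit false
open Finset Crest.SwitchChain

namespace Crest.Agent.SwGap

variable {n : ℕ}

/-- `G` alternates on the 4-cycle `a - c - b - d` -/
def isD (a b c d : Fin n) (G : Finset (Edge n)) : Prop :=
  v G a c = v G b d ∧ v G a d = v G b c ∧ v G a c + v G a d = 1

/-- toggle the block `{a,b} × {c,d}` -/
noncomputable def tog (a b c d : Fin n) (G : Finset (Edge n)) : Finset (Edge n) :=
  ofAdj (fun p q => (InI a b {c, d} p q ∧ ¬ Adj G p q) ∨ (¬ InI a b {c, d} p q ∧ Adj G p q))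

open scoped Classical in
/-- the switch on the 4-cycle `a - c - b - d` (identity if not alternating) -/
noncomputable def sw (a b c d : Fin n) (G : Finset (Edge n)) : Finset (Edge n) :=
  if isD a b c d G then tog a b c d G else G

open scoped Classical in
/-- average of `F` over the alternating graphs of the `ab`-class of `G` -/
noncomputable def DA (a b c d : Fin n) (F : Finset (Edge n) → ℝ) (G : Finset (Edge n)) : ℝ :=
  (∑ G' ∈ (cls (RA a b) G).filter (fun G' => isD a b c d G'), F G') /
    (((cls (RA a b) G).filter (fun G' => isD a b c d G')).card : ℝ)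

open scoped Classical in
/-- the error term of the conflict inequality -/
noncomputable def errT (a b c d : Fin n) (F : Finset (Edge n) → ℝ) : ℝ :=
  ∑ G ∈ univ.filter (fun G => isD a b c d G), (DA a b c d F G - avg (RA a b) F G) ^ 2

lemma v_tog_block {a b c d : Fin n} {G : Finset (Edge n)} {p q : Fin n} (hpq : p ≠ q)
    (h : InI a b {c, d} p q) : v (tog a b c d G) p q = 1 - v G p q := by
  classical
  unfold tog
  rw [v_ofAdj (by
    intro x y hxy
    rcases hxy with ⟨h1, h2⟩ | ⟨h1, h2⟩
    · exact Or.inl ⟨h1.symm, fun h => h2 h.symm⟩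
    · exact Or.inr ⟨fun h => h1 h.symm, h2.symm⟩) hpq]
  simp only [h, true_and, not_true_eq_false, false_and, or_false]
  unfold v
  by_cases hA : Adj G p q <;> simp [hA]

lemma v_tog_off {a b c d : Fin n} {G : Finset (Edge n)} {p q : Fin n}
    (h : ¬ InI a b {c, d} p q) : v (tog a b c d G) p q = v G p q := by
  classical
  by_cases hpq : p = q
  · subst hpq; simp
  unfold tog
  rw [v_ofAdj (by
    intro x y hxy
    rcases hxy with ⟨h1, h2⟩ | ⟨h1, h2⟩
    · exact Or.inl ⟨h1.symm, fun h => h2 h.symm⟩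
    · exact Or.inr ⟨fun h => h1 h.symm, h2.symm⟩) hpq]
  simp only [h, false_and, not_false_eq_true, true_and, false_or]
  unfold v
  by_cases hA : Adj G p q <;> simp [hA]

lemma isD_symm {a b c d : Fin n} {G : Finset (Edge n)} : isD a b c d G ↔ isD c d a b G := by
  unfold isD
  rw [v_comm G c a, v_comm G d b, v_comm G c b, v_comm G d a]
  constructor
  · rintro ⟨h1, h2, h3⟩; refine ⟨h1, h2.symm, ?_⟩; omega
  · rintro ⟨h1, h2, h3⟩; refine ⟨h1, h2.symm, ?_⟩; omega

lemma inI_block_symm {a b c d p q : Fin n} : InI a b {c, d} p q ↔ InI c d {a, b} p q := by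
  unfold InI; simp only [mem_insert, mem_singleton]
  constructor
  · rintro (⟨h1, h2⟩ | ⟨h1, h2⟩)
    · exact Or.inr ⟨h2, h1⟩
    · exact Or.inl ⟨h2, h1⟩
  · rintro (⟨h1, h2⟩ | ⟨h1, h2⟩)
    · exact Or.inr ⟨h2, h1⟩
    · exact Or.inl ⟨h2, h1⟩

lemma tog_symm {a b c d : Fin n} (G : Finset (Edge n)) : tog a b c d G = tog c d a b G := by
  apply ext_v
  intro p q hpq
  by_cases h : InI a b {c, d} p q
  · rw [v_tog_block hpq h, v_tog_block hpq (inI_block_symm.mp h)]
  · rw [v_tog_off h, v_tog_off (fun h' => h (inI_block_symm.mpr h'))]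

lemma sw_symm {a b c d : Fin n} (G : Finset (Edge n)) : sw a b c d G = sw c d a b G := by
  unfold sw
  by_cases h : isD a b c d G
  · rw [if_pos h, if_pos (isD_symm.mp h), tog_symm]
  · rw [if_neg h, if_neg (fun h' => h (isD_symm.mpr h'))]

/-- values of the toggled block -/
lemma v_tog {a b c d : Fin n} (hac : a ≠ c) (had : a ≠ d) (hbc : b ≠ c) (hbd : b ≠ d)
    (G : Finset (Edge n)) :
    v (tog a b c d G) a c = 1 - v G a c ∧ v (tog a b c d G) a d = 1 - v G a d ∧
    v (tog a b c d G) b c = 1 - v G b c ∧ v (tog a b c d G) b d = 1 - v G b d := by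
  refine ⟨v_tog_block hac ?_, v_tog_block had ?_, v_tog_block hbc ?_, v_tog_block hbd ?_⟩ <;>
    (unfold InI; simp)

lemma isD_tog {a b c d : Fin n} (hac : a ≠ c) (had : a ≠ d) (hbc : b ≠ c) (hbd : b ≠ d)
    {G : Finset (Edge n)} (h : isD a b c d G) : isD a b c d (tog a b c d G) := by
  obtain ⟨h1, h2, h3, h4⟩ := v_tog hac had hbc hbd G
  unfold isD at *
  have l1 := v_le G a c; have l2 := v_le G a d; have l3 := v_le G b c; have l4 := v_le G b d
  omega

lemma tog_tog {a b c d : Fin n} (G : Finset (Edge n)) : tog a b c d (tog a b c d G) = G := by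
  apply ext_v
  intro p q hpq
  by_cases h : InI a b {c, d} p q
  · rw [v_tog_block hpq h, v_tog_block hpq h]
    have := v_le G p q; omega
  · rw [v_tog_off h, v_tog_off h]

lemma sw_sw {a b c d : Fin n} (hac : a ≠ c) (had : a ≠ d) (hbc : b ≠ c) (hbd : b ≠ d)
    (G : Finset (Edge n)) : sw a b c d (sw a b c d G) = G := by
  unfold sw
  by_cases h : isD a b c d G
  · rw [if_pos h, if_pos (isD_tog hac had hbc hbd h), tog_tog]
  · rw [if_neg h, if_neg h]

lemma ra_tog {a b c d : Fin n} (hac : a ≠ c) (had : a ≠ d) (hbc : b ≠ c) (hbd : b ≠ d)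
    (hcd : c ≠ d) {G : Finset (Edge n)} (h : isD a b c d G) : RA a b G (tog a b c d G) := by
  obtain ⟨h1, h2, h3, h4⟩ := v_tog hac had hbc hbd G
  unfold isD at h
  have l1 := v_le G a c; have l2 := v_le G a d; have l3 := v_le G b c; have l4 := v_le G b d
  have offn : ∀ u, u ≠ c → u ≠ d → u ≠ a → u ≠ b → ¬ InI a b {c, d} a u ∧ ¬ InI a b {c, d} b u := by
    intro u hc hd ha hb
    unfold InI; simp only [mem_insert, mem_singleton]
    constructor
    · rintro (⟨_, h | h⟩ | ⟨h | h, _⟩)
      · exact hc h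
      · exact hd h
      · exact ha h
      · exact hb h
    · rintro (⟨_, h | h⟩ | ⟨h | h, _⟩)
      · exact hc h
      · exact hd h
      · exact ha h
      · exact hb h
  refine ⟨?_, ?_, ?_⟩
  · intro p q hpq
    refine (v_tog_off ?_).symm
    intro h'; apply hpq
    unfold InI at h' ⊢
    simp only [mem_insert, mem_singleton, mem_Out] at h' ⊢
    rcases h' with ⟨g1, g2⟩ | ⟨g1, g2⟩
    · left; refine ⟨g1, ?_⟩; rcases g2 with rfl | rfl
      · exact ⟨hac.symm, hbc.symm⟩
      · exact ⟨had.symm, hbd.symm⟩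
    · right; refine ⟨g1, ?_⟩; rcases g2 with rfl | rfl
      · exact ⟨hac.symm, hbc.symm⟩
      · exact ⟨had.symm, hbd.symm⟩
  · intro u hu
    simp only [mem_Out] at hu
    by_cases hc : u = c
    · subst hc; omega
    · by_cases hd : u = d
      · subst hd; omega
      · obtain ⟨g1, g2⟩ := offn u hc hd hu.1 hu.2
        rw [v_tog_off g1, v_tog_off g2]
  · rw [sum_Out hac had hbc hbd hcd, sum_Out hac had hbc hbd hcd]
    have e : ∑ u ∈ Out4 a b c d, v G a u = ∑ u ∈ Out4 a b c d, v (tog a b c d G) a u := by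
      refine sum_congr rfl (fun u hu => ?_)
      simp only [mem_Out4] at hu
      rw [v_tog_off (offn u hu.2.2.1 hu.2.2.2 hu.1 hu.2.1).1]
    rw [e]; omega

lemma ra_sw {a b c d : Fin n} (hac : a ≠ c) (had : a ≠ d) (hbc : b ≠ c) (hbd : b ≠ d)
    (hcd : c ≠ d) (G : Finset (Edge n)) : RA a b G (sw a b c d G) := by
  unfold sw
  split
  · next h => exact ra_tog hac had hbc hbd hcd h
  · exact (relO_equiv a b _).refl _

end Crest.Agent.SwGap
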