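import Crest.Agent.SwGap.Oper

/-! Three-row inequality (abstract form), task T1 of row S0453. -/

set_option autoImplicit false
open Finset

namespace Crest.Agent.SwGap

section Defs

variable {V : Type*} [Fintype V] [DecidableEq V]

/-- the colourings -/
def colSpace (X1 X2 : Finset V) (dl : Fin 3 → ℤ) : Finset (V → Fin 3) :=
  univ.filter fun s => (∀ x, x ∉ X1 → x ∉ X2 → s x = 0) ∧
    ∀ i, ((X1.filter fun x => s x = i).card : ℤ) - ((X2.filter fun x => s x = i).card : ℤ) = dl i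

/-- average over the states with the same colour `i` set -/
noncomputable def rowAvg (X1 X2 : Finset V) (dl : Fin 3 → ℤ) (i : Fin 3) (F : (V → Fin 3) → ℝ)
    (s : V → Fin 3) : ℝ :=
  (∑ t ∈ (colSpace X1 X2 dl).filter (fun t => ∀ x ∈ X1 ∪ X2, (s x = i ↔ t x = i)), F t) /
    (((colSpace X1 X2 dl).filter (fun t => ∀ x ∈ X1 ∪ X2, (s x = i ↔ t x = i))).card : ℝ)

end Defs

namespace ThreeRow

section Spectral

variable {Ω : Type*} [Fintype Ω]

theorem exists_eigenbasis (S : Module.End ℝ (Ω → ℝ)) (hS : ∀ f g, ip (S f) g = ip f (S g)) :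
    ∃ (m : ℕ) (e : Fin m → (Ω → ℝ)) (μ : Fin m → ℝ), (∀ i, S (e i) = μ i • e i) ∧
      (∀ i, e i ≠ 0) ∧ ∀ f g, ip f g = ∑ i, ip f (e i) * ip g (e i) := by
  classical
  let L : EuclideanSpace ℝ Ω ≃ₗ[ℝ] (Ω → ℝ) := WithLp.linearEquiv 2 ℝ (Ω → ℝ)
  have hin : ∀ x y : EuclideanSpace ℝ Ω, inner ℝ x y = ip (L x) (L y) := by
    intro x y
    rw [PiLp.inner_apply]
    unfold ip
    refine sum_congr rfl fun i _ => ?_
    show inner ℝ (x i) (y i) = x i * y i
    simp [mul_comm]
  let T : EuclideanSpace ℝ Ω →ₗ[ℝ] EuclideanSpace ℝ Ω := L.symm.toLinearMap ∘ₗ S ∘ₗ L.toLinearMap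
  have hT : T.IsSymmetric := by
    intro x y
    rw [hin, hin]
    show ip (L (L.symm (S (L x)))) (L y) = ip (L x) (L (L.symm (S (L y))))
    rw [L.apply_symm_apply, L.apply_symm_apply, hS]
  let b := hT.eigenvectorBasis (n := Module.finrank ℝ (EuclideanSpace ℝ Ω)) rfl
  let μ := hT.eigenvalues (n := Module.finrank ℝ (EuclideanSpace ℝ Ω)) rfl
  refine ⟨Module.finrank ℝ (EuclideanSpace ℝ Ω), fun i => L (b i), μ, ?_, ?_, ?_⟩
  · intro i
    have h := hT.apply_eigenvectorBasis (n := Module.finrank ℝ (EuclideanSpace ℝ Ω)) rfl i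
    have h2 := congrArg L h
    have h3 : L (T (b i)) = S (L (b i)) := by
      show L (L.symm (S (L (b i)))) = _
      rw [L.apply_symm_apply]
    rw [← h3, ← map_smul]
    exact h2
  · intro i h
    have : b i = 0 := by
      apply L.injective
      rw [map_zero]
      exact h
    exact b.orthonormal.ne_zero i this
  · intro f g
    have h := b.sum_inner_mul_inner (L.symm f) (L.symm g)
    rw [hin, L.apply_symm_apply, L.apply_symm_apply] at h
    rw [← h]
    refine sum_congr rfl fun i _ => ?_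
    rw [hin, hin, L.apply_symm_apply, L.apply_symm_apply, ip_comm (L (b i)) g]

theorem spectral_three (P : Fin 3 → Module.End ℝ (Ω → ℝ)) (hP : ∀ i, Proj (P i))
    (h : ∀ (lam : ℝ) (F : Ω → ℝ), F ≠ 0 → (∀ s, lam * F s = ∑ i, P i F s) → 2 < lam → 3 ≤ lam)
    (F : Ω → ℝ) :
    0 ≤ ip (F - P 0 F) (F - P 1 F) + ip (F - P 0 F) (F - P 2 F) + ip (F - P 1 F) (F - P 2 F) := by
  have hsa : ∀ f g, ip ((P 0 + P 1 + P 2) f) g = ip f ((P 0 + P 1 + P 2) g) := by
    intro f g
    simp only [LinearMap.add_apply, ip_add_left, ip_add_right, (hP _).sa]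
  obtain ⟨m, e, μ, he, he0, hpar⟩ := exists_eigenbasis (P 0 + P 1 + P 2) hsa
  set S := P 0 + P 1 + P 2 with hSdef
  have hcase : ∀ i, μ i ≤ 2 ∨ 3 ≤ μ i := by
    intro i
    by_cases h2 : μ i ≤ 2
    · exact Or.inl h2
    · right
      refine h (μ i) (e i) (he0 i) ?_ (by linarith)
      intro s
      have := congrFun (he i) s
      rw [Fin.sum_univ_three]
      simp only [hSdef, LinearMap.add_apply, Pi.add_apply, Pi.smul_apply, smul_eq_mul] at this
      linarith
  -- H = 3 - S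
  set y : Ω → ℝ := (3 : ℝ) • F - S F with hy
  have hye : ∀ i, ip y (e i) = (3 - μ i) * ip F (e i) := by
    intro i
    rw [hy, ip_sub_left, hsa, he i]
    have h1 : ip ((3 : ℝ) • F) (e i) = 3 * ip F (e i) := by
      unfold ip; rw [mul_sum]; refine sum_congr rfl fun s _ => ?_
      simp; ring
    have h2 : ip F (μ i • e i) = μ i * ip F (e i) := by
      unfold ip; rw [mul_sum]; refine sum_congr rfl fun s _ => ?_
      simp; ring
    rw [h1, h2]; ring
  have h1 : 0 ≤ ip y y - ip F y := by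
    rw [hpar y y, hpar F y, ← sum_sub_distrib]
    refine sum_nonneg fun i _ => ?_
    rw [hye]
    have : (3 - μ i) * ip F (e i) * ((3 - μ i) * ip F (e i)) - ip F (e i) * ((3 - μ i) * ip F (e i)) =
      ((3 - μ i) * (2 - μ i)) * (ip F (e i)) ^ 2 := by ring
    rw [this]
    refine mul_nonneg ?_ (sq_nonneg _)
    rcases hcase i with h | h
    · exact mul_nonneg (by linarith) (by linarith)
    · exact mul_nonneg_of_nonpos_of_nonpos (by linarith) (by linarith)
  have hyy : y = (F - P 0 F) + (F - P 1 F) + (F - P 2 F) := by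
    rw [hy, hSdef]
    funext s
    simp
    ring
  have hq : ∀ i, ip (F - P i F) (F - P i F) = ip F (F - P i F) := by
    intro i
    have := (hP i).one_sub
    have h2 := this.sa F ((1 - P i) F)
    rw [this.apply_apply] at h2
    simpa using h2
  have hF : ip F y = ip (F - P 0 F) (F - P 0 F) + ip (F - P 1 F) (F - P 1 F) + ip (F - P 2 F) (F - P 2 F) := by
    rw [hyy, ip_add_right, ip_add_right, hq, hq, hq]
  rw [hF] at h1
  rw [hyy] at h1
  simp only [ip_add_left, ip_add_right] at h1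
  rw [ip_comm (F - P 1 F) (F - P 0 F), ip_comm (F - P 2 F) (F - P 0 F),
    ip_comm (F - P 2 F) (F - P 1 F)] at h1
  linarith

end Spectral

section Gen

variable {Ω : Type*} [Fintype Ω]

lemma avg_abs_le {r : Ω → Ω → Prop} (hr : Equivalence r) (H : Ω → ℝ) (s : Ω) (M : ℝ)
    (h : ∀ t, r s t → |H t| ≤ M) : |avg r H s| ≤ M := by
  unfold avg
  have hp := cls_card_pos hr s
  rw [abs_div, abs_of_pos hp, div_le_iff₀ hp]
  calc |∑ y ∈ cls r s, H y| ≤ ∑ y ∈ cls r s, |H y| := abs_sum_le_sum_abs _ _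
    _ ≤ ∑ y ∈ cls r s, M := sum_le_sum fun y hy => h y (mem_cls.1 hy)
    _ = M * ((cls r s).card : ℝ) := by rw [sum_const, nsmul_eq_mul, mul_comm]

lemma avg_comp {r : Ω → Ω → Prop} {π : Ω → Ω} (hπ : ∀ s, π (π s) = s)
    (hrπ : ∀ s t, r s t → r (π s) (π t)) (G : Ω → ℝ) (s : Ω) :
    avg r (fun t => G (π t)) s = avg r G (π s) := by
  have key : ∀ G : Ω → ℝ, ∑ y ∈ cls r s, G (π y) = ∑ y ∈ cls r (π s), G y := by
    intro G
    refine sum_nbij' π π ?_ ?_ ?_ ?_ ?_
    · intro t ht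
      exact mem_cls.2 (hrπ _ _ (mem_cls.1 ht))
    · intro t ht
      have := hrπ _ _ (mem_cls.1 ht)
      rw [hπ] at this
      exact mem_cls.2 this
    · intro t _; exact hπ t
    · intro t _; exact hπ t
    · intro t _; rfl
  unfold avg
  rw [key G]
  have h1 := key (fun _ => 1)
  simp only [sum_const, nsmul_eq_mul, mul_one] at h1
  rw [h1]

end Gen

section Col

variable {V : Type*} [Fintype V] [DecidableEq V]

/-- the colourings as a type -/
abbrev Col (X1 X2 : Finset V) (dl : Fin 3 → ℤ) : Type _ := {s : V → Fin 3 // s ∈ colSpace X1 X2 dl}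

/-- same colour `i` set -/
def rel (X1 X2 : Finset V) (dl : Fin 3 → ℤ) (i : Fin 3) (s t : Col X1 X2 dl) : Prop :=
  ∀ x ∈ X1 ∪ X2, (s.1 x = i ↔ t.1 x = i)

lemma rel_equiv (X1 X2 : Finset V) (dl : Fin 3 → ℤ) (i : Fin 3) :
    Equivalence (rel X1 X2 dl i) where
  refl _ _ _ := Iff.rfl
  symm h x hx := (h x hx).symm
  trans h h' x hx := (h x hx).trans (h' x hx)

/-- number of elements of `A` of colour `c` -/
def cnt (A : Finset V) (c : Fin 3) (s : V → Fin 3) : ℕ := (A.filter fun x => s x = c).card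

lemma mem_col {X1 X2 : Finset V} {dl : Fin 3 → ℤ} {s : V → Fin 3} : s ∈ colSpace X1 X2 dl ↔
    (∀ x, x ∉ X1 → x ∉ X2 → s x = 0) ∧ ∀ i, (cnt X1 i s : ℤ) - (cnt X2 i s : ℤ) = dl i := by
  simp [colSpace, cnt]

/-- same type -/
def ST (X1 X2 : Finset V) (x y : V) : Prop := (x ∈ X1 ↔ y ∈ X1) ∧ (x ∈ X2 ↔ y ∈ X2)

lemma swap_mem {A : Finset V} {x y : V} (h : x ∈ A ↔ y ∈ A) (z : V) :
    Equiv.swap x y z ∈ A ↔ z ∈ A := by
  rcases eq_or_ne z x with rfl | hx
  · rw [Equiv.swap_apply_left]; exact h.symm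
  · rcases eq_or_ne z y with rfl | hy
    · rw [Equiv.swap_apply_right]; exact h
    · rw [Equiv.swap_apply_of_ne_of_ne hx hy]

lemma cnt_swap {A : Finset V} {x y : V} (h : x ∈ A ↔ y ∈ A) (c : Fin 3) (s : V → Fin 3) :
    cnt A c (fun z => s (Equiv.swap x y z)) = cnt A c s := by
  unfold cnt
  refine card_nbij' (Equiv.swap x y) (Equiv.swap x y) ?_ ?_ ?_ ?_
  · intro z hz
    rw [mem_coe, mem_filter] at hz ⊢
    exact ⟨(swap_mem h z).2 hz.1, hz.2⟩
  · intro z hz
    rw [mem_coe, mem_filter] at hz ⊢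
    refine ⟨(swap_mem h z).2 hz.1, ?_⟩
    show s (Equiv.swap x y (Equiv.swap x y z)) = c
    rw [Equiv.swap_apply_self]
    exact hz.2
  · intro z _; exact Equiv.swap_apply_self _ _ _
  · intro z _; exact Equiv.swap_apply_self _ _ _

variable {X1 X2 : Finset V} {dl : Fin 3 → ℤ}

/-- swapping two positions of the same type -/
def swS {x y : V} (h : ST X1 X2 x y) (s : Col X1 X2 dl) : Col X1 X2 dl :=
  ⟨fun z => s.1 (Equiv.swap x y z), by
    have hs := mem_col.1 s.2
    refine mem_col.2 ⟨fun z h1 h2 => hs.1 _ ?_ ?_, fun i => ?_⟩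
    · rwa [swap_mem h.1]
    · rwa [swap_mem h.2]
    · rw [cnt_swap h.1, cnt_swap h.2]
      exact hs.2 i⟩

lemma swS_swS {x y : V} (h : ST X1 X2 x y) (s : Col X1 X2 dl) : swS h (swS h s) = s := by
  apply Subtype.ext
  funext z
  show s.1 (Equiv.swap x y (Equiv.swap x y z)) = _
  rw [Equiv.swap_apply_self]

lemma swap_mem_union {x y : V} (h : ST X1 X2 x y) {z : V} (hz : z ∈ X1 ∪ X2) :
    Equiv.swap x y z ∈ X1 ∪ X2 := by
  rw [mem_union] at hz ⊢
  rw [swap_mem h.1, swap_mem h.2]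
  exact hz

lemma rel_swS {x y : V} (h : ST X1 X2 x y) (i : Fin 3) (s t : Col X1 X2 dl)
    (hst : rel X1 X2 dl i s t) : rel X1 X2 dl i (swS h s) (swS h t) := fun z hz =>
  hst _ (swap_mem_union h hz)

/-- the eigenvalue equation -/
def Eig (lam : ℝ) (F : Col X1 X2 dl → ℝ) : Prop :=
  ∀ s, lam * F s = ∑ i, avg (rel X1 X2 dl i) F s

lemma Eig.eq1 {lam : ℝ} {F : Col X1 X2 dl → ℝ} (h : Eig lam F) (i : Fin 3) (s : Col X1 X2 dl) :
    (lam - 1) * avg (rel X1 X2 dl i) F s =
      avg (rel X1 X2 dl i) (fun t => ∑ j ∈ univ.erase i, avg (rel X1 X2 dl j) F t) s := by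
  have h1 : (fun t => ∑ j ∈ univ.erase i, avg (rel X1 X2 dl j) F t) =
      lam • F + (-1 : ℝ) • avg (rel X1 X2 dl i) F := by
    funext t
    have h2 := add_sum_erase univ (fun j => avg (rel X1 X2 dl j) F t) (mem_univ i)
    have h3 := h t
    simp only [Pi.add_apply, Pi.smul_apply, smul_eq_mul]
    linarith
  rw [h1, avg_add, avg_smul, avg_smul,
    avg_avg_of_le (rel_equiv X1 X2 dl i) (rel_equiv X1 X2 dl i) (fun _ _ h => h)]
  simp only [Pi.add_apply, Pi.smul_apply, smul_eq_mul]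
  ring

lemma eig_anti {lam : ℝ} (hlam : 2 < lam) {F : Col X1 X2 dl → ℝ} (hF : Eig lam F) {x y : V}
    (h : ST X1 X2 x y) (hanti : ∀ s, F (swS h s) = - F s) (s : Col X1 X2 dl) : F s = 0 := by
  have hg : ∀ i t, avg (rel X1 X2 dl i) F (swS h t) = - avg (rel X1 X2 dl i) F t := by
    intro i t
    rw [← avg_comp (swS_swS h) (rel_swS h i) F t]
    have : (fun t => F (swS h t)) = (-1 : ℝ) • F := by
      funext t
      rw [hanti]
      simp
    rw [this, avg_smul]
    simp
  have hz : ∀ i (t : Col X1 X2 dl), (t.1 x = i ↔ t.1 y = i) → avg (rel X1 X2 dl i) F t = 0 := by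
    intro i t ht
    have h1 : rel X1 X2 dl i (swS h t) t := by
      intro z _
      show t.1 (Equiv.swap x y z) = i ↔ _
      rcases eq_or_ne z x with rfl | hx
      · rw [Equiv.swap_apply_left]; exact ht.symm
      · rcases eq_or_ne z y with rfl | hy
        · rw [Equiv.swap_apply_right]; exact ht
        · rw [Equiv.swap_apply_of_ne_of_ne hx hy]
    have h2 := avg_congr (rel_equiv X1 X2 dl i) F h1
    rw [hg] at h2
    linarith
  obtain ⟨⟨i0, s0⟩, -, hmax⟩ := exists_max_image (univ : Finset (Fin 3 × Col X1 X2 dl))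
    (fun p => |avg (rel X1 X2 dl p.1) F p.2|) ⟨(0, s), mem_univ _⟩
  have hM : avg (rel X1 X2 dl i0) F s0 = 0 := by
    by_cases hc : s0.1 x = i0 ↔ s0.1 y = i0
    · exact hz _ _ hc
    · have hb : |avg (rel X1 X2 dl i0)
          (fun t => ∑ j ∈ univ.erase i0, avg (rel X1 X2 dl j) F t) s0| ≤
          |avg (rel X1 X2 dl i0) F s0| := by
        refine avg_abs_le (rel_equiv X1 X2 dl i0) _ _ _ fun t ht => ?_
        have hxu : x ∈ X1 ∪ X2 := by
          by_contra hx
          rw [mem_union, not_or] at hx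
          have hy1 : y ∉ X1 := fun h' => hx.1 (h.1.2 h')
          have hy2 : y ∉ X2 := fun h' => hx.2 (h.2.2 h')
          have hs := (mem_col.1 s0.2).1
          rw [hs x hx.1 hx.2, hs y hy1 hy2] at hc
          exact hc Iff.rfl
        have hyu : y ∈ X1 ∪ X2 := by
          rw [mem_union] at hxu ⊢
          rw [← h.1, ← h.2]
          exact hxu
        have hct : ¬ (t.1 x = i0 ↔ t.1 y = i0) := by
          rw [← ht x hxu, ← ht y hyu]
          exact hc
        by_cases h1 : t.1 x = i0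
        · have h2 : t.1 y ≠ i0 := fun h2 => hct ⟨fun _ => h2, fun _ => h1⟩
          rw [sum_eq_single (t.1 y)]
          · exact hmax (t.1 y, t) (mem_univ _)
          · intro j hj hjy
            refine hz j t ⟨fun h3 => ?_, fun h3 => ?_⟩
            · exact absurd (h3.symm.trans h1) (ne_of_mem_erase hj)
            · exact absurd h3.symm hjy
          · intro h3
            exact absurd (mem_erase.2 ⟨h2, mem_univ _⟩) h3
        · have h2 : t.1 y = i0 := by
            by_contra h2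
            exact hct ⟨fun h3 => absurd h3 h1, fun h3 => absurd h3 h2⟩
          rw [sum_eq_single (t.1 x)]
          · exact hmax (t.1 x, t) (mem_univ _)
          · intro j hj hjx
            refine hz j t ⟨fun h3 => ?_, fun h3 => ?_⟩
            · exact absurd h3.symm hjx
            · exact absurd (h3.symm.trans h2) (ne_of_mem_erase hj)
          · intro h3
            exact absurd (mem_erase.2 ⟨h1, mem_univ _⟩) h3
      rw [← hF.eq1, abs_mul, abs_of_pos (by linarith : 0 < lam - 1)] at hb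
      have h0 := abs_nonneg (avg (rel X1 X2 dl i0) F s0)
      have : |avg (rel X1 X2 dl i0) F s0| ≤ 0 := by nlinarith
      exact abs_nonpos_iff.1 this
  have hall : ∀ i t, avg (rel X1 X2 dl i) F t = 0 := by
    intro i t
    have := hmax (i, t) (mem_univ _)
    simp only [hM, abs_zero] at this
    exact abs_nonpos_iff.1 this
  have h3 := hF s
  rw [sum_eq_zero (fun i _ => hall i s)] at h3
  rcases mul_eq_zero.1 h3 with h4 | h4
  · linarith
  · exact h4

lemma eig_sym {lam : ℝ} (hlam : 2 < lam) {F : Col X1 X2 dl → ℝ} (hF : Eig lam F) {x y : V}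
    (h : ST X1 X2 x y) (s : Col X1 X2 dl) : F (swS h s) = F s := by
  have h1 : Eig lam (F + (-1 : ℝ) • fun t => F (swS h t)) := by
    intro t
    have e : ∀ i, avg (rel X1 X2 dl i) (F + (-1 : ℝ) • fun t => F (swS h t)) t =
        avg (rel X1 X2 dl i) F t - avg (rel X1 X2 dl i) F (swS h t) := by
      intro i
      rw [avg_add, avg_smul, ← avg_comp (swS_swS h) (rel_swS h i) F t]
      simp only [Pi.add_apply, Pi.smul_apply, smul_eq_mul]
      ring
    rw [sum_congr rfl fun i _ => e i, sum_sub_distrib, ← hF, ← hF]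
    simp only [Pi.add_apply, Pi.smul_apply, smul_eq_mul]
    ring
  have h2 := eig_anti hlam h1 h (by
    intro t
    simp only [Pi.add_apply, Pi.smul_apply, smul_eq_mul, swS_swS]
    ring) s
  simp only [Pi.add_apply, Pi.smul_apply, smul_eq_mul] at h2
  linarith

lemma cnt_update {A : Finset V} {x : V} (hx : x ∈ A) (s t : V → Fin 3)
    (h : ∀ z ∈ A, z ≠ x → t z = s z) (c : Fin 3) :
    (cnt A c t : ℤ) = cnt A c s - (if s x = c then 1 else 0) + (if t x = c then 1 else 0) := by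
  have h1 : ∀ u : V → Fin 3, (cnt A c u : ℤ) =
      (if u x = c then 1 else 0) + ∑ z ∈ A.erase x, (if u z = c then (1 : ℤ) else 0) := by
    intro u
    unfold cnt
    rw [card_filter, Nat.cast_sum]
    push_cast
    exact (add_sum_erase A _ hx).symm
  rw [h1 s, h1 t]
  have h2 : ∑ z ∈ A.erase x, (if t z = c then (1 : ℤ) else 0) =
      ∑ z ∈ A.erase x, (if s z = c then (1 : ℤ) else 0) :=
    sum_congr rfl fun z hz => by rw [h z (mem_of_mem_erase hz) (ne_of_mem_erase hz)]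
  rw [h2]
  ring

/-- recolour `x` and `y` by `c` -/
def rcf (x y : V) (c : Fin 3) (s : V → Fin 3) : V → Fin 3 := fun z => if z = x ∨ z = y then c else s z

lemma cnt_rcf1 (hd : Disjoint X1 X2) {x y : V} (hx : x ∈ X1) (hy : y ∈ X2) (c c' : Fin 3)
    (s : V → Fin 3) : (cnt X1 c' (rcf x y c s) : ℤ) =
      cnt X1 c' s - (if s x = c' then 1 else 0) + (if c = c' then 1 else 0) := by
  rw [cnt_update hx s (rcf x y c s)]
  · simp [rcf]
  · intro z hz hzx
    have : z ≠ y := fun h => disjoint_left.1 hd hz (h ▸ hy)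
    simp [rcf, hzx, this]

lemma cnt_rcf2 (hd : Disjoint X1 X2) {x y : V} (hx : x ∈ X1) (hy : y ∈ X2) (c c' : Fin 3)
    (s : V → Fin 3) : (cnt X2 c' (rcf x y c s) : ℤ) =
      cnt X2 c' s - (if s y = c' then 1 else 0) + (if c = c' then 1 else 0) := by
  rw [cnt_update hy s (rcf x y c s)]
  · simp [rcf]
  · intro z hz hzx
    have : z ≠ x := fun h => disjoint_left.1 hd (h ▸ hx) hz
    simp [rcf, hzx, this]

lemma rcf_mem (hd : Disjoint X1 X2) {x y : V} (hx : x ∈ X1) (hy : y ∈ X2) (c : Fin 3)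
    {s : V → Fin 3} (hs : s ∈ colSpace X1 X2 dl) (h : s x = s y) :
    rcf x y c s ∈ colSpace X1 X2 dl := by
  rw [mem_col] at hs ⊢
  refine ⟨fun z h1 h2 => ?_, fun i => ?_⟩
  · have e1 : z ≠ x := fun h => h1 (h ▸ hx)
    have e2 : z ≠ y := fun h => h2 (h ▸ hy)
    simp only [rcf, e1, e2, or_self, if_false]
    exact hs.1 z h1 h2
  · rw [cnt_rcf1 hd hx hy, cnt_rcf2 hd hx hy, h, ← hs.2 i]
    ring

/-- recolouring as a total function -/
def RC (hd : Disjoint X1 X2) {x y : V} (hx : x ∈ X1) (hy : y ∈ X2) (c : Fin 3)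
    (s : Col X1 X2 dl) : Col X1 X2 dl :=
  if h : s.1 x = s.1 y then ⟨rcf x y c s.1, rcf_mem hd hx hy c s.2 h⟩ else s

lemma RC_val (hd : Disjoint X1 X2) {x y : V} (hx : x ∈ X1) (hy : y ∈ X2) (c : Fin 3)
    (s : Col X1 X2 dl) (h : s.1 x = s.1 y) : (RC hd hx hy c s).1 = rcf x y c s.1 := by
  unfold RC
  rw [dif_pos h]

/-- sum over a class with both `x`, `y` coloured `c` -/
lemma sum_RC (hd : Disjoint X1 X2) {x y : V} (hx : x ∈ X1) (hy : y ∈ X2) {i c : Fin 3}
    (hc : c ≠ i) (s s' : Col X1 X2 dl) (hsx : s.1 x = i) (hsy : s.1 y = i)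
    (hs' : ∀ z, z ≠ x → z ≠ y → (s'.1 z = i ↔ s.1 z = i)) (hsx' : s'.1 x ≠ i) (hsy' : s'.1 y ≠ i)
    (ψ : Col X1 X2 dl → ℝ) :
    ∑ t ∈ (cls (rel X1 X2 dl i) s').filter (fun t => t.1 x = c ∧ t.1 y = c), ψ t =
      ∑ t ∈ cls (rel X1 X2 dl i) s, ψ (RC hd hx hy c t) := by
  have hxu : x ∈ X1 ∪ X2 := mem_union_left _ hx
  have hyu : y ∈ X1 ∪ X2 := mem_union_right _ hy
  symm
  refine sum_nbij' (RC hd hx hy c) (RC hd hx hy i) ?_ ?_ ?_ ?_ ?_
  · intro t ht
    have ht' := mem_cls.1 ht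
    have e1 : t.1 x = i := (ht' x hxu).1 hsx
    have e2 : t.1 y = i := (ht' y hyu).1 hsy
    have e3 := RC_val hd hx hy c t (e1.trans e2.symm)
    rw [mem_filter, mem_cls, e3]
    refine ⟨fun z hz => ?_, by simp [rcf], by simp [rcf]⟩
    rw [e3]
    by_cases h1 : z = x
    · subst h1; simp [rcf, hsx', hc]
    · by_cases h2 : z = y
      · subst h2; simp [rcf, hsy', hc]
      · simp only [rcf, h1, h2, or_self, if_false]
        rw [hs' z h1 h2]
        exact ht' z hz
  · intro t ht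
    rw [mem_filter, mem_cls] at ht
    obtain ⟨ht', e1, e2⟩ := ht
    have e3 := RC_val hd hx hy i t (e1.trans e2.symm)
    rw [mem_cls]
    intro z hz
    rw [e3]
    by_cases h1 : z = x
    · subst h1; simp [rcf, hsx]
    · by_cases h2 : z = y
      · subst h2; simp [rcf, hsy]
      · simp only [rcf, h1, h2, or_self, if_false]
        rw [← hs' z h1 h2]
        exact ht' z hz
  · intro t ht
    have ht' := mem_cls.1 ht
    have e1 : t.1 x = i := (ht' x hxu).1 hsx
    have e2 : t.1 y = i := (ht' y hyu).1 hsy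
    have e3 := RC_val hd hx hy c t (e1.trans e2.symm)
    have e4 : (RC hd hx hy c t).1 x = (RC hd hx hy c t).1 y := by
      rw [e3]; simp [rcf]
    apply Subtype.ext
    rw [RC_val hd hx hy i _ e4, e3]
    funext z
    by_cases h1 : z = x
    · subst h1; simp [rcf, e1]
    · by_cases h2 : z = y
      · subst h2; simp [rcf, e2]
      · simp [rcf, h1, h2]
  · intro t ht
    rw [mem_filter, mem_cls] at ht
    obtain ⟨ht', e1, e2⟩ := ht
    have e3 := RC_val hd hx hy i t (e1.trans e2.symm)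
    have e4 : (RC hd hx hy i t).1 x = (RC hd hx hy i t).1 y := by
      rw [e3]; simp [rcf]
    apply Subtype.ext
    rw [RC_val hd hx hy c _ e4, e3]
    funext z
    by_cases h1 : z = x
    · subst h1; simp [rcf, e1]
    · by_cases h2 : z = y
      · subst h2; simp [rcf, e2]
      · simp [rcf, h1, h2]
  · intro t _
    rfl

lemma rel_swS_of {i : Fin 3} {x z : V} (h : ST X1 X2 x z) (s' t : Col X1 X2 dl)
    (hx : s'.1 x ≠ i) (hz : s'.1 z ≠ i) (hxu : x ∈ X1 ∪ X2) (hzu : z ∈ X1 ∪ X2)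
    (ht : rel X1 X2 dl i s' t) : rel X1 X2 dl i s' (swS h t) := by
  intro v hv
  show _ ↔ t.1 (Equiv.swap x z v) = i
  rcases eq_or_ne v x with rfl | h1
  · rw [Equiv.swap_apply_left, ← ht z hzu]
    exact ⟨fun h => absurd h hx, fun h => absurd h hz⟩
  · rcases eq_or_ne v z with rfl | h2
    · rw [Equiv.swap_apply_right, ← ht x hxu]
      exact ⟨fun h => absurd h hz, fun h => absurd h hx⟩
    · rw [Equiv.swap_apply_of_ne_of_ne h1 h2]
      exact ht v hv

/-- moving the marked position -/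
lemma sum_move {i c : Fin 3} {x z w : V} (h : ST X1 X2 x z) (s' : Col X1 X2 dl)
    (hx : s'.1 x ≠ i) (hz : s'.1 z ≠ i) (hxu : x ∈ X1 ∪ X2) (hzu : z ∈ X1 ∪ X2)
    (hwx : w ≠ x) (hwz : w ≠ z) (ψ : Col X1 X2 dl → ℝ) (hψ : ∀ t, ψ (swS h t) = ψ t) :
    ∑ t ∈ (cls (rel X1 X2 dl i) s').filter (fun t => t.1 z = c ∧ t.1 w = c), ψ t =
      ∑ t ∈ (cls (rel X1 X2 dl i) s').filter (fun t => t.1 x = c ∧ t.1 w = c), ψ t := by
  refine sum_nbij' (swS h) (swS h) ?_ ?_ ?_ ?_ ?_
  · intro t ht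
    rw [mem_filter, mem_cls] at ht ⊢
    refine ⟨rel_swS_of h s' t hx hz hxu hzu ht.1, ?_, ?_⟩
    · show t.1 (Equiv.swap x z x) = c
      rw [Equiv.swap_apply_left]
      exact ht.2.1
    · show t.1 (Equiv.swap x z w) = c
      rw [Equiv.swap_apply_of_ne_of_ne hwx hwz]
      exact ht.2.2
  · intro t ht
    rw [mem_filter, mem_cls] at ht ⊢
    refine ⟨rel_swS_of h s' t hx hz hxu hzu ht.1, ?_, ?_⟩
    · show t.1 (Equiv.swap x z z) = c
      rw [Equiv.swap_apply_right]
      exact ht.2.1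
    · show t.1 (Equiv.swap x z w) = c
      rw [Equiv.swap_apply_of_ne_of_ne hwx hwz]
      exact ht.2.2
  · intro t _; exact swS_swS h t
  · intro t _; exact swS_swS h t
  · intro t _; exact (hψ t).symm

/-- symmetrisation -/
lemma sum_sym (hd : Disjoint X1 X2) {x y : V} (hx : x ∈ X1) (hy : y ∈ X2) {i c : Fin 3}
    (hc : c ≠ i) (s' : Col X1 X2 dl) (hsx' : s'.1 x ≠ i) (hsy' : s'.1 y ≠ i)
    (ψ : Col X1 X2 dl → ℝ) (hψ : ∀ (a b : V) (h : ST X1 X2 a b) t, ψ (swS h t) = ψ t) :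
    ∑ t ∈ cls (rel X1 X2 dl i) s', ψ t * ((cnt X1 c t.1 : ℝ) * (cnt X2 c t.1 : ℝ)) =
      (((X1.filter fun z => s'.1 z ≠ i).card : ℝ) * ((X2.filter fun z => s'.1 z ≠ i).card : ℝ)) *
      ∑ t ∈ (cls (rel X1 X2 dl i) s').filter (fun t => t.1 x = c ∧ t.1 y = c), ψ t := by
  have h1 : ∀ t ∈ cls (rel X1 X2 dl i) s', ψ t * ((cnt X1 c t.1 : ℝ) * (cnt X2 c t.1 : ℝ)) =
      ∑ z ∈ X1.filter (fun z => s'.1 z ≠ i), ∑ w ∈ X2.filter (fun z => s'.1 z ≠ i),
        if t.1 z = c ∧ t.1 w = c then ψ t else 0 := by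
    intro t ht
    have ht' := mem_cls.1 ht
    have e1 : (cnt X1 c t.1 : ℝ) = ∑ z ∈ X1.filter (fun z => s'.1 z ≠ i), if t.1 z = c then (1 : ℝ) else 0 := by
      unfold cnt
      rw [card_filter, Nat.cast_sum]
      push_cast
      rw [sum_filter]
      refine sum_congr rfl fun z hz => ?_
      by_cases h : t.1 z = c
      · have : s'.1 z ≠ i := by
          intro h'
          exact hc (h.symm.trans ((ht' z (mem_union_left _ hz)).1 h'))
        rw [if_pos h, if_pos this]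
      · simp [h]
    have e2 : (cnt X2 c t.1 : ℝ) = ∑ z ∈ X2.filter (fun z => s'.1 z ≠ i), if t.1 z = c then (1 : ℝ) else 0 := by
      unfold cnt
      rw [card_filter, Nat.cast_sum]
      push_cast
      rw [sum_filter]
      refine sum_congr rfl fun z hz => ?_
      by_cases h : t.1 z = c
      · have : s'.1 z ≠ i := by
          intro h'
          exact hc (h.symm.trans ((ht' z (mem_union_right _ hz)).1 h'))
        rw [if_pos h, if_pos this]
      · simp [h]
    rw [e1, e2, sum_mul_sum, mul_sum]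
    refine sum_congr rfl fun z _ => ?_
    rw [mul_sum]
    refine sum_congr rfl fun w _ => ?_
    by_cases h1 : t.1 z = c <;> by_cases h2 : t.1 w = c <;> simp [h1, h2]
  rw [sum_congr rfl h1, sum_comm]
  have h2 : ∀ z ∈ X1.filter (fun z => s'.1 z ≠ i), (∑ t ∈ cls (rel X1 X2 dl i) s',
      ∑ w ∈ X2.filter (fun z => s'.1 z ≠ i), if t.1 z = c ∧ t.1 w = c then ψ t else 0) =
      ((X2.filter fun z => s'.1 z ≠ i).card : ℝ) *
      ∑ t ∈ (cls (rel X1 X2 dl i) s').filter (fun t => t.1 x = c ∧ t.1 y = c), ψ t := by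
    intro z hz
    rw [mem_filter] at hz
    rw [sum_comm]
    have h3 : ∀ w ∈ X2.filter (fun z => s'.1 z ≠ i), (∑ t ∈ cls (rel X1 X2 dl i) s',
        if t.1 z = c ∧ t.1 w = c then ψ t else 0) =
        ∑ t ∈ (cls (rel X1 X2 dl i) s').filter (fun t => t.1 x = c ∧ t.1 y = c), ψ t := by
      intro w hw
      rw [mem_filter] at hw
      rw [← sum_filter]
      have hxz : ST X1 X2 x z := by
        have a1 : x ∉ X2 := disjoint_left.1 hd hx
        have a2 : z ∉ X2 := disjoint_left.1 hd hz.1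
        exact ⟨⟨fun _ => hz.1, fun _ => hx⟩, ⟨fun h => absurd h a1, fun h => absurd h a2⟩⟩
      have hyw : ST X1 X2 y w := by
        have a1 : y ∉ X1 := fun h => disjoint_left.1 hd h hy
        have a2 : w ∉ X1 := fun h => disjoint_left.1 hd h hw.1
        exact ⟨⟨fun h => absurd h a1, fun h => absurd h a2⟩, ⟨fun _ => hw.1, fun _ => hy⟩⟩
      have n1 : w ≠ x := fun h => disjoint_left.1 hd hx (h ▸ hw.1)
      have n2 : w ≠ z := fun h => disjoint_left.1 hd hz.1 (h ▸ hw.1)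
      have n3 : x ≠ y := fun h => disjoint_left.1 hd hx (h ▸ hy)
      rw [sum_move hxz s' hsx' hz.2 (mem_union_left _ hx) (mem_union_left _ hz.1) n1 n2 ψ
        (hψ _ _ hxz)]
      have e1 : (cls (rel X1 X2 dl i) s').filter (fun t => t.1 x = c ∧ t.1 w = c) =
          (cls (rel X1 X2 dl i) s').filter (fun t => t.1 w = c ∧ t.1 x = c) :=
        filter_congr fun t _ => and_comm
      have e2 : (cls (rel X1 X2 dl i) s').filter (fun t => t.1 x = c ∧ t.1 y = c) =
          (cls (rel X1 X2 dl i) s').filter (fun t => t.1 y = c ∧ t.1 x = c) :=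
        filter_congr fun t _ => and_comm
      rw [e1, e2]
      exact sum_move hyw s' hsy' hw.2 (mem_union_right _ hy) (mem_union_right _ hw.1) n3 n1.symm ψ
        (hψ _ _ hyw)
    rw [sum_congr rfl h3, sum_const, nsmul_eq_mul]
  rw [sum_congr rfl h2, sum_const, nsmul_eq_mul, mul_assoc]

lemma cnt_swS {x y : V} (h : ST X1 X2 x y) (c : Fin 3) (t : Col X1 X2 dl) :
    cnt X1 c (swS h t).1 = cnt X1 c t.1 ∧ cnt X2 c (swS h t).1 = cnt X2 c t.1 :=
  ⟨cnt_swap h.1 c t.1, cnt_swap h.2 c t.1⟩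

lemma cnt_total (A : Finset V) (s : V → Fin 3) {i j k : Fin 3} (hij : i ≠ j) (hik : i ≠ k)
    (hjk : j ≠ k) : cnt A i s + cnt A j s + cnt A k s = A.card := by
  have h : ∀ c : Fin 3, c = i ∨ c = j ∨ c = k := by
    revert i j k; decide
  unfold cnt
  have h1 : A = (A.filter fun x => s x = i) ∪ (A.filter fun x => s x = j) ∪
      (A.filter fun x => s x = k) := by
    ext z
    simp only [mem_union, mem_filter]
    constructor
    · intro hz
      rcases h (s z) with h1 | h1 | h1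
      · exact Or.inl (Or.inl ⟨hz, h1⟩)
      · exact Or.inl (Or.inr ⟨hz, h1⟩)
      · exact Or.inr ⟨hz, h1⟩
    · rintro ((h1 | h1) | h1) <;> exact h1.1
  conv_rhs => rw [h1]
  rw [card_union_of_disjoint, card_union_of_disjoint]
  · rw [disjoint_left]
    intro z h1 h2
    rw [mem_filter] at h1 h2
    exact hij (h1.2.symm.trans h2.2)
  · rw [disjoint_left]
    intro z h1 h2
    rw [mem_union, mem_filter, mem_filter] at h1
    rw [mem_filter] at h2
    rcases h1 with h1 | h1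
    · exact hik (h1.2.symm.trans h2.2)
    · exact hjk (h1.2.symm.trans h2.2)

lemma cnt_rel {i : Fin 3} {s t : Col X1 X2 dl} (h : rel X1 X2 dl i s t) :
    cnt X1 i t.1 = cnt X1 i s.1 ∧ cnt X2 i t.1 = cnt X2 i s.1 := by
  unfold cnt
  refine ⟨congrArg _ (filter_congr fun z hz => ?_), congrArg _ (filter_congr fun z hz => ?_)⟩
  · exact (h z (mem_union_left _ hz)).symm
  · exact (h z (mem_union_right _ hz)).symm

/-- the coupling identity -/
lemma coup_sum (hd : Disjoint X1 X2) {x y : V} (hx : x ∈ X1) (hy : y ∈ X2) {i j k : Fin 3}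
    (hij : i ≠ j) (hik : i ≠ k) (hjk : j ≠ k)
    (s s' : Col X1 X2 dl) (hsx : s.1 x = i) (hsy : s.1 y = i)
    (hs' : ∀ z, z ≠ x → z ≠ y → (s'.1 z = i ↔ s.1 z = i)) (hsx' : s'.1 x ≠ i) (hsy' : s'.1 y ≠ i) :
    ∃ ω : ℝ, 0 < ω ∧ ∃ α β : Col X1 X2 dl → ℝ,
      (∀ t ∈ cls (rel X1 X2 dl i) s, 0 ≤ α t ∧ 0 ≤ β t ∧ α t + β t = ω) ∧
      ∀ ψ : Col X1 X2 dl → ℝ, (∀ (a b : V) (h : ST X1 X2 a b) t, ψ (swS h t) = ψ t) →
      ∑ t ∈ cls (rel X1 X2 dl i) s', ψ t = ∑ t ∈ cls (rel X1 X2 dl i) s,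
        (α t * ψ (RC hd hx hy j t) + β t * ψ (RC hd hx hy k t)) := by
  have hxu : x ∈ X1 ∪ X2 := mem_union_left _ hx
  have hyu : y ∈ X1 ∪ X2 := mem_union_right _ hy
  set a : Fin 3 → Col X1 X2 dl → ℝ := fun c t => (cnt X1 c t.1 : ℝ) with ha
  set b : Fin 3 → Col X1 X2 dl → ℝ := fun c t => (cnt X2 c t.1 : ℝ) with hb
  have ha0 : ∀ c t, 0 ≤ a c t := fun c t => Nat.cast_nonneg _
  have hb0 : ∀ c t, 0 ≤ b c t := fun c t => Nat.cast_nonneg _
  have hdl : ∀ c t, a c t - b c t = (dl c : ℝ) := by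
    intro c t
    have := (mem_col.1 t.2).2 c
    show (cnt X1 c t.1 : ℝ) - (cnt X2 c t.1 : ℝ) = (dl c : ℝ)
    rw [← this]
    push_cast
    rfl
  have hta : ∀ t, a i t + a j t + a k t = (X1.card : ℝ) := by
    intro t
    show (cnt X1 i t.1 : ℝ) + (cnt X1 j t.1 : ℝ) + (cnt X1 k t.1 : ℝ) = _
    exact_mod_cast cnt_total X1 t.1 hij hik hjk
  have htb : ∀ t, b i t + b j t + b k t = (X2.card : ℝ) := by
    intro t
    show (cnt X2 i t.1 : ℝ) + (cnt X2 j t.1 : ℝ) + (cnt X2 k t.1 : ℝ) = _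
    exact_mod_cast cnt_total X2 t.1 hij hik hjk
  have hrel : ∀ u t, rel X1 X2 dl i u t → a i t = a i u ∧ b i t = b i u := by
    intro u t h
    exact ⟨congrArg (fun n : ℕ => (n : ℝ)) (cnt_rel h).1,
      congrArg (fun n : ℕ => (n : ℝ)) (cnt_rel h).2⟩
  set κ : ℝ := a j s' + b k s' with hκ
  set κ' : ℝ := a k s' + b j s' with hκ'
  have hDκ : ∀ t, rel X1 X2 dl i s' t → a j t + b k t = κ ∧ a k t + b j t = κ' := by
    intro t ht
    obtain ⟨e1, e2⟩ := hrel s' t ht
    have h1 := hdl j t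
    have h2 := hdl j s'
    have h3 := htb t
    have h4 := htb s'
    have h5 := hta t
    have h6 := hta s'
    have h7 := hdl k t
    have h8 := hdl k s'
    rw [hκ, hκ']
    constructor <;> linarith
  -- elements of the class of s
  have hC : ∀ t, rel X1 X2 dl i s t → t.1 x = i ∧ t.1 y = i := fun t ht =>
    ⟨(ht x hxu).1 hsx, (ht y hyu).1 hsy⟩
  have hRCrel : ∀ c, c ≠ i → ∀ t, rel X1 X2 dl i s t → rel X1 X2 dl i s' (RC hd hx hy c t) := by
    intro c hc t ht
    obtain ⟨e1, e2⟩ := hC t ht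
    have e3 := RC_val hd hx hy c t (e1.trans e2.symm)
    intro z hz
    rw [e3]
    by_cases h1 : z = x
    · subst h1; simp [rcf, hsx', hc]
    · by_cases h2 : z = y
      · subst h2; simp [rcf, hsy', hc]
      · simp only [rcf, h1, h2, or_self, if_false]
        rw [hs' z h1 h2]
        exact ht z hz
  have hRCa : ∀ c, c ≠ i → ∀ t, rel X1 X2 dl i s t → ∀ c', c' ≠ i →
      a c' (RC hd hx hy c t) = a c' t + (if c = c' then 1 else 0) ∧
      b c' (RC hd hx hy c t) = b c' t + (if c = c' then 1 else 0) := by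
    intro c hc t ht c' hc'
    obtain ⟨e1, e2⟩ := hC t ht
    have e3 := RC_val hd hx hy c t (e1.trans e2.symm)
    have g1 := cnt_rcf1 hd hx hy c c' t.1
    have g2 := cnt_rcf2 hd hx hy c c' t.1
    rw [e1, if_neg hc'.symm, sub_zero] at g1
    rw [e2, if_neg hc'.symm, sub_zero] at g2
    constructor
    · show ((cnt X1 c' (RC hd hx hy c t).1 : ℕ) : ℝ) = (cnt X1 c' t.1 : ℝ) + _
      rw [e3]
      have := congrArg (fun z : ℤ => (z : ℝ)) g1
      push_cast at this
      exact this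
    · show ((cnt X2 c' (RC hd hx hy c t).1 : ℕ) : ℝ) = (cnt X2 c' t.1 : ℝ) + _
      rw [e3]
      have := congrArg (fun z : ℤ => (z : ℝ)) g2
      push_cast at this
      exact this
  have hCκ : ∀ t, rel X1 X2 dl i s t → a j t + b k t = κ - 1 ∧ a k t + b j t = κ' - 1 := by
    intro t ht
    obtain ⟨e1, e2⟩ := hDκ _ (hRCrel j hij.symm t ht)
    obtain ⟨e3, e4⟩ := hRCa j hij.symm t ht j hij.symm
    obtain ⟨e5, e6⟩ := hRCa j hij.symm t ht k hik.symm
    rw [if_pos rfl] at e3 e4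
    rw [if_neg hjk] at e5 e6
    constructor <;> linarith
  have hss : rel X1 X2 dl i s s := (rel_equiv X1 X2 dl i).refl s
  have hκ1 : 1 ≤ κ := by
    have := (hCκ s hss).1
    have h1 := ha0 j s
    have h2 := hb0 k s
    linarith
  have hκ1' : 1 ≤ κ' := by
    have := (hCκ s hss).2
    have h1 := ha0 k s
    have h2 := hb0 j s
    linarith
  refine ⟨2 + (κ - 1) / κ' + (κ' - 1) / κ, ?_, fun t => 1 + b k t / κ' + a k t / κ,
    fun t => 1 + a j t / κ' + b j t / κ, ?_, ?_⟩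
  · have h1 : 0 ≤ (κ - 1) / κ' := div_nonneg (by linarith) (by linarith)
    have h2 : 0 ≤ (κ' - 1) / κ := div_nonneg (by linarith) (by linarith)
    linarith
  · intro t ht
    have ht' := mem_cls.1 ht
    obtain ⟨e1, e2⟩ := hCκ t ht'
    have h1 : 0 ≤ b k t / κ' := div_nonneg (hb0 _ _) (by linarith)
    have h2 : 0 ≤ a k t / κ := div_nonneg (ha0 _ _) (by linarith)
    have h3 : 0 ≤ a j t / κ' := div_nonneg (ha0 _ _) (by linarith)
    have h4 : 0 ≤ b j t / κ := div_nonneg (hb0 _ _) (by linarith)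
    refine ⟨by linarith, by linarith, ?_⟩
    rw [← e1, ← e2]
    ring
  · intro ψ hψ
    set N1 : ℝ := ((X1.filter fun z => s'.1 z ≠ i).card : ℝ) with hN1
    set N2 : ℝ := ((X2.filter fun z => s'.1 z ≠ i).card : ℝ) with hN2
    have hN1' : ∀ t, rel X1 X2 dl i s' t → a j t + a k t = N1 := by
      intro t ht
      have h1 := hta t
      have h2 := (hrel s' t ht).1
      have h3 : (X1.filter fun z => s'.1 z = i).card + (X1.filter fun z => ¬ s'.1 z = i).card = X1.card :=
        card_filter_add_card_filter_not _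
      have h4 : a i s' + N1 = (X1.card : ℝ) := by
        show ((X1.filter fun z => s'.1 z = i).card : ℝ) + ((X1.filter fun z => ¬ s'.1 z = i).card : ℝ) = _
        exact_mod_cast h3
      linarith
    have hN2' : ∀ t, rel X1 X2 dl i s' t → b j t + b k t = N2 := by
      intro t ht
      have h1 := htb t
      have h2 := (hrel s' t ht).2
      have h3 : (X2.filter fun z => s'.1 z = i).card + (X2.filter fun z => ¬ s'.1 z = i).card = X2.card :=
        card_filter_add_card_filter_not _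
      have h4 : b i s' + N2 = (X2.card : ℝ) := by
        show ((X2.filter fun z => s'.1 z = i).card : ℝ) + ((X2.filter fun z => ¬ s'.1 z = i).card : ℝ) = _
        exact_mod_cast h3
      linarith
    have hN1p : 0 < N1 := by
      rw [hN1]
      exact_mod_cast card_pos.2 ⟨x, mem_filter.2 ⟨hx, hsx'⟩⟩
    have hN2p : 0 < N2 := by
      rw [hN2]
      exact_mod_cast card_pos.2 ⟨y, mem_filter.2 ⟨hy, hsy'⟩⟩
    have S1 := sum_sym hd hx hy hij.symm s' hsx' hsy'
      (fun t => ψ t * (1 + b k t / κ' + a k t / κ)) (by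
        intro u v h t
        simp only [ha, hb]
        rw [hψ u v h t, (cnt_swS h k t).1, (cnt_swS h k t).2])
    have S2 := sum_sym hd hx hy hik.symm s' hsx' hsy'
      (fun t => ψ t * (1 + a j t / κ' + b j t / κ)) (by
        intro u v h t
        simp only [ha, hb]
        rw [hψ u v h t, (cnt_swS h j t).1, (cnt_swS h j t).2])
    rw [sum_RC hd hx hy hij.symm s s' hsx hsy hs' hsx' hsy'] at S1
    rw [sum_RC hd hx hy hik.symm s s' hsx hsy hs' hsx' hsy'] at S2
    have hne : N1 * N2 ≠ 0 := (mul_pos hN1p hN2p).ne'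
    apply mul_left_cancel₀ hne
    have e1 : N1 * N2 * ∑ t ∈ cls (rel X1 X2 dl i) s', ψ t =
        ∑ t ∈ cls (rel X1 X2 dl i) s',
          (ψ t * (1 + b k t / κ' + a k t / κ) * ((cnt X1 j t.1 : ℝ) * (cnt X2 j t.1 : ℝ)) +
          ψ t * (1 + a j t / κ' + b j t / κ) * ((cnt X1 k t.1 : ℝ) * (cnt X2 k t.1 : ℝ))) := by
      rw [mul_sum]
      refine sum_congr rfl fun t ht => ?_
      have ht' := mem_cls.1 ht
      show N1 * N2 * ψ t = ψ t * (1 + b k t / κ' + a k t / κ) * (a j t * b j t) +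
        ψ t * (1 + a j t / κ' + b j t / κ) * (a k t * b k t)
      obtain ⟨f1, f2⟩ := hDκ t ht'
      have hk : κ ≠ 0 := by linarith
      have hk' : κ' ≠ 0 := by linarith
      rw [← hN1' t ht', ← hN2' t ht']
      have g1 : (b k t / κ' + a k t / κ) * (a j t * b j t) + (a j t / κ' + b j t / κ) * (a k t * b k t) =
          a j t * b k t + a k t * b j t := by
        have g2 : (b k t / κ' + a k t / κ) * (a j t * b j t) + (a j t / κ' + b j t / κ) * (a k t * b k t) =
          a j t * b k t * ((a k t + b j t) / κ') + a k t * b j t * ((a j t + b k t) / κ) := by ring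
        rw [g2, f1, f2, div_self hk, div_self hk']
        ring
      linear_combination (-(ψ t)) * g1
    rw [e1, sum_add_distrib, S1, S2, ← mul_add, ← sum_add_distrib]
    congr 1
    refine sum_congr rfl fun t ht => ?_
    have ht' := mem_cls.1 ht
    obtain ⟨e3, e4⟩ := hRCa j hij.symm t ht' k hik.symm
    obtain ⟨e5, e6⟩ := hRCa k hik.symm t ht' j hij.symm
    rw [if_neg hjk, add_zero] at e3 e4
    rw [if_neg hjk.symm, add_zero] at e5 e6
    rw [e3, e4, e5, e6]
    ring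

/-- the coupling bound -/
lemma coup_bound (hd : Disjoint X1 X2) {x y : V} (hx : x ∈ X1) (hy : y ∈ X2) {i j k : Fin 3}
    (hij : i ≠ j) (hik : i ≠ k) (hjk : j ≠ k)
    (s s' : Col X1 X2 dl) (hsx : s.1 x = i) (hsy : s.1 y = i)
    (hs' : ∀ z, z ≠ x → z ≠ y → (s'.1 z = i ↔ s.1 z = i)) (hsx' : s'.1 x ≠ i) (hsy' : s'.1 y ≠ i)
    (ψ : Col X1 X2 dl → ℝ) (hψ : ∀ (a b : V) (h : ST X1 X2 a b) t, ψ (swS h t) = ψ t) (M : ℝ)
    (hM : ∀ t, t.1 x = i → t.1 y = i → ∀ c, c ≠ i → |ψ (RC hd hx hy c t) - ψ t| ≤ M) :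
    |avg (rel X1 X2 dl i) ψ s' - avg (rel X1 X2 dl i) ψ s| ≤ M := by
  obtain ⟨ω, hω, α, β, hαβ, hsum⟩ := coup_sum hd hx hy hij hik hjk s s' hsx hsy hs' hsx' hsy'
  have h1 := hsum ψ hψ
  have h2 := hsum (fun _ => 1) (fun _ _ _ _ => rfl)
  have h3 : ((cls (rel X1 X2 dl i) s').card : ℝ) = ω * ((cls (rel X1 X2 dl i) s).card : ℝ) := by
    simp only [sum_const, nsmul_eq_mul, mul_one] at h2
    rw [h2, sum_congr rfl fun t ht => (hαβ t ht).2.2, sum_const, nsmul_eq_mul, mul_comm]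
  have hp := cls_card_pos (rel_equiv X1 X2 dl i) s
  unfold avg
  rw [h3, h1]
  have h4 : (∑ t ∈ cls (rel X1 X2 dl i) s, (α t * ψ (RC hd hx hy j t) + β t * ψ (RC hd hx hy k t))) /
      (ω * ((cls (rel X1 X2 dl i) s).card : ℝ)) -
      (∑ t ∈ cls (rel X1 X2 dl i) s, ψ t) / ((cls (rel X1 X2 dl i) s).card : ℝ) =
      (∑ t ∈ cls (rel X1 X2 dl i) s, (α t * (ψ (RC hd hx hy j t) - ψ t) +
        β t * (ψ (RC hd hx hy k t) - ψ t))) / (ω * ((cls (rel X1 X2 dl i) s).card : ℝ)) := by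
    have h5 : ∑ t ∈ cls (rel X1 X2 dl i) s, (α t * (ψ (RC hd hx hy j t) - ψ t) +
        β t * (ψ (RC hd hx hy k t) - ψ t)) =
        ∑ t ∈ cls (rel X1 X2 dl i) s, (α t * ψ (RC hd hx hy j t) + β t * ψ (RC hd hx hy k t)) -
        ω * ∑ t ∈ cls (rel X1 X2 dl i) s, ψ t := by
      rw [mul_sum, ← sum_sub_distrib]
      refine sum_congr rfl fun t ht => ?_
      rw [← (hαβ t ht).2.2]
      ring
    rw [h5]
    field_simp
  rw [h4, abs_div, abs_of_pos (mul_pos hω hp), div_le_iff₀ (mul_pos hω hp)]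
  calc |∑ t ∈ cls (rel X1 X2 dl i) s, (α t * (ψ (RC hd hx hy j t) - ψ t) +
        β t * (ψ (RC hd hx hy k t) - ψ t))| ≤
      ∑ t ∈ cls (rel X1 X2 dl i) s, |α t * (ψ (RC hd hx hy j t) - ψ t) +
        β t * (ψ (RC hd hx hy k t) - ψ t)| := abs_sum_le_sum_abs _ _
    _ ≤ ∑ t ∈ cls (rel X1 X2 dl i) s, ω * M := by
      refine sum_le_sum fun t ht => ?_
      obtain ⟨a1, a2, a3⟩ := hαβ t ht
      have ht' := mem_cls.1 ht
      have e1 : t.1 x = i := (ht' x (mem_union_left _ hx)).1 hsx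
      have e2 : t.1 y = i := (ht' y (mem_union_right _ hy)).1 hsy
      have b1 := hM t e1 e2 j hij.symm
      have b2 := hM t e1 e2 k hik.symm
      calc |α t * (ψ (RC hd hx hy j t) - ψ t) + β t * (ψ (RC hd hx hy k t) - ψ t)| ≤
          |α t * (ψ (RC hd hx hy j t) - ψ t)| + |β t * (ψ (RC hd hx hy k t) - ψ t)| := abs_add_le _ _
        _ = α t * |ψ (RC hd hx hy j t) - ψ t| + β t * |ψ (RC hd hx hy k t) - ψ t| := by
          rw [abs_mul, abs_mul, abs_of_nonneg a1, abs_of_nonneg a2]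
        _ ≤ α t * M + β t * M := add_le_add (mul_le_mul_of_nonneg_left b1 a1)
          (mul_le_mul_of_nonneg_left b2 a2)
        _ = ω * M := by rw [← a3]; ring
    _ = M * (ω * ((cls (rel X1 X2 dl i) s).card : ℝ)) := by
      rw [sum_const, nsmul_eq_mul]; ring

/-- recolouring relation -/
def Rec (i : Fin 3) (s s' : Col X1 X2 dl) : Prop :=
  ∃ x ∈ X1, ∃ y ∈ X2, ∃ c, c ≠ i ∧ s.1 x = i ∧ s.1 y = i ∧ s'.1 = rcf x y c s.1

lemma rcf_rcf {x y : V} {i c : Fin 3} {s : V → Fin 3} (hx : s x = i) (hy : s y = i) :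
    rcf x y i (rcf x y c s) = s := by
  funext z
  by_cases h1 : z = x
  · subst h1; simp [rcf, hx]
  · by_cases h2 : z = y
    · subst h2; simp [rcf, hy]
    · simp [rcf, h1, h2]

lemma eig_rec {lam : ℝ} (hlam : 2 < lam) {F : Col X1 X2 dl → ℝ} (hF : Eig lam F)
    (hd : Disjoint X1 X2) {i : Fin 3} {s s' : Col X1 X2 dl} (h : Rec i s s') :
    avg (rel X1 X2 dl i) F s' = avg (rel X1 X2 dl i) F s := by
  classical
  have hsym : ∀ j (a b : V) (h : ST X1 X2 a b) t,
      avg (rel X1 X2 dl j) F (swS h t) = avg (rel X1 X2 dl j) F t := by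
    intro j a b h t
    rw [← avg_comp (swS_swS h) (rel_swS h j) F t]
    congr 1
    funext t
    exact eig_sym hlam hF h t
  obtain ⟨⟨i0, s0, s1⟩, hm, hmax⟩ := exists_max_image
    ((univ : Finset (Fin 3 × Col X1 X2 dl × Col X1 X2 dl)).filter fun p => Rec p.1 p.2.1 p.2.2)
    (fun p => |avg (rel X1 X2 dl p.1) F p.2.2 - avg (rel X1 X2 dl p.1) F p.2.1|)
    ⟨(i, s, s'), mem_filter.2 ⟨mem_univ _, h⟩⟩
  have hmax' : ∀ i s s', Rec i s s' →
      |avg (rel X1 X2 dl i) F s' - avg (rel X1 X2 dl i) F s| ≤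
      |avg (rel X1 X2 dl i0) F s1 - avg (rel X1 X2 dl i0) F s0| := fun i s s' h =>
    hmax (i, s, s') (mem_filter.2 ⟨mem_univ _, h⟩)
  set M := |avg (rel X1 X2 dl i0) F s1 - avg (rel X1 X2 dl i0) F s0| with hMdef
  have hR : Rec i0 s0 s1 := (mem_filter.1 hm).2
  obtain ⟨x, hx, y, hy, c0, hc0, hsx, hsy, hs1⟩ := hR
  obtain ⟨j, k, hij, hik, hjk⟩ : ∃ j k : Fin 3, i0 ≠ j ∧ i0 ≠ k ∧ j ≠ k := by
    revert i0; intro i0 _ _ _ _ _ _ _ _ 
    clear * -
    revert i0; decide
  have hb : |avg (rel X1 X2 dl i0) (fun t => ∑ j ∈ univ.erase i0, avg (rel X1 X2 dl j) F t) s1 -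
      avg (rel X1 X2 dl i0) (fun t => ∑ j ∈ univ.erase i0, avg (rel X1 X2 dl j) F t) s0| ≤ M := by
    refine coup_bound hd hx hy hij hik hjk s0 s1 hsx hsy ?_ ?_ ?_ _ ?_ M ?_
    · intro z h1 h2
      rw [hs1]
      simp [rcf, h1, h2]
    · rw [hs1]; simp [rcf, hc0]
    · rw [hs1]; simp [rcf, hc0]
    · intro a b h t
      exact sum_congr rfl fun j _ => hsym j a b h t
    · intro t htx hty c hc
      have e3 := RC_val hd hx hy c t (htx.trans hty.symm)
      rw [← sum_sub_distrib, sum_eq_single c]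
      · rw [abs_sub_comm]
        refine hmax' c (RC hd hx hy c t) t ⟨x, hx, y, hy, i0, hc.symm, ?_, ?_, ?_⟩
        · rw [e3]; simp [rcf]
        · rw [e3]; simp [rcf]
        · rw [e3, rcf_rcf htx hty]
      · intro j hj hjc
        rw [sub_eq_zero]
        apply avg_congr (rel_equiv X1 X2 dl j)
        intro z _
        rw [e3]
        have hji := ne_of_mem_erase hj
        by_cases h1 : z = x
        · subst h1; simp [rcf, htx, hjc.symm, hji.symm]
        · by_cases h2 : z = y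
          · subst h2; simp [rcf, hty, hjc.symm, hji.symm]
          · simp [rcf, h1, h2]
      · intro h3
        exact absurd (mem_erase.2 ⟨hc, mem_univ _⟩) h3
  rw [← hF.eq1, ← hF.eq1, ← mul_sub, abs_mul, abs_of_pos (by linarith : 0 < lam - 1)] at hb
  rw [← hMdef] at hb
  have h0 : 0 ≤ M := abs_nonneg _
  have h1 : M ≤ 0 := by nlinarith
  have h2 := hmax' i s s' h
  have h3 := abs_nonpos_iff.1 (h2.trans h1)
  linarith

lemma eig_const {lam : ℝ} (hlam : 2 < lam) {F : Col X1 X2 dl → ℝ} (hF : Eig lam F)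
    (hd : Disjoint X1 X2) {i : Fin 3} {s s' : Col X1 X2 dl} (h : Rec i s s') : F s' = F s := by
  have h1 := eig_rec hlam hF hd h
  obtain ⟨x, hx, y, hy, c, hc, hsx, hsy, hs1⟩ := h
  have h2 := eig_rec hlam hF hd (i := c) (s := s') (s' := s)
    ⟨x, hx, y, hy, i, hc.symm, by rw [hs1]; simp [rcf], by rw [hs1]; simp [rcf], by
      rw [hs1, rcf_rcf hsx hsy]⟩
  have h3 : ∀ j, avg (rel X1 X2 dl j) F s' = avg (rel X1 X2 dl j) F s := by
    intro j
    by_cases e1 : j = i
    · rw [e1]; exact h1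
    · by_cases e2 : j = c
      · rw [e2]; exact h2.symm
      · apply avg_congr (rel_equiv X1 X2 dl j)
        intro z _
        rw [hs1]
        by_cases g1 : z = x
        · subst g1; simp [rcf, hsx, Ne.symm e1, Ne.symm e2]
        · by_cases g2 : z = y
          · subst g2; simp [rcf, hsy, Ne.symm e1, Ne.symm e2]
          · simp [rcf, g1, g2]
  have h4 := hF s
  have h5 := hF s'
  rw [sum_congr rfl fun j _ => h3 j, ← h4] at h5
  exact mul_left_cancel₀ (by linarith : lam ≠ 0) h5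

lemma eig_RC {lam : ℝ} (hlam : 2 < lam) {F : Col X1 X2 dl → ℝ} (hF : Eig lam F)
    (hd : Disjoint X1 X2) {x y : V} (hx : x ∈ X1) (hy : y ∈ X2) (s : Col X1 X2 dl)
    (h : s.1 x = s.1 y) (c : Fin 3) (hc : c ≠ s.1 x) : F (RC hd hx hy c s) = F s :=
  eig_const hlam hF hd (i := s.1 x) ⟨x, hx, y, hy, c, hc, rfl, h.symm, RC_val hd hx hy c s h⟩

lemma exists_diff {i j k : Fin 3} (hij : i ≠ j) (hik : i ≠ k) (hjk : j ≠ k) {s t : Col X1 X2 dl}
    (h : rel X1 X2 dl i s t) (hne : s ≠ t) :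
    (∃ z ∈ X1, s.1 z = j ∧ t.1 z = k) ∨ (∃ z ∈ X2, s.1 z = k ∧ t.1 z = j) := by
  by_contra hcon
  rw [not_or] at hcon
  obtain ⟨h1, h2⟩ := hcon
  push Not at h1 h2
  have hcol : ∀ c : Fin 3, c = i ∨ c = j ∨ c = k := by
    revert i j k; intro i j k hij hik hjk _ _ _
    clear * - hij hik hjk
    revert i j k; decide
  have s1 : X1.filter (fun z => s.1 z = j) ⊆ X1.filter (fun z => t.1 z = j) := by
    intro z hz
    rw [mem_filter] at hz ⊢
    refine ⟨hz.1, ?_⟩
    rcases hcol (t.1 z) with h3 | h3 | h3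
    · have := (h z (mem_union_left _ hz.1)).2 h3
      exact absurd (this.symm.trans hz.2) hij
    · exact h3
    · exact absurd h3 (h1 z hz.1 hz.2)
  have s2 : X2.filter (fun z => t.1 z = j) ⊆ X2.filter (fun z => s.1 z = j) := by
    intro z hz
    rw [mem_filter] at hz ⊢
    refine ⟨hz.1, ?_⟩
    rcases hcol (s.1 z) with h3 | h3 | h3
    · have := (h z (mem_union_right _ hz.1)).1 h3
      exact absurd (this.symm.trans hz.2) hij
    · exact h3
    · exact absurd hz.2 (h2 z hz.1 h3)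
  have c1 := card_le_card s1
  have c2 := card_le_card s2
  have d1 := (mem_col.1 s.2).2 j
  have d2 := (mem_col.1 t.2).2 j
  unfold cnt at d1 d2
  have e1 := eq_of_subset_of_card_le s1 (by omega)
  have e2 := eq_of_subset_of_card_le s2 (by omega)
  apply hne
  apply Subtype.ext
  funext z
  by_cases hz1 : z ∈ X1
  · have f1 : s.1 z = j ↔ t.1 z = j := by
      have : z ∈ X1.filter (fun z => s.1 z = j) ↔ z ∈ X1.filter (fun z => t.1 z = j) := by rw [e1]
      rw [mem_filter, mem_filter] at this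
      tauto
    have f2 := h z (mem_union_left _ hz1)
    rcases hcol (s.1 z) with h3 | h3 | h3
    · rw [h3, f2.1 h3]
    · rw [h3, f1.1 h3]
    · rcases hcol (t.1 z) with h4 | h4 | h4
      · rw [f2.2 h4, h4]
      · rw [f1.2 h4, h4]
      · rw [h3, h4]
  · by_cases hz2 : z ∈ X2
    · have f1 : s.1 z = j ↔ t.1 z = j := by
        have : z ∈ X2.filter (fun z => t.1 z = j) ↔ z ∈ X2.filter (fun z => s.1 z = j) := by rw [e2]
        rw [mem_filter, mem_filter] at this
        tauto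
      have f2 := h z (mem_union_right _ hz2)
      rcases hcol (s.1 z) with h3 | h3 | h3
      · rw [h3, f2.1 h3]
      · rw [h3, f1.1 h3]
      · rcases hcol (t.1 z) with h4 | h4 | h4
        · rw [f2.2 h4, h4]
        · rw [f1.2 h4, h4]
        · rw [h3, h4]
    · rw [(mem_col.1 s.2).1 z hz1 hz2, (mem_col.1 t.2).1 z hz1 hz2]

lemma close_step {i : Fin 3} {z z' : V} {s s1 t : Col X1 X2 dl} (h : rel X1 X2 dl i s t)
    (h1 : ∀ w, w ≠ z → w ≠ z' → s1.1 w = s.1 w) (h2 : s1.1 z = t.1 z) (h3 : s1.1 z' = t.1 z')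
    (h4 : s.1 z ≠ t.1 z) : rel X1 X2 dl i s1 t ∧
      (univ.filter fun w => s1.1 w ≠ t.1 w).card < (univ.filter fun w => s.1 w ≠ t.1 w).card := by
  refine ⟨fun w hw => ?_, card_lt_card ?_⟩
  · by_cases e1 : w = z
    · rw [e1, h2]
    · by_cases e2 : w = z'
      · rw [e2, h3]
      · rw [h1 w e1 e2]
        exact h w hw
  · rw [ssubset_iff_of_subset]
    · refine ⟨z, ?_, ?_⟩
      · rw [mem_filter]; exact ⟨mem_univ _, h4⟩
      · rw [mem_filter]; exact fun h => h.2 h2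
    · intro w hw
      rw [mem_filter] at hw ⊢
      refine ⟨mem_univ _, ?_⟩
      by_cases e1 : w = z
      · rw [e1]; exact h4
      · by_cases e2 : w = z'
        · exact absurd (e2 ▸ h3) hw.2
        · rw [← h1 w e1 e2]; exact hw.2

lemma eig_rel {lam : ℝ} (hlam : 2 < lam) {F : Col X1 X2 dl → ℝ} (hF : Eig lam F)
    (hd : Disjoint X1 X2) {i : Fin 3} : ∀ (n : ℕ) (s t : Col X1 X2 dl), rel X1 X2 dl i s t →
      (univ.filter fun w => s.1 w ≠ t.1 w).card ≤ n → F t = F s := by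
  obtain ⟨j, k, hij, hik, hjk⟩ : ∃ j k : Fin 3, i ≠ j ∧ i ≠ k ∧ j ≠ k := by
    clear * -
    revert i; decide
  intro n
  induction n with
  | zero =>
    intro s t _ hc
    have : (univ.filter fun w => s.1 w ≠ t.1 w) = ∅ := card_eq_zero.1 (by omega)
    rw [filter_eq_empty_iff] at this
    have : s = t := Subtype.ext (funext fun z => by
      have := this (mem_univ z)
      exact not_not.1 this)
    rw [this]
  | succ n ih =>
    intro s t hst hc
    by_cases hne : s = t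
    · rw [hne]
    have go : ∀ (z z' : V) (s1 : Col X1 X2 dl), F s1 = F s →
        (∀ w, w ≠ z → w ≠ z' → s1.1 w = s.1 w) → s1.1 z = t.1 z → s1.1 z' = t.1 z' →
        s.1 z ≠ t.1 z → F t = F s := by
      intro z z' s1 hFs h1 h2 h3 h4
      obtain ⟨g1, g2⟩ := close_step hst h1 h2 h3 h4
      rw [← hFs]
      exact ih s1 t g1 (by omega)
    have swp : ∀ (z z' : V) (h : ST X1 X2 z z'), s.1 z = t.1 z' → s.1 z' = t.1 z →
        s.1 z ≠ t.1 z → F t = F s := by
      intro z z' h e1 e2 e3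
      refine go z z' (swS h s) (eig_sym hlam hF h s) ?_ ?_ ?_ e3
      · intro w w1 w2
        show s.1 (Equiv.swap z z' w) = _
        rw [Equiv.swap_apply_of_ne_of_ne w1 w2]
      · show s.1 (Equiv.swap z z' z) = _
        rw [Equiv.swap_apply_left, e2]
      · show s.1 (Equiv.swap z z' z') = _
        rw [Equiv.swap_apply_right, e1]
    have rcl : ∀ (x y : V) (hx : x ∈ X1) (hy : y ∈ X2) (c : Fin 3), s.1 x = s.1 y → c ≠ s.1 x →
        t.1 x = c → t.1 y = c → F t = F s := by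
      intro x y hx hy c e1 e2 e3 e4
      have ev := RC_val hd hx hy c s e1
      refine go x y (RC hd hx hy c s) (eig_RC hlam hF hd hx hy s e1 c e2) ?_ ?_ ?_ ?_
      · intro w w1 w2
        rw [ev]; simp [rcf, w1, w2]
      · rw [ev, e3]; simp [rcf]
      · rw [ev, e4]; simp [rcf]
      · rw [e3]; exact e2.symm
    have st1 : ∀ z z', z ∈ X1 → z' ∈ X1 → ST X1 X2 z z' := by
      intro z z' h1 h2
      exact ⟨⟨fun _ => h2, fun _ => h1⟩, ⟨fun h => absurd h (disjoint_left.1 hd h1),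
        fun h => absurd h (disjoint_left.1 hd h2)⟩⟩
    have st2 : ∀ z z', z ∈ X2 → z' ∈ X2 → ST X1 X2 z z' := by
      intro z z' h1 h2
      exact ⟨⟨fun h => absurd h1 (disjoint_left.1 hd h), fun h => absurd h2 (disjoint_left.1 hd h)⟩,
        ⟨fun _ => h2, fun _ => h1⟩⟩
    rcases exists_diff hij hik hjk hst hne with ⟨z, hz, a1, a2⟩ | ⟨z, hz, a1, a2⟩
    · rcases exists_diff hik hij hjk.symm hst hne with ⟨z', hz', b1, b2⟩ | ⟨z', hz', b1, b2⟩
      · exact swp z z' (st1 _ _ hz hz') (a1.trans b2.symm) (b1.trans a2.symm) (by rw [a1, a2]; exact hjk)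
      · exact rcl z z' hz hz' k (a1.trans b1.symm) (by rw [a1]; exact hjk.symm) a2 b2
    · rcases exists_diff hik hij hjk.symm hst hne with ⟨z', hz', b1, b2⟩ | ⟨z', hz', b1, b2⟩
      · exact rcl z' z hz' hz j (b1.trans a1.symm) (by rw [b1]; exact hjk) b2 a2
      · exact swp z z' (st2 _ _ hz hz') (a1.trans b2.symm) (b1.trans a2.symm)
          (by rw [a1, a2]; exact hjk.symm)

end Col

end ThreeRow

open ThreeRow in
/-- **Three-row inequality.** -/
theorem three_row {V : Type*} [Fintype V] [DecidableEq V] (X1 X2 : Finset V) (hd : Disjoint X1 X2) (dl : Fin 3 → ℤ)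
    (F : (V → Fin 3) → ℝ) :
    0 ≤ ∑ s ∈ colSpace X1 X2 dl,
      ((F s - rowAvg X1 X2 dl 0 F s) * (F s - rowAvg X1 X2 dl 1 F s) +
       (F s - rowAvg X1 X2 dl 0 F s) * (F s - rowAvg X1 X2 dl 2 F s) +
       (F s - rowAvg X1 X2 dl 1 F s) * (F s - rowAvg X1 X2 dl 2 F s)) := by
  classical
  have hav : ∀ i (s : Col X1 X2 dl), rowAvg X1 X2 dl i F s.1 =
      avg (rel X1 X2 dl i) (fun t => F t.1) s := by
    intro i s
    have key : ∀ G : (V → Fin 3) → ℝ,
        ∑ t ∈ (colSpace X1 X2 dl).filter (fun t => ∀ x ∈ X1 ∪ X2, (s.1 x = i ↔ t x = i)), G t =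
        ∑ t ∈ cls (rel X1 X2 dl i) s, G t.1 := by
      intro G
      symm
      refine sum_bij (fun t _ => t.1) ?_ ?_ ?_ ?_
      · intro t ht
        exact mem_filter.2 ⟨t.2, mem_cls.1 ht⟩
      · intro t _ t' _ h
        exact Subtype.ext h
      · intro t ht
        rw [mem_filter] at ht
        exact ⟨⟨t, ht.1⟩, mem_cls.2 ht.2, rfl⟩
      · intro t _; rfl
    unfold rowAvg avg
    rw [key]
    have h1 := key (fun _ => 1)
    simp only [sum_const, nsmul_eq_mul, mul_one] at h1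
    rw [h1]
  have h := spectral_three (fun i => avgL (rel X1 X2 dl i))
    (fun i => proj_avgL (rel_equiv X1 X2 dl i)) (by
      intro lam G hG hE hlam
      have hE' : Eig lam G := hE
      have h1 : ∀ i s, avg (rel X1 X2 dl i) G s = G s := by
        intro i s
        exact avg_fix (rel_equiv X1 X2 dl i) fun t ht =>
          eig_rel hlam hE' hd (i := i) _ s t ht le_rfl
      obtain ⟨s, hs⟩ : ∃ s, G s ≠ 0 := by
        by_contra hcon
        push Not at hcon
        exact hG (funext hcon)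
      have h2 := hE' s
      rw [sum_congr rfl fun i _ => h1 i s, sum_const, card_univ, Fintype.card_fin, nsmul_eq_mul] at h2
      have h3 := mul_right_cancel₀ hs h2
      rw [h3]
      norm_num) (fun t => F t.1)
  refine h.trans (le_of_eq ?_)
  rw [← sum_coe_sort (colSpace X1 X2 dl)]
  unfold ip
  rw [← sum_add_distrib, ← sum_add_distrib]
  refine sum_congr rfl fun s _ => ?_
  simp only [avgL_apply, Pi.sub_apply, hav]


end Crest.Agent.SwGap
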