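import Crest.Agent.SwGap.Rel
import Crest.Agent.SwGap.ThreeRow

/-! Transfer of the three-row inequality to graphs. -/

set_option autoImplicit false
open Finset Crest.SwitchChain

namespace Crest.Agent.SwGap

namespace TRG

/-- the colour of a 0/1-triple with sum 1 or 2 -/
def code (u : Fin 3 → ℕ) : Fin 3 :=
  if u 0 + u 1 + u 2 = 1 then (if u 0 = 1 then 0 else if u 1 = 1 then 1 else 2)
  else if u 0 + u 1 + u 2 = 2 then (if u 0 = 0 then 0 else if u 1 = 0 then 1 else 2)
  else 0

/-- the 0/1-triple with sum `σ` and colour `k` -/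
def decode (σ : ℕ) (k i : Fin 3) : ℕ :=
  if σ = 1 then (if k = i then 1 else 0) else if σ = 2 then (if k = i then 0 else 1)
  else if σ = 3 then 1 else 0

lemma decode_le (σ : ℕ) (k i : Fin 3) : decode σ k i ≤ 1 := by
  unfold decode; split_ifs <;> simp

lemma decode_code (u : Fin 3 → ℕ) (hu : ∀ i, u i ≤ 1) (i : Fin 3) :
    decode (∑ i, u i) (code u) i = u i := by
  have h0 := hu 0
  have h1 := hu 1
  have h2 := hu 2
  have hi : i = 0 ∨ i = 1 ∨ i = 2 := by fin_cases i <;> simp
  have e0 : u 0 = 0 ∨ u 0 = 1 := by omega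
  have e1 : u 1 = 0 ∨ u 1 = 1 := by omega
  have e2 : u 2 = 0 ∨ u 2 = 1 := by omega
  rw [Fin.sum_univ_three]
  unfold decode code
  rcases e0 with e0 | e0 <;> rcases e1 with e1 | e1 <;> rcases e2 with e2 | e2 <;>
    rcases hi with rfl | rfl | rfl <;> simp [e0, e1, e2]

lemma decode_sum (σ : ℕ) (hσ : σ ≤ 3) (k : Fin 3) : ∑ i, decode σ k i = σ := by
  rw [Fin.sum_univ_three]
  have hk : k = 0 ∨ k = 1 ∨ k = 2 := by fin_cases k <;> simp
  interval_cases σ <;> rcases hk with rfl | rfl | rfl <;> simp [decode]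

lemma code_decode (σ : ℕ) (hσ : σ = 1 ∨ σ = 2) (k : Fin 3) : code (decode σ k) = k := by
  have hk : k = 0 ∨ k = 1 ∨ k = 2 := by fin_cases k <;> simp
  rcases hσ with rfl | rfl <;> rcases hk with rfl | rfl | rfl <;> simp [decode, code]

lemma code_zero (u : Fin 3 → ℕ) (h1 : ∑ i, u i ≠ 1) (h2 : ∑ i, u i ≠ 2) : code u = 0 := by
  rw [Fin.sum_univ_three] at h1 h2
  unfold code
  rw [if_neg h1, if_neg h2]

lemma opp : ∀ i j k : Fin 3, i ≠ j → i ≠ k → j ≠ k →
    (j = i+1 ∧ k = i+2) ∨ (j = i+2 ∧ k = i+1) := by decide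

lemma sum3 {i j k : Fin 3} (hij : i ≠ j) (hik : i ≠ k) (hjk : j ≠ k) (f : Fin 3 → ℕ) :
    ∑ l, f l = f i + f j + f k := by
  rw [Fin.sum_univ_three]
  have hi : i = 0 ∨ i = 1 ∨ i = 2 := by fin_cases i <;> simp
  rcases opp i j k hij hik hjk with ⟨rfl, rfl⟩ | ⟨rfl, rfl⟩ <;> rcases hi with rfl | rfl | rfl <;>
    simp <;> omega

lemma all3 {i j k : Fin 3} (hij : i ≠ j) (hik : i ≠ k) (hjk : j ≠ k) (l : Fin 3) :
    l = i ∨ l = j ∨ l = k := by
  revert i j k l; decide

variable {n : ℕ}

/-- the 0/1 matrix seen from the three rows `T` -/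
noncomputable def U (T : Fin 3 → Fin n) (G : Finset (Edge n)) : Option (Fin n) → Fin 3 → ℕ
  | none, i => 1 - v G (T (i+1)) (T (i+2))
  | some x, i => if x ∈ univ.image T then 0 else v G (T i) x

lemma U_le (T : Fin 3 → Fin n) (G : Finset (Edge n)) (y : Option (Fin n)) (i : Fin 3) :
    U T G y i ≤ 1 := by
  cases y with
  | none => simp [U]
  | some x => simp only [U]; split_ifs <;> simp [v_le]

lemma U_none {T : Fin 3 → Fin n} {i j k : Fin 3} (hij : i ≠ j) (hik : i ≠ k) (hjk : j ≠ k)
    (G : Finset (Edge n)) : U T G none i = 1 - v G (T j) (T k) := by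
  unfold U
  rcases opp i j k hij hik hjk with ⟨rfl, rfl⟩ | ⟨rfl, rfl⟩
  · rfl
  · rw [v_comm]

lemma mem_im {T : Fin 3 → Fin n} {i j k : Fin 3} (hij : i ≠ j) (hik : i ≠ k) (hjk : j ≠ k)
    {x : Fin n} : x ∈ univ.image T ↔ x = T i ∨ x = T j ∨ x = T k := by
  simp only [mem_image, mem_univ, true_and]
  constructor
  · rintro ⟨l, rfl⟩
    rcases all3 hij hik hjk l with rfl | rfl | rfl <;> simp
  · rintro (rfl | rfl | rfl) <;> exact ⟨_, rfl⟩

lemma sum_Out_T {T : Fin 3 → Fin n} (hT : Function.Injective T) {i j k : Fin 3} (hij : i ≠ j)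
    (hik : i ≠ k) (hjk : j ≠ k) (f : Fin n → ℕ) :
    ∑ x ∈ Out (T j) (T k), f x = f (T i) + ∑ x, if x ∈ univ.image T then 0 else f x := by
  have h1 : Out (T j) (T k) = insert (T i) (univ.filter (fun x => x ∉ univ.image T)) := by
    ext x
    rw [mem_Out, mem_insert, mem_filter, mem_im hij hik hjk]
    constructor
    · rintro ⟨h1, h2⟩
      by_cases hx : x = T i
      · exact Or.inl hx
      · right; exact ⟨mem_univ _, by tauto⟩
    · rintro (rfl | ⟨_, h⟩)
      · exact ⟨fun h => hij (hT h), fun h => hik (hT h)⟩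
      · tauto
  rw [h1, sum_insert]
  · congr 1
    rw [sum_filter]
    apply sum_congr rfl
    intro x _
    by_cases hx : x ∈ univ.image T <;> simp only [hx, not_true_eq_false, not_false_eq_true, if_true, if_false]
  · intro h
    rw [mem_filter] at h
    exact h.2 (mem_image_of_mem _ (mem_univ _))

/-- same graph outside `T`, same column sums, same row sums -/
structure RT (T : Fin 3 → Fin n) (G G' : Finset (Edge n)) : Prop where
  off : ∀ p q, p ∉ univ.image T → q ∉ univ.image T → v G p q = v G' p q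
  col : ∀ y, ∑ i, U T G y i = ∑ i, U T G' y i
  row : ∀ i, ∑ y, U T G y i = ∑ y, U T G' y i

lemma rt_equiv (T : Fin 3 → Fin n) : Equivalence (RT T) where
  refl := fun _ => ⟨fun _ _ _ _ => rfl, fun _ => rfl, fun _ => rfl⟩
  symm := fun h => ⟨fun p q hp hq => (h.off p q hp hq).symm, fun y => (h.col y).symm,
    fun i => (h.row i).symm⟩
  trans := fun h h' => ⟨fun p q hp hq => (h.off p q hp hq).trans (h'.off p q hp hq),
    fun y => (h.col y).trans (h'.col y), fun i => (h.row i).trans (h'.row i)⟩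

lemma ra_to_rt {T : Fin 3 → Fin n} (hT : Function.Injective T) {i j k : Fin 3} (hij : i ≠ j)
    (hik : i ≠ k) (hjk : j ≠ k) {G G' : Finset (Edge n)} (h : RA (T j) (T k) G G') :
    RT T G G' ∧ ∀ y, U T G y i = U T G' y i := by
  have hTij : T i ≠ T j := fun h => hij (hT h)
  have hTik : T i ≠ T k := fun h => hik (hT h)
  have hTjk : T j ≠ T k := fun h => hjk (hT h)
  have hjk' : v G (T j) (T k) = v G' (T j) (T k) := by
    apply h.off; unfold InI; simp
  have hci := h.col (T i) (by simp [hTij, hTik])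
  have hoffi : ∀ x, x ∉ univ.image T → v G (T i) x = v G' (T i) x := by
    intro x hx
    rw [mem_im hij hik hjk] at hx
    apply h.off; unfold InI; tauto
  have hcol : ∀ x, x ∉ univ.image T → v G (T j) x + v G (T k) x = v G' (T j) x + v G' (T k) x := by
    intro x hx
    rw [mem_im hij hik hjk] at hx
    apply h.col; rw [mem_Out]; tauto
  have hUi : ∀ y, U T G y i = U T G' y i := by
    intro y
    cases y with
    | none => rw [U_none hij hik hjk, U_none hij hik hjk, hjk']
    | some x =>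
      unfold U
      by_cases hx : x ∈ univ.image T
      · simp only [hx, if_true]
      · simp only [hx, if_false]; exact hoffi x hx
  have b1 := v_le G (T j) (T i)
  have b2 := v_le G (T k) (T i)
  have b3 := v_le G' (T j) (T i)
  have b4 := v_le G' (T k) (T i)
  have eN : ∀ H, U T H none j = 1 - v H (T k) (T i) := fun H => by
    rw [U_none hij.symm hjk hik H, v_comm]
  have eK : ∀ H, U T H none k = 1 - v H (T j) (T i) := fun H => by
    rw [U_none hik.symm hjk.symm hij H, v_comm]
  have hcolU : ∀ x : Fin n, U T G (some x) j + U T G (some x) k = U T G' (some x) j + U T G' (some x) k := by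
    intro x
    unfold U
    by_cases hx : x ∈ univ.image T
    · simp only [hx, if_true]
    · simp only [hx, if_false]; exact hcol x hx
  have hcnt : v G (T j) (T i) + ∑ x, U T G (some x) j = v G' (T j) (T i) + ∑ x, U T G' (some x) j := by
    have := h.cnt
    rw [sum_Out_T hT hij hik hjk, sum_Out_T hT hij hik hjk] at this
    exact this
  have hsum : ∑ x, U T G (some x) j + ∑ x, U T G (some x) k
      = ∑ x, U T G' (some x) j + ∑ x, U T G' (some x) k := by
    rw [← sum_add_distrib, ← sum_add_distrib]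
    exact sum_congr rfl (fun x _ => hcolU x)
  refine ⟨⟨?_, ?_, ?_⟩, hUi⟩
  · intro p q hp hq
    rw [mem_im hij hik hjk] at hp hq
    apply h.off; unfold InI; tauto
  · intro y
    rw [sum3 hij hik hjk, sum3 hij hik hjk, hUi]
    cases y with
    | none => rw [eN, eN, eK, eK]; omega
    | some x => have := hcolU x; omega
  · intro l
    rw [Fintype.sum_option, Fintype.sum_option]
    rcases all3 hij hik hjk l with rfl | rfl | rfl
    · rw [hUi none]
      congr 1
      exact sum_congr rfl (fun x _ => hUi (some x))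
    · rw [eN, eN]; omega
    · rw [eK, eK]; omega

lemma rt_to_ra {T : Fin 3 → Fin n} (hT : Function.Injective T) {i j k : Fin 3} (hij : i ≠ j)
    (hik : i ≠ k) (hjk : j ≠ k) {G G' : Finset (Edge n)} (h : RT T G G')
    (hU : ∀ y, U T G y i = U T G' y i) : RA (T j) (T k) G G' := by
  have hTij : T i ≠ T j := fun h => hij (hT h)
  have hTik : T i ≠ T k := fun h => hik (hT h)
  have hTjk : T j ≠ T k := fun h => hjk (hT h)
  have b1 := v_le G (T j) (T i)
  have b2 := v_le G (T k) (T i)
  have b3 := v_le G' (T j) (T i)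
  have b4 := v_le G' (T k) (T i)
  have b5 := v_le G (T j) (T k)
  have b6 := v_le G' (T j) (T k)
  have eN : ∀ H, U T H none j = 1 - v H (T k) (T i) := fun H => by
    rw [U_none hij.symm hjk hik H, v_comm]
  have eK : ∀ H, U T H none k = 1 - v H (T j) (T i) := fun H => by
    rw [U_none hik.symm hjk.symm hij H, v_comm]
  have hjk' : v G (T j) (T k) = v G' (T j) (T k) := by
    have := hU none
    rw [U_none hij hik hjk, U_none hij hik hjk] at this
    omega
  have hti : v G (T j) (T i) + v G (T k) (T i) = v G' (T j) (T i) + v G' (T k) (T i) := by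
    have := h.col none
    rw [sum3 hij hik hjk, sum3 hij hik hjk, hU none, eN, eN, eK, eK] at this
    omega
  have hoffi : ∀ x, x ∉ univ.image T → v G (T i) x = v G' (T i) x := by
    intro x hx
    have := hU (some x)
    unfold U at this
    simpa only [hx, if_false] using this
  refine ⟨?_, ?_, ?_⟩
  · intro p q hpq
    by_cases hp : p ∈ univ.image T
    · by_cases hq : q ∈ univ.image T
      · rw [mem_im hij hik hjk] at hp hq
        unfold InI at hpq
        simp only [mem_Out] at hpq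
        rcases hp with rfl | rfl | rfl <;> rcases hq with rfl | rfl | rfl
        · simp
        · exact absurd (Or.inr ⟨Or.inl rfl, hTij, hTik⟩) hpq
        · exact absurd (Or.inr ⟨Or.inr rfl, hTij, hTik⟩) hpq
        · exact absurd (Or.inl ⟨Or.inl rfl, hTij, hTik⟩) hpq
        · simp
        · exact hjk'
        · exact absurd (Or.inl ⟨Or.inr rfl, hTij, hTik⟩) hpq
        · rw [v_comm, hjk', v_comm]
        · simp
      · have hq' := hq
        rw [mem_im hij hik hjk] at hp hq
        push Not at hq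
        unfold InI at hpq
        simp only [mem_Out] at hpq
        rcases hp with rfl | rfl | rfl
        · exact hoffi q hq'
        · exact absurd (Or.inl ⟨Or.inl rfl, hq.2.1, hq.2.2⟩) hpq
        · exact absurd (Or.inl ⟨Or.inr rfl, hq.2.1, hq.2.2⟩) hpq
    · by_cases hq : q ∈ univ.image T
      · have hp' := hp
        rw [mem_im hij hik hjk] at hp hq
        push Not at hp
        unfold InI at hpq
        simp only [mem_Out] at hpq
        rcases hq with rfl | rfl | rfl
        · rw [v_comm, hoffi p hp', v_comm]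
        · exact absurd (Or.inr ⟨Or.inl rfl, hp.2.1, hp.2.2⟩) hpq
        · exact absurd (Or.inr ⟨Or.inr rfl, hp.2.1, hp.2.2⟩) hpq
      · exact h.off p q hp hq
  · intro x hx
    rw [mem_Out] at hx
    by_cases hxT : x ∈ univ.image T
    · rw [mem_im hij hik hjk] at hxT
      rcases hxT with rfl | rfl | rfl
      · exact hti
      · exact absurd rfl hx.1
      · exact absurd rfl hx.2
    · have := h.col (some x)
      rw [sum3 hij hik hjk, sum3 hij hik hjk, hU (some x)] at this
      unfold U at this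
      simp only [hxT, if_false] at this
      omega
  · rw [sum_Out_T hT hij hik hjk, sum_Out_T hT hij hik hjk]
    have := h.row j
    rw [Fintype.sum_option, Fintype.sum_option, eN, eN] at this
    change v G (T j) (T i) + ∑ x, U T G (some x) j = v G' (T j) (T i) + ∑ x, U T G' (some x) j
    omega

/-- the colouring attached to a graph -/
noncomputable def phi (T : Fin 3 → Fin n) (G : Finset (Edge n)) : Option (Fin n) → Fin 3 :=
  fun y => code (U T G y)

noncomputable def X1 (T : Fin 3 → Fin n) (G : Finset (Edge n)) : Finset (Option (Fin n)) :=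
  univ.filter fun y => ∑ i, U T G y i = 1
noncomputable def X2 (T : Fin 3 → Fin n) (G : Finset (Edge n)) : Finset (Option (Fin n)) :=
  univ.filter fun y => ∑ i, U T G y i = 2

noncomputable def dl (T : Fin 3 → Fin n) (G : Finset (Edge n)) : Fin 3 → ℤ :=
  fun i => (((X1 T G).filter fun y => phi T G y = i).card : ℤ) -
    (((X2 T G).filter fun y => phi T G y = i).card : ℤ)

lemma disj (T : Fin 3 → Fin n) (G : Finset (Edge n)) : Disjoint (X1 T G) (X2 T G) := by
  rw [Finset.disjoint_left]
  intro y h1 h2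
  simp only [X1, X2, mem_filter, mem_univ, true_and] at h1 h2
  omega

lemma phi_iff1 {T : Fin 3 → Fin n} {G : Finset (Edge n)} {y : Option (Fin n)}
    (h : ∑ i, U T G y i = 1) (i : Fin 3) : phi T G y = i ↔ U T G y i = 1 := by
  rw [← decode_code (U T G y) (U_le T G y) i, h]
  unfold decode phi
  simp

lemma phi_iff2 {T : Fin 3 → Fin n} {G : Finset (Edge n)} {y : Option (Fin n)}
    (h : ∑ i, U T G y i = 2) (i : Fin 3) : phi T G y = i ↔ U T G y i = 0 := by
  rw [← decode_code (U T G y) (U_le T G y) i, h]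
  unfold decode phi
  simp

/-- the row sums of a 0/1 matrix in terms of the colouring -/
lemma rowsum (u : Option (Fin n) → Fin 3 → ℕ) (σ : Option (Fin n) → ℕ) (s : Option (Fin n) → Fin 3)
    (hu : ∀ y i, u y i = decode (σ y) (s y) i) (i : Fin 3) :
    ((∑ y, u y i : ℕ) : ℤ) = (((univ.filter fun y => σ y = 1).filter fun y => s y = i).card : ℤ) -
      (((univ.filter fun y => σ y = 2).filter fun y => s y = i).card : ℤ) +
      ((univ.filter fun y => σ y = 2).card : ℤ) + ((univ.filter fun y => σ y = 3).card : ℤ) := by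
  rw [filter_filter, filter_filter]
  simp only [card_filter]
  push_cast
  rw [← sum_sub_distrib, ← sum_add_distrib, ← sum_add_distrib]
  apply sum_congr rfl
  intro y _
  rw [hu]
  unfold decode
  by_cases h1 : σ y = 1
  · by_cases hi : s y = i <;> simp [h1, hi]
  · by_cases h2 : σ y = 2
    · by_cases hi : s y = i <;> simp [h2, hi]
    · by_cases h3 : σ y = 3 <;> simp [h1, h2, h3]

lemma phi_mem {T : Fin 3 → Fin n} {G G' : Finset (Edge n)} (h : RT T G G') :
    phi T G' ∈ colSpace (X1 T G) (X2 T G) (dl T G) := by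
  simp only [colSpace, mem_filter, mem_univ, true_and]
  constructor
  · intro y h1 h2
    simp only [X1, X2, mem_filter, mem_univ, true_and, h.col] at h1 h2
    exact code_zero _ h1 h2
  · intro i
    have e1 := rowsum (U T G) (fun y => ∑ i, U T G y i) (phi T G)
      (fun y i => (decode_code (U T G y) (U_le T G y) i).symm) i
    have e2 := rowsum (U T G') (fun y => ∑ i, U T G y i) (phi T G')
      (fun y i => by rw [h.col]; exact (decode_code (U T G' y) (U_le T G' y) i).symm) i
    rw [h.row i] at e1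
    unfold dl X1 X2
    linarith

lemma U_of_phi {T : Fin 3 → Fin n} {G G' : Finset (Edge n)} (h : RT T G G')
    {i : Fin 3} (hp : ∀ y ∈ X1 T G ∪ X2 T G, (phi T G y = i ↔ phi T G' y = i)) :
    ∀ y, U T G y i = U T G' y i := by
  intro y
  have hc := h.col y
  by_cases h1 : ∑ i, U T G y i = 1
  · have := hp y (by simp [X1, h1])
    rw [phi_iff1 h1, phi_iff1 (hc ▸ h1)] at this
    have b1 := U_le T G y i
    have b2 := U_le T G' y i
    omega
  · by_cases h2 : ∑ i, U T G y i = 2
    · have := hp y (by simp [X2, h2])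
      rw [phi_iff2 h2, phi_iff2 (hc ▸ h2)] at this
      have b1 := U_le T G y i
      have b2 := U_le T G' y i
      omega
    · rw [← decode_code (U T G y) (U_le T G y) i, ← decode_code (U T G' y) (U_le T G' y) i, ← hc]
      unfold decode
      rw [if_neg h1, if_neg h2, if_neg h1, if_neg h2]

lemma phi_of_U {T : Fin 3 → Fin n} {G0 G G' : Finset (Edge n)} (h0 : RT T G0 G) (h : RT T G G')
    {i : Fin 3} (hU : ∀ y, U T G y i = U T G' y i) :
    ∀ y ∈ X1 T G0 ∪ X2 T G0, (phi T G y = i ↔ phi T G' y = i) := by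
  intro y hy
  have hc := h.col y
  have hc0 := h0.col y
  simp only [X1, X2, mem_union, mem_filter, mem_univ, true_and, hc0] at hy
  rcases hy with hy | hy
  · rw [phi_iff1 hy, phi_iff1 (hc ▸ hy), hU]
  · rw [phi_iff2 hy, phi_iff2 (hc ▸ hy), hU]

lemma ext_U {T : Fin 3 → Fin n} (hT : Function.Injective T) {G G' : Finset (Edge n)}
    (h : RT T G G') (hU : ∀ y i, U T G y i = U T G' y i) : G = G' := by
  apply ext_v
  intro p q hpq
  have h01 : (0 : Fin 3) ≠ 1 := by decide
  have h02 : (0 : Fin 3) ≠ 2 := by decide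
  have h12 : (1 : Fin 3) ≠ 2 := by decide
  -- use the three pair relations
  have r0 := rt_to_ra hT h01 h02 h12 h (fun y => hU y 0)
  have r1 := rt_to_ra hT h01.symm h12 h02 h (fun y => hU y 1)
  have hT01 : T 0 ≠ T 1 := fun h => h01 (hT h)
  have hT02 : T 0 ≠ T 2 := fun h => h02 (hT h)
  have hT12 : T 1 ≠ T 2 := fun h => h12 (hT h)
  have r2 := rt_to_ra hT h02.symm h12.symm h01 h (fun y => hU y 2)
  by_cases c0 : InI (T 1) (T 2) (Out (T 1) (T 2)) p q
  · by_cases c1 : InI (T 0) (T 2) (Out (T 0) (T 2)) p q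
    · refine r2.off p q ?_
      unfold InI at *
      simp only [mem_Out] at *
      rintro (⟨h1 | h1, h2, h3⟩ | ⟨h1 | h1, h2, h3⟩) <;> subst h1 <;> simp_all
    · exact r1.off p q c1
  · exact r0.off p q c0

/-- the graph with prescribed matrix `u` on the rows `T`, and equal to `G0` elsewhere -/
noncomputable def build (T : Fin 3 → Fin n) (G0 : Finset (Edge n)) (u : Option (Fin n) → Fin 3 → ℕ) :
    Finset (Edge n) :=
  ofAdj fun p q => (p ∉ univ.image T ∧ q ∉ univ.image T ∧ Adj G0 p q) ∨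
    (∃ i, p = T i ∧ q ∉ univ.image T ∧ u (some q) i = 1) ∨
    (∃ i, q = T i ∧ p ∉ univ.image T ∧ u (some p) i = 1) ∨
    (∃ i j k, i ≠ j ∧ i ≠ k ∧ j ≠ k ∧ p = T j ∧ q = T k ∧ u none i = 0)

lemma build_symm (T : Fin 3 → Fin n) (G0 : Finset (Edge n)) (u : Option (Fin n) → Fin 3 → ℕ)
    (p q : Fin n) (h : (p ∉ univ.image T ∧ q ∉ univ.image T ∧ Adj G0 p q) ∨
    (∃ i, p = T i ∧ q ∉ univ.image T ∧ u (some q) i = 1) ∨
    (∃ i, q = T i ∧ p ∉ univ.image T ∧ u (some p) i = 1) ∨
    (∃ i j k, i ≠ j ∧ i ≠ k ∧ j ≠ k ∧ p = T j ∧ q = T k ∧ u none i = 0)) :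
    (q ∉ univ.image T ∧ p ∉ univ.image T ∧ Adj G0 q p) ∨
    (∃ i, q = T i ∧ p ∉ univ.image T ∧ u (some p) i = 1) ∨
    (∃ i, p = T i ∧ q ∉ univ.image T ∧ u (some q) i = 1) ∨
    (∃ i j k, i ≠ j ∧ i ≠ k ∧ j ≠ k ∧ q = T j ∧ p = T k ∧ u none i = 0) := by
  rcases h with ⟨h1, h2, h3⟩ | h | h | ⟨i, j, k, h1, h2, h3, h4, h5, h6⟩
  · exact Or.inl ⟨h2, h1, h3.symm⟩
  · exact Or.inr (Or.inr (Or.inl h))
  · exact Or.inr (Or.inl h)
  · exact Or.inr (Or.inr (Or.inr ⟨i, k, j, h2, h1, h3.symm, h5, h4, h6⟩))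

lemma build_off {T : Fin 3 → Fin n} (G0 : Finset (Edge n)) (u : Option (Fin n) → Fin 3 → ℕ)
    {p q : Fin n} (hp : p ∉ univ.image T) (hq : q ∉ univ.image T) :
    v (build T G0 u) p q = v G0 p q := by
  by_cases hpq : p = q
  · subst hpq; simp
  rw [v_eq_iff, build, adj_ofAdj (build_symm T G0 u)]
  constructor
  · rintro ⟨_, ⟨_, _, h⟩ | ⟨i, rfl, _⟩ | ⟨i, rfl, _⟩ | ⟨i, j, k, _, _, _, rfl, _⟩⟩
    · exact h
    · exact absurd (mem_image_of_mem _ (mem_univ _)) hp
    · exact absurd (mem_image_of_mem _ (mem_univ _)) hq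
    · exact absurd (mem_image_of_mem _ (mem_univ _)) hp
  · intro h
    exact ⟨hpq, Or.inl ⟨hp, hq, h⟩⟩

lemma build_some {T : Fin 3 → Fin n} (hT : Function.Injective T) (G0 : Finset (Edge n))
    (u : Option (Fin n) → Fin 3 → ℕ) (hu : ∀ y i, u y i ≤ 1) {x : Fin n} (hx : x ∉ univ.image T)
    (i : Fin 3) : v (build T G0 u) (T i) x = u (some x) i := by
  have hne : T i ≠ x := by rintro rfl; exact hx (mem_image_of_mem _ (mem_univ _))
  have key : Adj (build T G0 u) (T i) x ↔ u (some x) i = 1 := by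
    rw [build, adj_ofAdj (build_symm T G0 u)]
    constructor
    · rintro ⟨_, ⟨h, _, _⟩ | ⟨i', h1, _, h2⟩ | ⟨i', rfl, _⟩ | ⟨i, j, k, _, _, _, _, rfl, _⟩⟩
      · exact absurd (mem_image_of_mem _ (mem_univ _)) h
      · rw [hT h1]; exact h2
      · exact absurd (mem_image_of_mem _ (mem_univ _)) hx
      · exact absurd (mem_image_of_mem _ (mem_univ _)) hx
    · intro h
      exact ⟨hne, Or.inr (Or.inl ⟨i, rfl, hx, h⟩)⟩
  have := hu (some x) i
  unfold v
  split_ifs with h
  · exact (key.mp h).symm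
  · have : u (some x) i ≠ 1 := fun h' => h (key.mpr h')
    omega

lemma third (j k i i' : Fin 3) (h1 : i ≠ j) (h2 : i ≠ k) (h3 : i' ≠ j) (h4 : i' ≠ k)
    (h5 : j ≠ k) : i = i' := by revert j k i i'; decide

lemma build_none {T : Fin 3 → Fin n} (hT : Function.Injective T) (G0 : Finset (Edge n))
    (u : Option (Fin n) → Fin 3 → ℕ) (hu : ∀ y i, u y i ≤ 1) {i j k : Fin 3} (hij : i ≠ j)
    (hik : i ≠ k) (hjk : j ≠ k) : v (build T G0 u) (T j) (T k) = 1 - u none i := by
  have hne : T j ≠ T k := fun h => hjk (hT h)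
  have key : Adj (build T G0 u) (T j) (T k) ↔ u none i = 0 := by
    rw [build, adj_ofAdj (build_symm T G0 u)]
    constructor
    · rintro ⟨_, ⟨h, _, _⟩ | ⟨i', _, h1, _⟩ | ⟨i', _, h, _⟩ | ⟨i', j', k', a1, a2, a3, a4, a5, a6⟩⟩
      · exact absurd (mem_image_of_mem _ (mem_univ _)) h
      · exact absurd (mem_image_of_mem _ (mem_univ _)) h1
      · exact absurd (mem_image_of_mem _ (mem_univ _)) h
      · have b1 := hT a4
        have b2 := hT a5
        subst b1; subst b2
        rw [third _ _ i i' hij hik a1 a2 a3]; exact a6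
    · intro h
      exact ⟨hne, Or.inr (Or.inr (Or.inr ⟨i, j, k, hij, hik, hjk, rfl, rfl, h⟩))⟩
  have := hu none i
  unfold v
  split_ifs with h
  · rw [key.mp h]
  · have : u none i ≠ 0 := fun h' => h (key.mpr h')
    omega

lemma U_build {T : Fin 3 → Fin n} (hT : Function.Injective T) (G0 : Finset (Edge n))
    (u : Option (Fin n) → Fin 3 → ℕ) (hu : ∀ y i, u y i ≤ 1)
    (hz : ∀ x ∈ univ.image T, ∀ i, u (some x) i = 0) (y : Option (Fin n)) (i : Fin 3) :
    U T (build T G0 u) y i = u y i := by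
  cases y with
  | none =>
    have h1 : i ≠ i + 1 := by revert i; decide
    have h2 : i ≠ i + 2 := by revert i; decide
    have h3 : i + 1 ≠ i + 2 := by revert i; decide
    rw [U_none h1 h2 h3, build_none hT G0 u hu h1 h2 h3]
    have := hu none i
    omega
  | some x =>
    simp only [U]
    by_cases hx : x ∈ univ.image T
    · rw [if_pos hx, hz x hx]
    · rw [if_neg hx, build_some hT G0 u hu hx]

lemma phi_surj {T : Fin 3 → Fin n} (hT : Function.Injective T) (G0 : Finset (Edge n))
    (s : Option (Fin n) → Fin 3) (hs : s ∈ colSpace (X1 T G0) (X2 T G0) (dl T G0)) :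
    ∃ G, RT T G0 G ∧ phi T G = s := by
  simp only [colSpace, mem_filter, mem_univ, true_and] at hs
  obtain ⟨hs0, hs1⟩ := hs
  set σ : Option (Fin n) → ℕ := fun y => ∑ i, U T G0 y i with hσ
  have hσ3 : ∀ y, σ y ≤ 3 := by
    intro y
    simp only [hσ]
    rw [Fin.sum_univ_three]
    have h0 := U_le T G0 y 0
    have h1 := U_le T G0 y 1
    have h2 := U_le T G0 y 2
    omega
  set u : Option (Fin n) → Fin 3 → ℕ := fun y i => decode (σ y) (s y) i with hu
  have hule : ∀ y i, u y i ≤ 1 := fun y i => decode_le _ _ _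
  have hz : ∀ x ∈ univ.image T, ∀ i, u (some x) i = 0 := by
    intro x hx i
    have : σ (some x) = 0 := by
      simp only [hσ, U, if_pos hx, sum_const_zero]
    simp only [hu, this, decode]
    simp
  have hUb := U_build hT G0 u hule hz
  have hcol : ∀ y, ∑ i, U T G0 y i = ∑ i, U T (build T G0 u) y i := by
    intro y
    rw [sum_congr rfl (fun i _ => hUb y i)]
    exact (decode_sum (σ y) (hσ3 y) (s y)).symm
  refine ⟨build T G0 u, ⟨fun p q hp hq => (build_off G0 u hp hq).symm, hcol, ?_⟩, ?_⟩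
  · intro i
    have e1 := rowsum (U T G0) σ (phi T G0)
      (fun y i => (decode_code (U T G0 y) (U_le T G0 y) i).symm) i
    have e2 := rowsum (U T (build T G0 u)) σ s (fun y i => hUb y i) i
    have e3 := hs1 i
    unfold dl X1 X2 at e3
    have : ((∑ y, U T G0 y i : ℕ) : ℤ) = ((∑ y, U T (build T G0 u) y i : ℕ) : ℤ) := by
      rw [e1, e2]; linarith
    exact_mod_cast this
  · funext y
    have h1 : U T (build T G0 u) y = decode (σ y) (s y) := by
      funext i; exact hUb y i
    unfold phi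
    by_cases hy : σ y = 1 ∨ σ y = 2
    · rw [h1]; exact code_decode _ hy _
    · push Not at hy
      have a1 : y ∉ X1 T G0 := by simp only [X1, mem_filter, mem_univ, true_and]; exact hy.1
      have a2 : y ∉ X2 T G0 := by simp only [X2, mem_filter, mem_univ, true_and]; exact hy.2
      rw [hs0 y a1 a2]
      refine code_zero _ ?_ ?_
      · rw [← hcol y]; exact hy.1
      · rw [← hcol y]; exact hy.2

lemma phi_inj {T : Fin 3 → Fin n} (hT : Function.Injective T) {G G' : Finset (Edge n)}
    (h : RT T G G') (hp : phi T G = phi T G') : G = G' := by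
  apply ext_U hT h
  intro y i
  exact U_of_phi h (fun y _ => by rw [hp]) y

/-- transfer of the averages -/
lemma avg_eq {T : Fin 3 → Fin n} (hT : Function.Injective T) {i j k : Fin 3} (hij : i ≠ j)
    (hik : i ≠ k) (hjk : j ≠ k) (G0 : Finset (Edge n)) (F : Finset (Edge n) → ℝ)
    (F' : (Option (Fin n) → Fin 3) → ℝ) (hF : ∀ G, RT T G0 G → F' (phi T G) = F G)
    {G : Finset (Edge n)} (hG : RT T G0 G) :
    avg (RA (T j) (T k)) F G = rowAvg (X1 T G0) (X2 T G0) (dl T G0) i F' (phi T G) := by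
  classical
  have hmaps : ∀ H ∈ cls (RA (T j) (T k)) G, phi T H ∈ (colSpace (X1 T G0) (X2 T G0) (dl T G0)).filter
      (fun t => ∀ x ∈ X1 T G0 ∪ X2 T G0, (phi T G x = i ↔ t x = i)) := by
    intro H hH
    obtain ⟨h1, h2⟩ := ra_to_rt hT hij hik hjk (mem_cls.mp hH)
    rw [mem_filter]
    exact ⟨phi_mem ((rt_equiv T).trans hG h1), phi_of_U hG h1 h2⟩
  have hinj : Set.InjOn (phi T) (cls (RA (T j) (T k)) G) := by
    intro H hH H' hH' he
    simp only [Finset.mem_coe, mem_cls] at hH hH'
    exact phi_inj hT ((rt_equiv T).trans ((rt_equiv T).symm (ra_to_rt hT hij hik hjk hH).1)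
      (ra_to_rt hT hij hik hjk hH').1) he
  have hsurj : Set.SurjOn (phi T) (cls (RA (T j) (T k)) G)
      ((colSpace (X1 T G0) (X2 T G0) (dl T G0)).filter
      (fun t => ∀ x ∈ X1 T G0 ∪ X2 T G0, (phi T G x = i ↔ t x = i))) := by
    intro t ht
    simp only [Finset.mem_coe, mem_filter] at ht
    obtain ⟨H, hH, rfl⟩ := phi_surj hT G0 t ht.1
    refine ⟨H, ?_, rfl⟩
    simp only [Finset.mem_coe, mem_cls]
    have hGH : RT T G H := (rt_equiv T).trans ((rt_equiv T).symm hG) hH
    refine rt_to_ra hT hij hik hjk hGH (U_of_phi hGH ?_)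
    intro y hy
    refine ht.2 y ?_
    simp only [X1, X2, mem_union, mem_filter, mem_univ, true_and] at hy ⊢
    rw [hG.col y]; exact hy
  have hs : ∑ H ∈ cls (RA (T j) (T k)) G, F H
      = ∑ t ∈ (colSpace (X1 T G0) (X2 T G0) (dl T G0)).filter
        (fun t => ∀ x ∈ X1 T G0 ∪ X2 T G0, (phi T G x = i ↔ t x = i)), F' t := by
    refine sum_nbij (phi T) hmaps hinj hsurj ?_
    intro H hH
    exact (hF H ((rt_equiv T).trans hG (ra_to_rt hT hij hik hjk (mem_cls.mp hH)).1)).symm
  have hc : (cls (RA (T j) (T k)) G).card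
      = ((colSpace (X1 T G0) (X2 T G0) (dl T G0)).filter
        (fun t => ∀ x ∈ X1 T G0 ∪ X2 T G0, (phi T G x = i ↔ t x = i))).card :=
    card_nbij (phi T) hmaps hinj hsurj
  unfold avg rowAvg
  rw [hs, hc]

end TRG

open TRG

/-- The three-row inequality on graphs. -/
theorem three_row_graph {n : ℕ} {a b c : Fin n} (hab : a ≠ b) (hac : a ≠ c) (hbc : b ≠ c)
    (F : Finset (Edge n) → ℝ) :
    0 ≤ ip (F - avg (RA a b) F) (F - avg (RA a c) F) + ip (F - avg (RA a b) F) (F - avg (RA b c) F)
      + ip (F - avg (RA a c) F) (F - avg (RA b c) F) := by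
  classical
  set T : Fin 3 → Fin n := ![a, b, c] with hTdef
  have hT : Function.Injective T := by
    intro i j hij
    by_contra hne
    have h0 : T 0 = a := rfl
    have h1 : T 1 = b := rfl
    have h2 : T 2 = c := rfl
    have hi : i = 0 ∨ i = 1 ∨ i = 2 := by fin_cases i <;> simp
    have hj : j = 0 ∨ j = 1 ∨ j = 2 := by fin_cases j <;> simp
    rcases hi with rfl | rfl | rfl <;> rcases hj with rfl | rfl | rfl <;>
      simp only [h0, h1, h2, not_true_eq_false] at hij hne <;>
      simp_all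
  have h01 : (0 : Fin 3) ≠ 1 := by decide
  have h02 : (0 : Fin 3) ≠ 2 := by decide
  have h12 : (1 : Fin 3) ≠ 2 := by decide
  have e : ip (F - avg (RA a b) F) (F - avg (RA a c) F) + ip (F - avg (RA a b) F) (F - avg (RA b c) F)
      + ip (F - avg (RA a c) F) (F - avg (RA b c) F)
      = ∑ G, ((F G - avg (RA (T 1) (T 2)) F G) * (F G - avg (RA (T 0) (T 2)) F G) +
        (F G - avg (RA (T 1) (T 2)) F G) * (F G - avg (RA (T 0) (T 1)) F G) +
        (F G - avg (RA (T 0) (T 2)) F G) * (F G - avg (RA (T 0) (T 1)) F G)) := by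
    unfold ip
    rw [← sum_add_distrib, ← sum_add_distrib]
    apply sum_congr rfl
    intro G _
    simp only [Pi.sub_apply, hTdef, Matrix.cons_val_zero, Matrix.cons_val_one, Matrix.cons_val]
    ring
  rw [e]
  refine sum_nonneg_of_class (rt_equiv T) _ ?_
  intro G0
  -- the transported function
  have hsel : ∀ s : Option (Fin n) → Fin 3, ∃ G : Finset (Edge n),
      s ∈ colSpace (X1 T G0) (X2 T G0) (dl T G0) → RT T G0 G ∧ phi T G = s := by
    intro s
    by_cases hs : s ∈ colSpace (X1 T G0) (X2 T G0) (dl T G0)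
    · obtain ⟨G, hG⟩ := phi_surj hT G0 s hs
      exact ⟨G, fun _ => hG⟩
    · exact ⟨G0, fun h => absurd h hs⟩
  choose psi hpsi using hsel
  set F' : (Option (Fin n) → Fin 3) → ℝ := fun s => F (psi s) with hF'
  have hF : ∀ G, RT T G0 G → F' (phi T G) = F G := by
    intro G hG
    obtain ⟨h1, h2⟩ := hpsi (phi T G) (phi_mem hG)
    simp only [hF']
    rw [phi_inj hT ((rt_equiv T).trans ((rt_equiv T).symm h1) hG) h2]
  have h3 := three_row (X1 T G0) (X2 T G0) (disj T G0) (dl T G0) F'
  refine h3.trans (le_of_eq ?_)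
  symm
  refine sum_nbij (phi T) ?_ ?_ ?_ ?_
  · intro G hG; exact phi_mem (mem_cls.mp hG)
  · intro G hG G' hG' he
    simp only [Finset.mem_coe, mem_cls] at hG hG'
    exact phi_inj hT ((rt_equiv T).trans ((rt_equiv T).symm hG) hG') he
  · intro s hs
    obtain ⟨h1, h2⟩ := hpsi s (by simpa using hs)
    exact ⟨psi s, by simpa using h1, h2⟩
  · intro G hG
    have hG' := mem_cls.mp hG
    rw [hF G hG', avg_eq hT h01 h02 h12 G0 F F' hF hG', avg_eq hT h01.symm h12 h02 G0 F F' hF hG',
      avg_eq hT h02.symm h12.symm h01 G0 F F' hF hG']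

end Crest.Agent.SwGap
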