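import Crest.Agent.SwGap.TV
import Crest.Agent.SwGap.Sw
import Crest.Agent.SwGap.ThreeRowGraph
import Crest.Agent.SwGap.Conn

/-! Assembly: `|HF|² ≥ 2⟨F,HF⟩`, spectral gap, Poincare inequality. -/

set_option autoImplicit false
open Finset Crest.SwitchChain

namespace Crest.Agent.SwGap

variable {n : ℕ}

/-! ### hypotheses (proved in other files) -/

def ConflictHyp (n : ℕ) : Prop := ∀ a b c d : Fin n, a ≠ b → a ≠ c → a ≠ d → b ≠ c → b ≠ d → c ≠ d →
  ∀ F : Finset (Edge n) → ℝ,
    (1/4) * ∑ G, (F G - F (sw a b c d G))^2 - (1/2) * errT a b c d F - (1/2) * errT c d a b F ≤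
      ip (F - avg (RA a b) F) (F - avg (RA c d) F)

def JohnHyp (n : ℕ) : Prop := ∀ a b : Fin n, a ≠ b → ∀ F : Finset (Edge n) → ℝ,
  ∑ c ∈ Out a b, ∑ d ∈ (Out a b).erase c, errT a b c d F ≤
    (1/4) * ∑ c ∈ Out a b, ∑ d ∈ (Out a b).erase c, ∑ G, (F G - F (sw a b c d G))^2

def JohnGapHyp (n : ℕ) : Prop := ∀ a b : Fin n, a ≠ b → ∀ F : Finset (Edge n) → ℝ,
  ip (F - avg (RA a b) F) (F - avg (RA a b) F) ≤
    (1/8) * ∑ c ∈ Out a b, ∑ d ∈ (Out a b).erase c, ∑ G, (F G - F (sw a b c d G))^2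

/-! ### symmetry of the pair relation -/

lemma inI_swap {a b : Fin n} {O : Finset (Fin n)} {p q : Fin n} : InI a b O p q ↔ InI b a O p q := by
  unfold InI; tauto

lemma relO_swap {a b : Fin n} {O : Finset (Fin n)} {G G' : Finset (Edge n)} (h : RelO a b O G G') :
    RelO b a O G G' := by
  refine ⟨fun p q hpq => h.off p q (fun h' => hpq (inI_swap.mp h')), fun x hx => ?_, ?_⟩
  · have := h.col x hx; omega
  · have h1 := sum_congr rfl (fun x (hx : x ∈ O) => h.col x hx)
    rw [sum_add_distrib, sum_add_distrib] at h1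
    have h2 := h.cnt
    omega

lemma Out_swap (a b : Fin n) : Out a b = Out b a := by
  ext x; simp [and_comm]

lemma avg_RA_swap (a b : Fin n) (F : Finset (Edge n) → ℝ) : avg (RA a b) F = avg (RA b a) F := by
  have : ∀ G, cls (RA a b) G = cls (RA b a) G := by
    intro G; ext G'
    simp only [mem_cls]
    constructor
    · intro h; have := relO_swap h; rwa [Out_swap] at this
    · intro h; have := relO_swap h; rwa [Out_swap] at this
  funext G; unfold avg; rw [this]

/-- `u_ab` -/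
noncomputable def uu (F : Finset (Edge n) → ℝ) (a b : Fin n) : Finset (Edge n) → ℝ :=
  F - avg (RA a b) F

lemma uu_swap (F : Finset (Edge n) → ℝ) (a b : Fin n) : uu F a b = uu F b a := by
  unfold uu; rw [avg_RA_swap]

lemma ip_uu (F : Finset (Edge n) → ℝ) (a b : Fin n) : ip F (uu F a b) = ip (uu F a b) (uu F a b) := by
  have hr := relO_equiv a b (Out a b)
  have h1 : ip (avg (RA a b) F) (uu F a b) = 0 := by
    rw [avg_ip hr]
    have : avg (RA a b) (uu F a b) = 0 := by
      unfold uu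
      have h2 : avg (RA a b) (F - avg (RA a b) F) = avg (RA a b) F - avg (RA a b) (avg (RA a b) F) := by
        have := (avgL (RA a b)).map_sub F (avg (RA a b) F)
        exact this
      rw [h2, avg_avg_of_le hr hr (fun _ _ h => h), sub_self]
    rw [this]; simp [ip]
  have h2 : ip (uu F a b) (uu F a b) = ip F (uu F a b) - ip (avg (RA a b) F) (uu F a b) := by
    rw [← ip_sub_left]; rfl
  rw [h2, h1, sub_zero]

/-! ### sums over distinct tuples -/

def D3 (a b c : Fin n) : Prop := a ≠ b ∧ a ≠ c ∧ b ≠ c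
def D4 (a b c d : Fin n) : Prop := a ≠ b ∧ a ≠ c ∧ a ≠ d ∧ b ≠ c ∧ b ≠ d ∧ c ≠ d

instance (a b c : Fin n) : Decidable (D3 a b c) := by unfold D3; infer_instance
instance (a b c d : Fin n) : Decidable (D4 a b c d) := by unfold D4; infer_instance

def T3 (φ : Fin n → Fin n → Fin n → ℝ) : ℝ :=
  ∑ a, ∑ b, ∑ c, if D3 a b c then φ a b c else 0

def T4 (φ : Fin n → Fin n → Fin n → Fin n → ℝ) : ℝ :=
  ∑ a, ∑ b, ∑ c, ∑ d, if D4 a b c d then φ a b c d else 0

lemma T3_swap12 (φ : Fin n → Fin n → Fin n → ℝ) : T3 φ = T3 (fun a b c => φ b a c) := by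
  unfold T3
  rw [sum_comm]
  refine sum_congr rfl fun a _ => sum_congr rfl fun b _ => sum_congr rfl fun c _ => ?_
  have : D3 b a c ↔ D3 a b c := by unfold D3; tauto
  simp only [this]

lemma T3_swap23 (φ : Fin n → Fin n → Fin n → ℝ) : T3 φ = T3 (fun a b c => φ a c b) := by
  unfold T3
  refine sum_congr rfl fun a _ => ?_
  rw [sum_comm]
  refine sum_congr rfl fun b _ => sum_congr rfl fun c _ => ?_
  have : D3 a c b ↔ D3 a b c := by unfold D3; tauto
  simp only [this]

lemma T4_swap (φ : Fin n → Fin n → Fin n → Fin n → ℝ) : T4 φ = T4 (fun a b c d => φ c d a b) := by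
  unfold T4
  have h1 : ∀ g : Fin n → Fin n → Fin n → Fin n → ℝ, ∑ a, ∑ b, ∑ c, ∑ d, g a b c d =
      ∑ x : Fin n × Fin n, ∑ y : Fin n × Fin n, g x.1 x.2 y.1 y.2 := by
    intro g; simp only [Fintype.sum_prod_type]
  rw [h1, h1, sum_comm]
  refine sum_congr rfl fun x _ => sum_congr rfl fun y _ => ?_
  have : D4 y.1 y.2 x.1 x.2 ↔ D4 x.1 x.2 y.1 y.2 := by unfold D4; tauto
  simp only [this]

lemma sum_univ_Out {a b : Fin n} (hab : a ≠ b) {M : Type*} [AddCommMonoid M] (f : Fin n → M) :
    ∑ c, f c = f a + (f b + ∑ c ∈ Out a b, f c) := by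
  have : (univ : Finset (Fin n)) = insert a (insert b (Out a b)) := by
    ext x; simp only [mem_univ, mem_insert, mem_Out, true_iff]; tauto
  rw [this, sum_insert, sum_insert]
  · simp
  · simp [hab]

lemma sum_Out_ite (a b : Fin n) (f : Fin n → ℝ) :
    ∑ c ∈ Out a b, f c = ∑ c, if c ≠ a ∧ c ≠ b then f c else 0 := by
  rw [← sum_filter]
  refine sum_congr ?_ fun _ _ => rfl
  ext x; simp

lemma sum_split {a b : Fin n} (hab : a ≠ b) (φ : Fin n → Fin n → ℝ) :
    ∑ c, ∑ d, (if c ≠ d then φ c d else 0) =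
      φ a b + φ b a + (∑ c ∈ Out a b, (φ a c + φ c a + φ b c + φ c b))
        + ∑ c ∈ Out a b, ∑ d ∈ (Out a b).erase c, φ c d := by
  rw [sum_univ_Out hab, sum_univ_Out hab, sum_univ_Out hab]
  have h1 : ∑ c ∈ Out a b, (if a ≠ c then φ a c else 0) = ∑ c ∈ Out a b, φ a c := by
    refine sum_congr rfl fun c hc => ?_
    rw [mem_Out] at hc
    rw [if_pos (fun h => hc.1 h.symm)]
  have h2 : ∑ c ∈ Out a b, (if b ≠ c then φ b c else 0) = ∑ c ∈ Out a b, φ b c := by
    refine sum_congr rfl fun c hc => ?_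
    rw [mem_Out] at hc
    rw [if_pos (fun h => hc.2 h.symm)]
  have h3 : ∑ c ∈ Out a b, ∑ d, (if c ≠ d then φ c d else 0) =
      ∑ c ∈ Out a b, (φ c a + φ c b + ∑ d ∈ (Out a b).erase c, φ c d) := by
    refine sum_congr rfl fun c hc => ?_
    rw [mem_Out] at hc
    rw [sum_univ_Out hab, if_pos hc.1, if_pos hc.2, add_assoc]
    congr 2
    rw [← sum_filter]
    refine sum_congr ?_ fun _ _ => rfl
    ext x; simp only [mem_filter, mem_erase, mem_Out]
    tauto
  rw [h1, h2, h3]
  simp only [sum_add_distrib, ne_eq, not_true_eq_false, if_false, hab, hab.symm, not_false_eq_true,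
    if_true]
  ring

lemma T3_eq (φ : Fin n → Fin n → Fin n → ℝ) :
    T3 φ = ∑ a, ∑ b, if a ≠ b then ∑ c ∈ Out a b, φ a b c else 0 := by
  unfold T3
  refine sum_congr rfl fun a _ => sum_congr rfl fun b _ => ?_
  by_cases h : a = b
  · subst h; simp [D3]
  · rw [if_pos h, sum_Out_ite]
    refine sum_congr rfl fun c _ => ?_
    have : D3 a b c ↔ (c ≠ a ∧ c ≠ b) := by
      unfold D3; constructor
      · rintro ⟨_, h1, h2⟩; exact ⟨h1.symm, h2.symm⟩
      · rintro ⟨h1, h2⟩; exact ⟨h, h1.symm, h2.symm⟩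
    simp only [this]

lemma T4_eq (φ : Fin n → Fin n → Fin n → Fin n → ℝ) :
    T4 φ = ∑ a, ∑ b, if a ≠ b then ∑ c ∈ Out a b, ∑ d ∈ (Out a b).erase c, φ a b c d else 0 := by
  unfold T4
  refine sum_congr rfl fun a _ => sum_congr rfl fun b _ => ?_
  by_cases h : a = b
  · subst h; simp [D4]
  · rw [if_pos h, sum_Out_ite]
    refine sum_congr rfl fun c _ => ?_
    by_cases hc : c ≠ a ∧ c ≠ b
    · rw [if_pos hc, ← sum_filter]
      refine sum_congr ?_ fun _ _ => rfl
      ext d
      simp only [mem_filter, mem_univ, true_and, mem_erase, mem_Out]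
      unfold D4
      constructor
      · rintro ⟨_, _, h1, _, h2, h3⟩; exact ⟨h3.symm, h1.symm, h2.symm⟩
      · rintro ⟨h3, h1, h2⟩; exact ⟨h, hc.1.symm, h1.symm, hc.2.symm, h2.symm, h3.symm⟩
    · rw [if_neg hc]
      refine sum_eq_zero fun d _ => ?_
      rw [if_neg]
      unfold D4
      rintro ⟨_, h1, _, h2, _, _⟩
      exact hc ⟨h1.symm, h2.symm⟩

lemma T3_add (φ ψ : Fin n → Fin n → Fin n → ℝ) :
    T3 (fun a b c => φ a b c + ψ a b c) = T3 φ + T3 ψ := by
  unfold T3
  simp only [← sum_add_distrib]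
  refine sum_congr rfl fun a _ => sum_congr rfl fun b _ => sum_congr rfl fun c _ => ?_
  split_ifs <;> simp

lemma T4_mono {φ ψ : Fin n → Fin n → Fin n → Fin n → ℝ}
    (h : ∀ a b c d, D4 a b c d → φ a b c d ≤ ψ a b c d) : T4 φ ≤ T4 ψ := by
  unfold T4
  refine sum_le_sum fun a _ => sum_le_sum fun b _ => sum_le_sum fun c _ => sum_le_sum fun d _ => ?_
  split_ifs with h1
  · exact h a b c d h1
  · exact le_rfl

lemma T3_nonneg {φ : Fin n → Fin n → Fin n → ℝ}
    (h : ∀ a b c, D3 a b c → 0 ≤ φ a b c) : 0 ≤ T3 φ := by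
  unfold T3
  refine sum_nonneg fun a _ => sum_nonneg fun b _ => sum_nonneg fun c _ => ?_
  split_ifs with h1
  · exact h a b c h1
  · exact le_rfl

lemma T4_lin (x y z : ℝ) (φ ψ χ : Fin n → Fin n → Fin n → Fin n → ℝ) :
    T4 (fun a b c d => x * φ a b c d - y * ψ a b c d - z * χ a b c d) =
      x * T4 φ - y * T4 ψ - z * T4 χ := by
  unfold T4
  simp only [mul_sum, ← sum_sub_distrib]
  refine sum_congr rfl fun a _ => sum_congr rfl fun b _ => sum_congr rfl fun c _ =>
    sum_congr rfl fun d _ => ?_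
  split_ifs <;> simp

/-! ### the operator `H` -/

lemma ip_sum_left {Ω ι : Type*} [Fintype Ω] (s : Finset ι) (f : ι → Ω → ℝ) (g : Ω → ℝ) :
    ip (∑ i ∈ s, f i) g = ∑ i ∈ s, ip (f i) g := by
  unfold ip
  simp only [Finset.sum_apply, sum_mul]
  rw [sum_comm]

lemma ip_sum_right {Ω ι : Type*} [Fintype Ω] (s : Finset ι) (f : ι → Ω → ℝ) (g : Ω → ℝ) :
    ip g (∑ i ∈ s, f i) = ∑ i ∈ s, ip g (f i) := by
  rw [ip_comm, ip_sum_left]
  exact sum_congr rfl fun i _ => ip_comm _ _

/-- `H F = ∑_{a ≠ b} u_ab` -/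
noncomputable def HH (F : Finset (Edge n) → ℝ) : Finset (Edge n) → ℝ :=
  ∑ a, ∑ b, if a ≠ b then uu F a b else 0

lemma ip_ite_left {Ω : Type*} [Fintype Ω] (p : Prop) [Decidable p] (f g : Ω → ℝ) :
    ip (if p then f else 0) g = if p then ip f g else 0 := by
  split_ifs
  · rfl
  · simp [ip]

lemma ip_ite_right {Ω : Type*} [Fintype Ω] (p : Prop) [Decidable p] (f g : Ω → ℝ) :
    ip g (if p then f else 0) = if p then ip g f else 0 := by
  split_ifs
  · rfl
  · simp [ip]

lemma ip_HH (F : Finset (Edge n) → ℝ) :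
    ip F (HH F) = ∑ a, ∑ b, if a ≠ b then ip (uu F a b) (uu F a b) else 0 := by
  unfold HH
  rw [ip_sum_right]
  refine sum_congr rfl fun a _ => ?_
  rw [ip_sum_right]
  refine sum_congr rfl fun b _ => ?_
  rw [ip_ite_right, ip_uu]

lemma HH_HH (F : Finset (Edge n) → ℝ) :
    ip (HH F) (HH F) = 2 * ip F (HH F) + 4 * T3 (fun a b c => ip (uu F a b) (uu F a c)) +
      T4 (fun a b c d => ip (uu F a b) (uu F c d)) := by
  have h1 : ip (HH F) (HH F) = ∑ a, ∑ b, if a ≠ b then
      (∑ c, ∑ d, if c ≠ d then ip (uu F a b) (uu F c d) else 0) else 0 := by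
    nth_rewrite 1 [HH]
    rw [ip_sum_left]
    refine sum_congr rfl fun a _ => ?_
    rw [ip_sum_left]
    refine sum_congr rfl fun b _ => ?_
    rw [ip_ite_left]
    refine if_congr Iff.rfl ?_ rfl
    unfold HH
    rw [ip_sum_right]
    refine sum_congr rfl fun c _ => ?_
    rw [ip_sum_right]
    refine sum_congr rfl fun d _ => ?_
    rw [ip_ite_right]
  have h2 : ∀ a b : Fin n, (if a ≠ b then
      (∑ c, ∑ d, if c ≠ d then ip (uu F a b) (uu F c d) else 0) else 0) =
      2 * (if a ≠ b then ip (uu F a b) (uu F a b) else 0) +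
      2 * (if a ≠ b then ∑ c ∈ Out a b, ip (uu F a b) (uu F a c) else 0) +
      2 * (if a ≠ b then ∑ c ∈ Out a b, ip (uu F a b) (uu F b c) else 0) +
      (if a ≠ b then ∑ c ∈ Out a b, ∑ d ∈ (Out a b).erase c, ip (uu F a b) (uu F c d) else 0) := by
    intro a b
    by_cases hab : a ≠ b
    · simp only [if_pos hab]
      rw [sum_split hab]
      rw [uu_swap F b a]
      have : ∑ c ∈ Out a b, (ip (uu F a b) (uu F a c) + ip (uu F a b) (uu F c a) +
          ip (uu F a b) (uu F b c) + ip (uu F a b) (uu F c b)) =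
          2 * ∑ c ∈ Out a b, ip (uu F a b) (uu F a c) + 2 * ∑ c ∈ Out a b, ip (uu F a b) (uu F b c) := by
        rw [mul_sum, mul_sum, ← sum_add_distrib]
        refine sum_congr rfl fun c _ => ?_
        rw [uu_swap F c a, uu_swap F c b]; ring
      rw [this]; ring
    · simp only [if_neg hab]; ring
  rw [h1]
  simp only [h2, sum_add_distrib, ← mul_sum]
  rw [← ip_HH, ← T3_eq (fun a b c => ip (uu F a b) (uu F a c)),
    ← T3_eq (fun a b c => ip (uu F a b) (uu F b c)), ← T4_eq]
  have h3 : T3 (fun a b c => ip (uu F a b) (uu F b c)) = T3 (fun a b c => ip (uu F a b) (uu F a c)) := by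
    rw [T3_swap12]
    congr 1
    funext a b c
    rw [uu_swap F b a]
  rw [h3]; ring

lemma T3_part (F : Finset (Edge n) → ℝ) : 0 ≤ T3 (fun a b c => ip (uu F a b) (uu F a c)) := by
  have h0 : 0 ≤ T3 (fun a b c => ip (uu F a b) (uu F a c) + ip (uu F a b) (uu F b c) +
      ip (uu F a c) (uu F b c)) :=
    T3_nonneg fun a b c h => three_row_graph h.1 h.2.1 h.2.2 F
  rw [T3_add (fun a b c => ip (uu F a b) (uu F a c) + ip (uu F a b) (uu F b c)), T3_add] at h0
  have h1 : T3 (fun a b c => ip (uu F a b) (uu F b c)) = T3 (fun a b c => ip (uu F a b) (uu F a c)) := by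
    rw [T3_swap12]
    congr 1
    funext a b c
    rw [uu_swap F b a]
  have h2 : T3 (fun a b c => ip (uu F a c) (uu F b c)) = T3 (fun a b c => ip (uu F a b) (uu F a c)) := by
    rw [T3_swap12 (fun a b c => ip (uu F a b) (uu F a c)), T3_swap23 (fun a b c => ip (uu F b a) (uu F b c)),
      T3_swap12 (fun a b c => ip (uu F c a) (uu F c b))]
    congr 1
    funext a b c
    rw [uu_swap F c b, uu_swap F c a, ip_comm]
  rw [h1, h2] at h0
  linarith

lemma T4_part (hC : ConflictHyp n) (hJ : JohnHyp n) (F : Finset (Edge n) → ℝ) :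
    0 ≤ T4 (fun a b c d => ip (uu F a b) (uu F c d)) := by
  have h1 : T4 (fun a b c d => (1/4) * (∑ G, (F G - F (sw a b c d G))^2) - (1/2) * errT a b c d F -
      (1/2) * errT c d a b F) ≤ T4 (fun a b c d => ip (uu F a b) (uu F c d)) :=
    T4_mono fun a b c d h => hC a b c d h.1 h.2.1 h.2.2.1 h.2.2.2.1 h.2.2.2.2.1 h.2.2.2.2.2 F
  rw [T4_lin] at h1
  have h2 : T4 (fun a b c d => errT c d a b F) = T4 (fun a b c d => errT a b c d F) := by
    rw [T4_swap]
  have h3 : T4 (fun a b c d => errT a b c d F) ≤ (1/4) * T4 (fun a b c d =>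
      ∑ G, (F G - F (sw a b c d G))^2) := by
    rw [T4_eq, T4_eq, mul_sum]
    refine sum_le_sum fun a _ => ?_
    rw [mul_sum]
    refine sum_le_sum fun b _ => ?_
    by_cases hab : a ≠ b
    · rw [if_pos hab, if_pos hab]; exact hJ a b hab F
    · rw [if_neg hab, if_neg hab]; simp
  rw [h2] at h1
  linarith

theorem HH_sq (hC : ConflictHyp n) (hJ : JohnHyp n) (F : Finset (Edge n) → ℝ) :
    2 * ip F (HH F) ≤ ip (HH F) (HH F) := by
  rw [HH_HH]
  have h1 := T3_part F
  have h2 := T4_part hC hJ F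
  linarith

/-! ### spectral step -/

section Spectral

variable {Ω : Type*} [Fintype Ω]

lemma range_of_perp (T : Module.End ℝ (Ω → ℝ)) (hsa : ∀ f g, ip (T f) g = ip f (T g))
    (F : Ω → ℝ) (hF : ∀ k, T k = 0 → ip F k = 0) : ∃ G, T G = F := by
  set e : EuclideanSpace ℝ Ω ≃ₗ[ℝ] (Ω → ℝ) := WithLp.linearEquiv 2 ℝ (Ω → ℝ) with he
  have hin : ∀ x y : EuclideanSpace ℝ Ω, inner ℝ x y = ip (e x) (e y) := by
    intro x y
    rw [EuclideanSpace.inner_eq_star_dotProduct]
    simp [ip, dotProduct, he, mul_comm]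
  set T' : EuclideanSpace ℝ Ω →ₗ[ℝ] EuclideanSpace ℝ Ω :=
    e.symm.toLinearMap ∘ₗ T ∘ₗ e.toLinearMap with hT'
  have hT'e : ∀ x, e (T' x) = T (e x) := by intro x; simp [hT']
  have hsym : T'.IsSymmetric := by
    intro x y
    rw [hin, hin, hT'e, hT'e, hsa]
  have hadj : T'.adjoint = T' := by
    have := (LinearMap.isSymmetric_iff_isSelfAdjoint T').mp hsym
    exact this
  have h1 : e.symm F ∈ (LinearMap.ker T')ᗮ := by
    rw [Submodule.mem_orthogonal]
    intro u hu
    rw [LinearMap.mem_ker] at hu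
    have h2 : T (e u) = 0 := by rw [← hT'e, hu, map_zero]
    rw [hin, ip_comm, LinearEquiv.apply_symm_apply]
    exact hF _ h2
  rw [LinearMap.orthogonal_ker, hadj] at h1
  obtain ⟨G, hG⟩ := LinearMap.mem_range.mp h1
  refine ⟨e G, ?_⟩
  rw [← hT'e, hG, LinearEquiv.apply_symm_apply]

lemma gap_of_sq (T : Module.End ℝ (Ω → ℝ)) (hsa : ∀ f g, ip (T f) g = ip f (T g))
    (hpos : ∀ f, 0 ≤ ip f (T f)) (hsq : ∀ f, 2 * ip f (T f) ≤ ip (T f) (T f))
    (F : Ω → ℝ) (hF : ∀ k, T k = 0 → ip F k = 0) : 2 * ip F F ≤ ip F (T F) := by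
  obtain ⟨G, hG⟩ := range_of_perp T hsa F hF
  have h1 := hpos (F - (2 : ℝ) • G)
  have h2 := hsq G
  rw [hG] at h2
  have h3 : ip (F - (2 : ℝ) • G) (T (F - (2 : ℝ) • G)) = ip F (T F) - 4 * ip F F + 4 * ip G F := by
    rw [map_sub, map_smul, hG, ip_sub_left, ip_sub_right, ip_sub_right]
    have e1 : ip F ((2 : ℝ) • F) = 2 * ip F F := by
      simp only [ip, Pi.smul_apply, smul_eq_mul, mul_sum]
      exact sum_congr rfl fun x _ => by ring
    have e2 : ip ((2 : ℝ) • G) (T F) = 2 * ip F F := by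
      have : ip ((2 : ℝ) • G) (T F) = 2 * ip G (T F) := by
        simp only [ip, Pi.smul_apply, smul_eq_mul, mul_sum]
        exact sum_congr rfl fun x _ => by ring
      rw [this, ← hsa, hG]
    have e3 : ip ((2 : ℝ) • G) ((2 : ℝ) • F) = 4 * ip G F := by
      simp only [ip, Pi.smul_apply, smul_eq_mul, mul_sum]
      exact sum_congr rfl fun x _ => by ring
    rw [e1, e2, e3]; ring
  rw [h3] at h1
  linarith

end Spectral

/-- `H` as a linear map -/
noncomputable def HL (n : ℕ) : Module.End ℝ (Finset (Edge n) → ℝ) :=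
  ∑ a : Fin n, ∑ b : Fin n, if a ≠ b then 1 - avgL (RA a b) else 0

lemma HL_apply (F : Finset (Edge n) → ℝ) : HL n F = HH F := by
  unfold HL HH
  rw [LinearMap.sum_apply]
  refine sum_congr rfl fun a _ => ?_
  rw [LinearMap.sum_apply]
  refine sum_congr rfl fun b _ => ?_
  split_ifs
  · rfl
  · rfl

lemma uu_sa (a b : Fin n) (F K : Finset (Edge n) → ℝ) : ip (uu F a b) K = ip F (uu K a b) := by
  unfold uu
  rw [ip_sub_left, ip_sub_right, avg_ip (relO_equiv a b _)]

lemma HL_sa (F K : Finset (Edge n) → ℝ) : ip (HL n F) K = ip F (HL n K) := by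
  rw [HL_apply, HL_apply]
  unfold HH
  rw [ip_sum_left, ip_sum_right]
  refine sum_congr rfl fun a _ => ?_
  rw [ip_sum_left, ip_sum_right]
  refine sum_congr rfl fun b _ => ?_
  rw [ip_ite_left, ip_ite_right, uu_sa]

lemma HL_pos (F : Finset (Edge n) → ℝ) : 0 ≤ ip F (HL n F) := by
  rw [HL_apply, ip_HH]
  refine sum_nonneg fun a _ => sum_nonneg fun b _ => ?_
  split_ifs
  · exact ip_self_nonneg _
  · exact le_rfl

lemma uu_eq_zero_of_ker {F : Finset (Edge n) → ℝ} (h : HL n F = 0) {a b : Fin n} (hab : a ≠ b) :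
    uu F a b = 0 := by
  have h1 : ip F (HL n F) = 0 := by rw [h]; simp [ip]
  rw [HL_apply, ip_HH] at h1
  have hnn : ∀ a b : Fin n, 0 ≤ (if a ≠ b then ip (uu F a b) (uu F a b) else 0) := by
    intro a b
    split_ifs
    · exact ip_self_nonneg _
    · exact le_rfl
  rw [sum_eq_zero_iff_of_nonneg (fun a _ => sum_nonneg fun b _ => hnn a b)] at h1
  have h2 := h1 a (mem_univ _)
  rw [sum_eq_zero_iff_of_nonneg (fun b _ => hnn a b)] at h2
  have h3 := h2 b (mem_univ _)
  rw [if_pos hab] at h3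
  unfold ip at h3
  rw [sum_eq_zero_iff_of_nonneg (fun x _ => mul_self_nonneg _)] at h3
  funext x
  exact mul_self_eq_zero.mp (h3 x (mem_univ _))

/-! ### switches -/

lemma isD_of_can {G : Finset (Edge n)} {a b c d : Fin n} (h : CanSwitch G a b c d) :
    isD a b c d G := by
  have h1 := adj_iff_v.mp h.hac
  have h2 := adj_iff_v.mp h.hbe
  have h3 : v G a d = 0 := by
    have := mt adj_iff_v.mpr h.hae; have := v_le G a d; omega
  have h4 : v G b c = 0 := by
    have := mt adj_iff_v.mpr h.hbc; have := v_le G b c; omega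
  unfold isD; omega

lemma can_or_of_isD {G : Finset (Edge n)} {a b c d : Fin n} (h4 : D4 a b c d) (h : isD a b c d G) :
    CanSwitch G a b c d ∨ CanSwitch G a b d c := by
  obtain ⟨hab, hac, had, hbc, hbd, hcd⟩ := h4
  unfold isD at h
  have l1 := v_le G a c
  by_cases hv : v G a c = 1
  · left
    refine ⟨hab, hac, had, hbc, hbd, hcd, adj_iff_v.mpr hv, adj_iff_v.mpr (by omega), ?_, ?_⟩
    · rw [adj_iff_v]; omega
    · rw [adj_iff_v]; omega
  · right
    refine ⟨hab, had, hac, hbd, hbc, hcd.symm, adj_iff_v.mpr (by omega), adj_iff_v.mpr (by omega),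
      ?_, ?_⟩
    · rw [adj_iff_v]; omega
    · rw [adj_iff_v]; omega

lemma sw_comm (a b c d : Fin n) (_hac : a ≠ c) (_had : a ≠ d) (_hbc : b ≠ c) (_hbd : b ≠ d)
    (G : Finset (Edge n)) : sw a b c d G = sw a b d c G := by
  have h1 : isD a b c d G ↔ isD a b d c G := by
    unfold isD; omega
  have h2 : tog a b c d G = tog a b d c G := by
    have : ({c, d} : Finset (Fin n)) = {d, c} := Finset.pair_comm c d
    unfold tog; rw [this]
  unfold sw
  by_cases h : isD a b c d G
  · rw [if_pos h, if_pos (h1.mp h), h2]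
  · rw [if_neg h, if_neg (fun h' => h (h1.mpr h'))]

lemma isSwitch_sw {G : Finset (Edge n)} {a b c d : Fin n} (h : CanSwitch G a b c d) :
    IsSwitch G (sw a b c d G) a b c d := by
  have hD := isD_of_can h
  have hs : sw a b c d G = tog a b c d G := by unfold sw; rw [if_pos hD]
  obtain ⟨t1, t2, t3, t4⟩ := v_tog h.ac h.ae h.bc h.be G
  have h1 := adj_iff_v.mp h.hac
  have h2 := adj_iff_v.mp h.hbe
  have h3 : v G a d = 0 := by
    have := mt adj_iff_v.mpr h.hae; have := v_le G a d; omega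
  have h4 : v G b c = 0 := by
    have := mt adj_iff_v.mpr h.hbc; have := v_le G b c; omega
  rw [hs]
  refine ⟨?_, ?_, ?_, ?_, ?_⟩
  · rw [adj_iff_v]; omega
  · rw [adj_iff_v]; omega
  · rw [adj_iff_v]; omega
  · rw [adj_iff_v]; omega
  · intro x y n1 n2 n3 n4
    rw [← v_eq_iff]
    refine (v_tog_off ?_).symm
    unfold InI
    simp only [mem_insert, mem_singleton]
    rintro (⟨rfl | rfl, rfl | rfl⟩ | ⟨rfl | rfl, rfl | rfl⟩)
    · exact n1 rfl
    · exact n3 rfl
    · exact n4 rfl
    · exact n2 rfl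
    · exact n1 Sym2.eq_swap
    · exact n3 Sym2.eq_swap
    · exact n4 Sym2.eq_swap
    · exact n2 Sym2.eq_swap

lemma isSwitch_eq {G G' : Finset (Edge n)} {a b c d : Fin n} (h : CanSwitch G a b c d)
    (h' : IsSwitch G G' a b c d) : G' = sw a b c d G := by
  rw [← switchResult_eq h h', switchResult_eq h (isSwitch_sw h)]

lemma sw_mem {d' : Fin n → ℕ} {G : Finset (Edge n)} {a b c d : Fin n} (h : CanSwitch G a b c d) :
    sw a b c d G ∈ realizations d' ↔ G ∈ realizations d' := by
  have h1 : ({a, b, c, d} : Finset (Fin n)) = {a, c, b, d} := by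
    ext; simp only [mem_insert, mem_singleton]; tauto
  have h2 : ({a, b, c, d} : Finset (Fin n)) = {a, d, b, c} := by
    ext; simp only [mem_insert, mem_singleton]; tauto
  have m1 : edp a c b d ∈ pmSet ({a, b, c, d} : Finset (Fin n)) := by
    rw [edp_eq h.ac h.be, h1]
    exact pm_mem h.ac h.ab h.ae h.bc.symm h.ce h.be
  have m2 : edp a d b c ∈ pmSet ({a, b, c, d} : Finset (Fin n)) := by
    rw [edp_eq h.ae h.bc, h2]
    exact pm_mem h.ae h.ab h.ac h.be.symm h.ce.symm h.bc
  rw [mem_realizations, mem_realizations, ← switchResult_eq h (isSwitch_sw h)]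
  refine forall_congr' fun x => ?_
  rw [deg_switch m1 m2]

/-- functions in the kernel of `H` are constant on realization sets -/
lemma ker_const {F : Finset (Edge n) → ℝ} (h : HL n F = 0) (d : Fin n → ℕ) :
    ∀ G ∈ realizations d, ∀ G' ∈ realizations d, F G = F G' := by
  refine switch_connected d F ?_
  intro G G' _ _ a b c e hab hac hae hbc hbe hce h1 h2 h3 h4 h5 h6 h7 h8 h9
  have hcan : CanSwitch G a b c e := ⟨hab, hac, hae, hbc, hbe, hce, h1, h2, h3, h4⟩
  have hG' := isSwitch_eq hcan ⟨h5, h6, h7, h8, h9⟩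
  have hr : RA a b G G' := by rw [hG']; exact ra_sw hac hae hbc hbe hce G
  have hu := uu_eq_zero_of_ker h hab
  have e1 : F = avg (RA a b) F := by
    have : F - avg (RA a b) F = 0 := hu
    exact sub_eq_zero.mp this
  rw [e1]
  exact avg_congr (relO_equiv a b _) F hr

open scoped Classical in
lemma sum_sw_le (d' : Fin n → ℕ) (F : Finset (Edge n) → ℝ)
    (hF : ∀ G, G ∉ realizations d' → F G = 0) :
    T4 (fun a b c d => ∑ G, (F G - F (sw a b c d G)) ^ 2) ≤
      2 * ∑ G ∈ realizations d', ∑ a, ∑ b, ∑ c, ∑ e,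
        (if CanSwitch G a b c e then (F G - F (sw a b c e G)) ^ 2 else 0) := by
  have h1 : ∀ a b c d, D4 a b c d → ∀ G, (F G - F (sw a b c d G)) ^ 2 ≤
      (if G ∈ realizations d' then
        (if CanSwitch G a b c d then (F G - F (sw a b c d G)) ^ 2 else 0) +
        (if CanSwitch G a b d c then (F G - F (sw a b d c G)) ^ 2 else 0) else 0) := by
    intro a b c d h4 G
    have hnn : ∀ G' : Finset (Edge n), 0 ≤ (F G - F G') ^ 2 := fun _ => sq_nonneg _
    by_cases hD : isD a b c d G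
    · have hcan := can_or_of_isD h4 hD
      by_cases hG : G ∈ realizations d'
      · rw [if_pos hG]
        rcases hcan with hc | hc
        · rw [if_pos hc]
          have : 0 ≤ (if CanSwitch G a b d c then (F G - F (sw a b d c G)) ^ 2 else 0) := by
            split_ifs
            · exact hnn _
            · exact le_rfl
          linarith
        · rw [if_pos hc, sw_comm a b c d h4.2.1 h4.2.2.1 h4.2.2.2.1 h4.2.2.2.2.1]
          have : 0 ≤ (if CanSwitch G a b c d then (F G - F (sw a b d c G)) ^ 2 else 0) := by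
            split_ifs
            · exact hnn _
            · exact le_rfl
          linarith
      · rw [if_neg hG, hF G hG]
        have : sw a b c d G ∉ realizations d' := by
          rcases hcan with hc | hc
          · rwa [sw_mem hc]
          · rw [sw_comm a b c d h4.2.1 h4.2.2.1 h4.2.2.2.1 h4.2.2.2.2.1]
            rwa [sw_mem hc]
        rw [hF _ this]; simp
    · have : sw a b c d G = G := by unfold sw; rw [if_neg hD]
      rw [this, sub_self]
      have h0 : (0 : ℝ) ^ 2 = 0 := by norm_num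
      rw [h0]
      have p1 : 0 ≤ (if CanSwitch G a b c d then (F G - F G) ^ 2 else 0) := by
        split_ifs
        · exact sq_nonneg _
        · exact le_rfl
      have p2 : 0 ≤ (if CanSwitch G a b d c then (F G - F (sw a b d c G)) ^ 2 else 0) := by
        split_ifs
        · exact hnn _
        · exact le_rfl
      by_cases hG : G ∈ realizations d'
      · rw [if_pos hG]
        simp only [sub_self] at p1 ⊢
        first | exact add_nonneg p1 p2 | (norm_num at p1 ⊢; try exact p2)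
      · rw [if_neg hG]
  have h2 : T4 (fun a b c d => ∑ G, (F G - F (sw a b c d G)) ^ 2) ≤
      ∑ a, ∑ b, ∑ c, ∑ d, ∑ G ∈ realizations d',
        ((if CanSwitch G a b c d then (F G - F (sw a b c d G)) ^ 2 else 0) +
        (if CanSwitch G a b d c then (F G - F (sw a b d c G)) ^ 2 else 0)) := by
    unfold T4
    refine sum_le_sum fun a _ => sum_le_sum fun b _ => sum_le_sum fun c _ =>
      sum_le_sum fun d _ => ?_
    split_ifs with h4
    · calc ∑ G, (F G - F (sw a b c d G)) ^ 2 ≤ ∑ G, (if G ∈ realizations d' then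
          (if CanSwitch G a b c d then (F G - F (sw a b c d G)) ^ 2 else 0) +
          (if CanSwitch G a b d c then (F G - F (sw a b d c G)) ^ 2 else 0) else 0) :=
            sum_le_sum fun G _ => h1 a b c d h4 G
        _ = _ := by
          rw [← sum_filter]
          refine sum_congr ?_ fun _ _ => rfl
          ext; simp
    · refine sum_nonneg fun G _ => add_nonneg ?_ ?_
      · split_ifs
        · exact sq_nonneg _
        · exact le_rfl
      · split_ifs
        · exact sq_nonneg _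
        · exact le_rfl
  refine h2.trans (le_of_eq ?_)
  have h3 : ∀ g : Finset (Edge n) → Fin n → Fin n → Fin n → Fin n → ℝ,
      ∑ a, ∑ b, ∑ c, ∑ d, ∑ G ∈ realizations d', g G a b c d =
        ∑ G ∈ realizations d', ∑ a, ∑ b, ∑ c, ∑ d, g G a b c d := by
    intro g
    have e1 : ∀ h : Finset (Edge n) → Fin n → ℝ, ∑ a, ∑ G ∈ realizations d', h G a =
        ∑ G ∈ realizations d', ∑ a, h G a := fun h => sum_comm
    simp only [e1]
  rw [h3, two_mul, ← sum_add_distrib]
  refine sum_congr rfl fun G _ => ?_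
  simp only [sum_add_distrib]
  congr 1
  refine sum_congr rfl fun a _ => sum_congr rfl fun b _ => ?_
  rw [sum_comm]

theorem poincare_of (hC : ConflictHyp n) (hJ : JohnHyp n) (hJG : JohnGapHyp n) (hn : 4 ≤ n)
    (d : Fin n → ℕ) (hd : (realizations d).Nonempty) (f : Finset (Edge n) → ℝ) :
    ((realizations d).card : ℝ) * (∑ G ∈ realizations d, f G ^ 2) -
            (∑ G ∈ realizations d, f G) ^ 2 ≤
          24 * (n : ℝ) ^ 2 * (n.choose 4 : ℝ) * (realizations d).card *
            ∑ G ∈ realizations d, f G * (f G - ∑ G' ∈ realizations d, kernel n G G' * f G') := by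
  classical
  have hcard : (0 : ℝ) < (realizations d).card := by exact_mod_cast card_pos.mpr hd
  set N : ℝ := ((realizations d).card : ℝ) with hN
  set m : ℝ := (∑ G ∈ realizations d, f G) / N with hm
  set F : Finset (Edge n) → ℝ := fun G => if G ∈ realizations d then f G - m else 0 with hFdef
  have hF0 : ∀ G, G ∉ realizations d → F G = 0 := fun G hG => by simp [hFdef, hG]
  have hF1 : ∀ G ∈ realizations d, F G = f G - m := fun G hG => by simp [hFdef, hG]
  have hmN : m * N = ∑ G ∈ realizations d, f G := by rw [hm]; field_simp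
  have hsumF : ∑ G ∈ realizations d, F G = 0 := by
    rw [sum_congr rfl hF1, sum_sub_distrib, sum_const, nsmul_eq_mul, ← hN, mul_comm N m, hmN,
      sub_self]
  have hperp : ∀ k, HL n k = 0 → ip F k = 0 := by
    intro k hk
    obtain ⟨G0, hG0⟩ := hd
    have h1 := ker_const hk d
    have h2 : ip F k = ∑ G ∈ realizations d, F G * k G0 := by
      unfold ip
      rw [← sum_subset (subset_univ (realizations d))]
      · exact sum_congr rfl fun G hG => by rw [h1 G hG G0 hG0]
      · intro G _ hG; rw [hF0 G hG, zero_mul]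
    rw [h2, ← sum_mul, hsumF, zero_mul]
  have hgap := gap_of_sq (HL n) HL_sa HL_pos (fun g => by
    rw [HL_apply]; exact HH_sq hC hJ g) F hperp
  have hle : ip F (HL n F) ≤ (1/8) * T4 (fun a b c d' => ∑ G, (F G - F (sw a b c d' G)) ^ 2) := by
    rw [HL_apply, ip_HH, T4_eq, mul_sum]
    refine sum_le_sum fun a _ => ?_
    rw [mul_sum]
    refine sum_le_sum fun b _ => ?_
    by_cases hab : a ≠ b
    · rw [if_pos hab, if_pos hab]; exact hJG a b hab F
    · rw [if_neg hab, if_neg hab]; simp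
  have hsw := sum_sw_le d F hF0
  have hdir := dirichlet_ge hn d f (fun G a b c e => sw a b c e G)
    (fun G a b c e h => isSwitch_sw h)
  have heq : ∑ G ∈ realizations d, ∑ a, ∑ b, ∑ c, ∑ e,
        (if CanSwitch G a b c e then (F G - F (sw a b c e G)) ^ 2 else 0) =
      ∑ G ∈ realizations d, ∑ a, ∑ b, ∑ c, ∑ e,
        (if CanSwitch G a b c e then (f G - f (sw a b c e G)) ^ 2 else 0) := by
    refine sum_congr rfl fun G hG => sum_congr rfl fun a _ => sum_congr rfl fun b _ =>
      sum_congr rfl fun c _ => sum_congr rfl fun e _ => ?_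
    by_cases hc : CanSwitch G a b c e
    · rw [if_pos hc, if_pos hc, hF1 G hG, hF1 _ ((sw_mem hc).mpr hG)]; ring
    · rw [if_neg hc, if_neg hc]
  rw [heq] at hsw
  set S := ∑ G ∈ realizations d, ∑ a, ∑ b, ∑ c, ∑ e,
        (if CanSwitch G a b c e then (f G - f (sw a b c e G)) ^ 2 else 0) with hS
  set E := ∑ G ∈ realizations d, f G * (f G - ∑ G' ∈ realizations d, kernel n G G' * f G') with hE
  have hC1 : 1 ≤ n.choose 4 := Nat.choose_pos hn
  have hC' : (1 : ℝ) ≤ (n.choose 4 : ℝ) := by exact_mod_cast hC1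
  have hC0 : (0 : ℝ) < (n.choose 4 : ℝ) := by linarith
  have hS96 : S ≤ 96 * (n.choose 4 : ℝ) * E := by
    rw [div_mul_eq_mul_div, one_mul, div_le_iff₀ (by positivity)] at hdir
    linarith
  have hS0 : 0 ≤ S := by
    rw [hS]
    refine sum_nonneg fun G _ => sum_nonneg fun a _ => sum_nonneg fun b _ =>
      sum_nonneg fun c _ => sum_nonneg fun e _ => ?_
    split_ifs
    · exact sq_nonneg _
    · exact le_rfl
  have hE0 : 0 ≤ E := by
    by_contra hneg
    push Not at hneg
    have : 96 * (n.choose 4 : ℝ) * E < 0 := mul_neg_of_pos_of_neg (by positivity) hneg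
    linarith
  have hFF : ip F F = ∑ G ∈ realizations d, f G ^ 2 - (∑ G ∈ realizations d, f G) ^ 2 / N := by
    have h1 : ip F F = ∑ G ∈ realizations d, (f G - m) * (f G - m) := by
      unfold ip
      rw [← sum_subset (subset_univ (realizations d))]
      · exact sum_congr rfl fun G hG => by rw [hF1 G hG]
      · intro G _ hG; rw [hF0 G hG, zero_mul]
    rw [h1]
    have h2 : ∀ G ∈ realizations d, (f G - m) * (f G - m) = f G ^ 2 - 2 * m * f G + m ^ 2 :=
      fun G _ => by ring
    rw [sum_congr rfl h2, sum_add_distrib, sum_sub_distrib, ← mul_sum, sum_const, nsmul_eq_mul,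
      ← hN, ← hmN]
    field_simp
    ring
  have hfin : ip F F ≤ 12 * (n.choose 4 : ℝ) * E := by linarith
  have hn' : (4 : ℝ) ≤ n := by exact_mod_cast hn
  have hn2 : (12 : ℝ) * (n.choose 4 : ℝ) * E ≤ 24 * (n : ℝ) ^ 2 * (n.choose 4 : ℝ) * E := by
    refine mul_le_mul_of_nonneg_right ?_ hE0
    refine mul_le_mul_of_nonneg_right ?_ hC0.le
    nlinarith
  calc N * (∑ G ∈ realizations d, f G ^ 2) - (∑ G ∈ realizations d, f G) ^ 2
      = N * ip F F := by rw [hFF]; field_simp
    _ ≤ N * (24 * (n : ℝ) ^ 2 * (n.choose 4 : ℝ) * E) :=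
        mul_le_mul_of_nonneg_left (hfin.trans hn2) hcard.le
    _ = _ := by ring

end Crest.Agent.SwGap
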