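import Crest.Agent.SwGap.Odd
import Crest.Agent.SwGap.Sw

/-! The conflict inequality. -/

set_option autoImplicit false
open Finset Crest.SwitchChain

namespace Crest.Agent.SwGap

variable {n : ℕ}

lemma inI_disj {a b c d p q : Fin n} (hac : a ≠ c) (had : a ≠ d) (hbc : b ≠ c) (hbd : b ≠ d)
    (h : InI a b (Out4 a b c d) p q) : ¬ InI c d (Out c d) p q := by
  intro h'
  unfold InI at h h'
  simp only [mem_Out, mem_Out4] at h h'
  rcases h with ⟨e1, e2, e3, e4, e5⟩ | ⟨e1, e2, e3, e4, e5⟩
  · rcases h' with ⟨f1 | f1, _⟩ | ⟨f1 | f1, _⟩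
    · rcases e1 with e1 | e1
      · exact hac (e1.symm.trans f1)
      · exact hbc (e1.symm.trans f1)
    · rcases e1 with e1 | e1
      · exact had (e1.symm.trans f1)
      · exact hbd (e1.symm.trans f1)
    · exact e4 f1
    · exact e5 f1
  · rcases h' with ⟨f1 | f1, _⟩ | ⟨f1 | f1, _⟩
    · exact e4 f1
    · exact e5 f1
    · rcases e1 with e1 | e1
      · exact hac (e1.symm.trans f1)
      · exact hbc (e1.symm.trans f1)
    · rcases e1 with e1 | e1
      · exact had (e1.symm.trans f1)
      · exact hbd (e1.symm.trans f1)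

lemma comm_ra'_ra {a b c d : Fin n} (hac : a ≠ c) (had : a ≠ d) (hbc : b ≠ c) (hbd : b ≠ d) :
    avgL (RA' a b c d) * avgL (RA c d) = avgL (RA c d) * avgL (RA' a b c d) := by
  apply LinearMap.ext; intro f
  exact avg_comm (relO_equiv _ _ _) (relO_equiv _ _ _)
    (rect_of_supp (relO_supp _ _ _) (relO_supp _ _ _) (fun p q h => inI_disj hac had hbc hbd h)) f

lemma comm_ra'_ra' {a b c d : Fin n} (hac : a ≠ c) (had : a ≠ d) (hbc : b ≠ c) (hbd : b ≠ d) :
    avgL (RA' a b c d) * avgL (RA' c d a b) = avgL (RA' c d a b) * avgL (RA' a b c d) := by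
  apply LinearMap.ext; intro f
  refine avg_comm (relO_equiv _ _ _) (relO_equiv _ _ _)
    (rect_of_supp (relO_supp _ _ _) (relO_supp _ _ _) (fun p q h h' => ?_)) f
  exact inI_disj hac had hbc hbd h (inI_Out4_Out h')

/-- symmetrization by the switch -/
noncomputable def swL (a b c d : Fin n) : Module.End ℝ (Finset (Edge n) → ℝ) where
  toFun := fun F G => (F G + F (sw a b c d G)) / 2
  map_add' := fun F K => by funext G; simp; ring
  map_smul' := fun r F => by funext G; simp; ring

@[simp] lemma swL_apply (a b c d : Fin n) (F : Finset (Edge n) → ℝ) (G : Finset (Edge n)) :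
    swL a b c d F G = (F G + F (sw a b c d G)) / 2 := rfl

lemma sum_sw {a b c d : Fin n} (hac : a ≠ c) (had : a ≠ d) (hbc : b ≠ c) (hbd : b ≠ d)
    (f : Finset (Edge n) → ℝ) : ∑ G, f (sw a b c d G) = ∑ G, f G := by
  exact Fintype.sum_bijective (sw a b c d)
    (Function.Involutive.bijective (sw_sw hac had hbc hbd)) _ _ (fun _ => rfl)

lemma proj_swL {a b c d : Fin n} (hac : a ≠ c) (had : a ≠ d) (hbc : b ≠ c) (hbd : b ≠ d) :
    Proj (swL a b c d) where
  sa := fun f g => by
    have h1 : ip (swL a b c d f) g = (ip f g + ∑ G, f (sw a b c d G) * g G) / 2 := by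
      unfold ip; rw [← sum_add_distrib, sum_div]
      exact sum_congr rfl (fun G _ => by rw [swL_apply]; ring)
    have h2 : ip f (swL a b c d g) = (ip f g + ∑ G, f G * g (sw a b c d G)) / 2 := by
      unfold ip; rw [← sum_add_distrib, sum_div]
      exact sum_congr rfl (fun G _ => by rw [swL_apply]; ring)
    rw [h1, h2]
    congr 2
    rw [← sum_sw hac had hbc hbd (fun G => f G * g (sw a b c d G))]
    exact sum_congr rfl (fun G _ => by rw [sw_sw hac had hbc hbd])
  idem := by
    apply LinearMap.ext; intro f; funext G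
    simp only [Module.End.mul_apply, swL_apply, sw_sw hac had hbc hbd]; ring

lemma swL_avg {a b c d : Fin n} (hac : a ≠ c) (had : a ≠ d) (hbc : b ≠ c) (hbd : b ≠ d)
    (hcd : c ≠ d) : swL a b c d * avgL (RA a b) = avgL (RA a b) := by
  apply LinearMap.ext; intro f; funext G
  simp only [Module.End.mul_apply, swL_apply, avgL_apply]
  rw [← avg_congr (relO_equiv a b _) f (ra_sw hac had hbc hbd hcd G)]; ring

lemma avg_swL {a b c d : Fin n} (hac : a ≠ c) (had : a ≠ d) (hbc : b ≠ c) (hbd : b ≠ d)
    (hcd : c ≠ d) : avgL (RA a b) * swL a b c d = avgL (RA a b) := by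
  apply LinearMap.ext; intro f
  apply ip_ext; intro k
  have := congrArg (fun T : Module.End ℝ (Finset (Edge n) → ℝ) => T k) (swL_avg hac had hbc hbd hcd)
  simp only [Module.End.mul_apply] at this ⊢
  rw [(proj_avgL (relO_equiv a b _)).sa, (proj_swL hac had hbc hbd).sa, this,
    (proj_avgL (relO_equiv a b _)).sa]

lemma ra_inv_g {a b c d : Fin n} (hac : a ≠ c) (had : a ≠ d) (hbc : b ≠ c) (hbd : b ≠ d)
    (hcd : c ≠ d) {g : Finset (Edge n) → ℝ} (hg : ∀ G G', RA' a b c d G G' → g G = g G')
    {G : Finset (Edge n)} (h1 : v G a c = v G b c) (h2 : v G a d = v G b d) :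
    avg (RA a b) g G = g G := by
  apply avg_fix (relO_equiv a b _)
  intro G' h
  have e1 := h.col c (by simp [hac.symm, hbc.symm])
  have e2 := h.col d (by simp [had.symm, hbd.symm])
  have l1 := v_le G a c; have l2 := v_le G a d; have l3 := v_le G b c; have l4 := v_le G b d
  have l5 := v_le G' a c; have l6 := v_le G' a d; have l7 := v_le G' b c; have l8 := v_le G' b d
  exact (hg G G' (ra'_of_ra hac had hbc hbd hcd h (by omega) (by omega))).symm

lemma avg_restr_odd {a b c d : Fin n} {r : Finset (Edge n) → Finset (Edge n) → Prop}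
    (hr : Equivalence r) (hodd : ∀ G G', r G G' → Odd4 a b c d G → Odd4 a b c d G')
    (g : Finset (Edge n) → ℝ) (G : Finset (Edge n)) :
    avg (restr r (Odd4 a b c d)) g G = (open scoped Classical in
      if Odd4 a b c d G then avg r g G else g G) := by
  classical
  by_cases h : Odd4 a b c d G
  · rw [if_pos h]
    unfold avg
    have : cls (restr r (Odd4 a b c d)) G = cls r G := by
      ext G'; simp only [mem_cls]
      constructor
      · rintro (rfl | ⟨_, _, h3⟩)
        · exact hr.refl _
        · exact h3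
      · intro h'; exact Or.inr ⟨h, hodd _ _ h' h, h'⟩
    rw [this]
  · rw [if_neg h]
    apply avg_fix (restr_equiv hr _)
    rintro G' (rfl | ⟨h1, _, _⟩)
    · rfl
    · exact absurd h1 h

lemma odd_part {a b c d : Fin n} (hab : a ≠ b) (hac : a ≠ c) (had : a ≠ d) (hbc : b ≠ c)
    (hbd : b ≠ d) (hcd : c ≠ d) (g : Finset (Edge n) → ℝ) :
    0 ≤ (open scoped Classical in ∑ G ∈ univ.filter (fun G => Odd4 a b c d G),
      (g G - avg (RA a b) g G) * (g G - avg (RA c d) g G)) := by
  classical
  have hA := proj_avgL (restr_equiv (relO_equiv a b (Out a b)) (Odd4 a b c d))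
  have hB := proj_avgL (restr_equiv (relO_equiv c d (Out c d)) (Odd4 a b c d))
  have hc : avgL (restr (RA a b) (Odd4 a b c d)) * avgL (restr (RA c d) (Odd4 a b c d))
      = avgL (restr (RA c d) (Odd4 a b c d)) * avgL (restr (RA a b) (Odd4 a b c d)) := by
    apply LinearMap.ext; intro f
    exact avg_comm (restr_equiv (relO_equiv _ _ _) _) (restr_equiv (relO_equiv _ _ _) _)
      (odd_rect hab hac had hbc hbd hcd) f
  have key := hA.one_sub.ip_comm_nonneg hB.one_sub (by
      rw [sub_mul, mul_sub, mul_sub, sub_mul, mul_sub, mul_sub, hc]; noncomm_ring) g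
  have oddA : ∀ G G' : Finset (Edge n), RA a b G G' → Odd4 a b c d G → Odd4 a b c d G' := by
    intro G G' h ho; unfold Odd4 at *; rw [← blk_ra hac had hbc hbd h]; exact ho
  have oddB : ∀ G G' : Finset (Edge n), RA c d G G' → Odd4 a b c d G → Odd4 a b c d G' := by
    intro G G' h ho; unfold Odd4 at *
    rw [blk_symm, ← blk_ra hac.symm hbc.symm had.symm hbd.symm h, blk_symm]; exact ho
  refine le_of_le_of_eq key ?_
  unfold ip
  rw [sum_filter]
  apply sum_congr rfl
  intro G _
  simp only [LinearMap.sub_apply, Module.End.one_apply, Pi.sub_apply, avgL_apply]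
  rw [avg_restr_odd (relO_equiv a b _) oddA, avg_restr_odd (relO_equiv c d _) oddB]
  by_cases h : Odd4 a b c d G
  · simp only [h, if_true]
  · simp only [h, if_false, sub_self, mul_zero]

lemma da_eq {a b c d : Fin n} (hac : a ≠ c) (had : a ≠ d) (hbc : b ≠ c) (hbd : b ≠ d)
    (hcd : c ≠ d) (F : Finset (Edge n) → ℝ) {G : Finset (Edge n)} (hG : isD a b c d G) :
    avg (RA' a b c d) (swL a b c d F) G = DA a b c d F G := by
  classical
  have hD' : ∀ G' ∈ cls (RA' a b c d) G, isD a b c d G' := by
    intro G' h
    obtain ⟨h1, h2, h3, h4⟩ := ra'_block (mem_cls.mp h)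
    unfold isD at *; omega
  have hK : (cls (RA a b) G).filter (fun G' => isD a b c d G') =
      cls (RA' a b c d) G ∪ (cls (RA' a b c d) G).image (tog a b c d) := by
    ext G'
    simp only [mem_filter, mem_cls, mem_union, mem_image]
    constructor
    · rintro ⟨h1, h2⟩
      by_cases hv : v G' a c = v G a c
      · left
        refine ra'_of_ra hac had hbc hbd hcd h1 hv.symm ?_
        unfold isD at h2 hG; omega
      · right
        refine ⟨tog a b c d G', ?_, tog_tog G'⟩
        have t := v_tog hac had hbc hbd G'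
        have l1 := v_le G' a c; have l2 := v_le G' a d
        have l3 := v_le G a c; have l4 := v_le G a d
        refine ra'_of_ra hac had hbc hbd hcd ((relO_equiv a b _).trans h1 (ra_tog hac had hbc hbd hcd h2)) ?_ ?_
        · unfold isD at h2 hG; omega
        · unfold isD at h2 hG; omega
    · rintro (h | ⟨G'', h, rfl⟩)
      · exact ⟨ra'_le_ra h, hD' G' (by simpa using h)⟩
      · have hd := hD' G'' (by simpa using h)
        exact ⟨(relO_equiv a b _).trans (ra'_le_ra h) (ra_tog hac had hbc hbd hcd hd),
          isD_tog hac had hbc hbd hd⟩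
  have hdisj : Disjoint (cls (RA' a b c d) G) ((cls (RA' a b c d) G).image (tog a b c d)) := by
    rw [disjoint_left]
    intro G' h h'
    obtain ⟨G'', h2, rfl⟩ := mem_image.mp h'
    have b1 := ra'_block (mem_cls.mp h)
    have b2 := ra'_block (mem_cls.mp h2)
    have t := v_tog hac had hbc hbd G''
    have l1 := v_le G'' a c
    omega
  have hinj : Set.InjOn (tog a b c d) (cls (RA' a b c d) G : Set (Finset (Edge n))) := by
    intro x _ y _ hxy
    rw [← tog_tog (a := a) (b := b) (c := c) (d := d) x, hxy, tog_tog]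
  have hpos := cls_card_pos (relO_equiv a b (Out4 a b c d)) G
  unfold DA avg
  rw [hK, sum_union hdisj, sum_image hinj, card_union_of_disjoint hdisj, card_image_of_injOn hinj]
  have hs : ∑ G' ∈ cls (RA' a b c d) G, swL a b c d F G' =
      (∑ G' ∈ cls (RA' a b c d) G, F G' + ∑ G' ∈ cls (RA' a b c d) G, F (tog a b c d G')) / 2 := by
    rw [← sum_add_distrib, sum_div]
    refine sum_congr rfl (fun G' h => ?_)
    rw [swL_apply]
    unfold sw
    rw [if_pos (hD' G' h)]
  rw [hs]
  push_cast
  field_simp
  ring

lemma jensen_D {a b c d : Fin n} (ψ : Finset (Edge n) → ℝ) :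
    (open scoped Classical in ∑ G ∈ univ.filter (fun G => isD a b c d G), (avg (RA' c d a b) ψ G) ^ 2) ≤
    (open scoped Classical in ∑ G ∈ univ.filter (fun G => isD a b c d G), (ψ G) ^ 2) := by
  classical
  have hr := relO_equiv c d (Out4 c d a b)
  have h1 : ∀ G, (avg (RA' c d a b) ψ G) ^ 2 ≤ avg (RA' c d a b) (fun G => ψ G ^ 2) G := by
    intro G
    have hp := cls_card_pos hr G
    unfold avg
    rw [div_pow, div_le_div_iff₀ (by positivity) hp]
    have := sq_sum_le_card_mul_sum_sq (s := cls (RA' c d a b) G) (f := ψ)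
    nlinarith [this, hp]
  have h2 : ∀ G G', RA' c d a b G G' → (isD a b c d G ↔ isD a b c d G') := by
    intro G G' h
    obtain ⟨g1, g2, g3, g4⟩ := ra'_block h
    rw [v_comm G c a, v_comm G' c a] at g1
    rw [v_comm G c b, v_comm G' c b] at g2
    rw [v_comm G d a, v_comm G' d a] at g3
    rw [v_comm G d b, v_comm G' d b] at g4
    unfold isD; omega
  set one : Finset (Edge n) → ℝ := fun G => if isD a b c d G then 1 else 0 with hone
  have h3 : avg (RA' c d a b) one = one := by
    funext G
    apply avg_fix hr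
    intro G' h
    simp only [hone, h2 G G' h]
  calc (∑ G ∈ univ.filter (fun G => isD a b c d G), (avg (RA' c d a b) ψ G) ^ 2)
      ≤ ∑ G ∈ univ.filter (fun G => isD a b c d G), avg (RA' c d a b) (fun G => ψ G ^ 2) G :=
        sum_le_sum (fun G _ => h1 G)
    _ = ip one (avg (RA' c d a b) (fun G => ψ G ^ 2)) := by
        unfold ip; rw [sum_filter]
        exact sum_congr rfl (fun G _ => by simp only [hone]; split <;> simp)
    _ = ip one (fun G => ψ G ^ 2) := by rw [← avg_ip hr, h3]
    _ = _ := by
        unfold ip; rw [sum_filter]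
        exact sum_congr rfl (fun G _ => by simp only [hone]; split <;> simp)

theorem conflict {a b c d : Fin n} (hab : a ≠ b) (hac : a ≠ c) (had : a ≠ d) (hbc : b ≠ c)
    (hbd : b ≠ d) (hcd : c ≠ d) (F : Finset (Edge n) → ℝ) :
    (1/4) * ∑ G, (F G - F (sw a b c d G))^2 - (1/2) * errT a b c d F - (1/2) * errT c d a b F
      ≤ ip (F - avg (RA a b) F) (F - avg (RA c d) F) := by
  classical
  have hout : Out4 c d a b = Out4 a b c d := by ext u; simp only [mem_Out4]; tauto
  have pA := proj_avgL (relO_equiv a b (Out a b))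
  have pA' := proj_avgL (relO_equiv a b (Out4 a b c d))
  have pB := proj_avgL (relO_equiv c d (Out c d))
  have pB' := proj_avgL (relO_equiv c d (Out4 c d a b))
  have pS := proj_swL hac had hbc hbd
  have hswL : swL a b c d = swL c d a b := by
    apply LinearMap.ext; intro f; funext G
    simp only [swL_apply, sw_symm (a := a) (b := b)]
  have AA' : avgL (RA a b) * avgL (RA' a b c d) = avgL (RA a b) := by
    apply LinearMap.ext; intro f
    exact avg_avg_of_le' (relO_equiv a b _) (relO_equiv a b _) (fun _ _ h => ra'_le_ra h) f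
  have A'A : avgL (RA' a b c d) * avgL (RA a b) = avgL (RA a b) := by
    apply LinearMap.ext; intro f
    exact avg_avg_of_le (relO_equiv a b _) (relO_equiv a b _) (fun _ _ h => ra'_le_ra h) f
  have BB' : avgL (RA c d) * avgL (RA' c d a b) = avgL (RA c d) := by
    apply LinearMap.ext; intro f
    exact avg_avg_of_le' (relO_equiv c d _) (relO_equiv c d _) (fun _ _ h => ra'_le_ra h) f
  have B'B : avgL (RA' c d a b) * avgL (RA c d) = avgL (RA c d) := by
    apply LinearMap.ext; intro f
    exact avg_avg_of_le (relO_equiv c d _) (relO_equiv c d _) (fun _ _ h => ra'_le_ra h) f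
  have SA := swL_avg (n := n) hac had hbc hbd hcd
  have AS := avg_swL (n := n) hac had hbc hbd hcd
  have SB : swL a b c d * avgL (RA c d) = avgL (RA c d) := by
    rw [hswL]; exact swL_avg hac.symm hbc.symm had.symm hbd.symm hab
  have BS : avgL (RA c d) * swL a b c d = avgL (RA c d) := by
    rw [hswL]; exact avg_swL hac.symm hbc.symm had.symm hbd.symm hab
  have c1 := comm_ra'_ra (n := n) hac had hbc hbd
  have c2 := (comm_ra'_ra (n := n) hac.symm hbc.symm had.symm hbd.symm).symm
  have c3 := comm_ra'_ra' (n := n) hac had hbc hbd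
  have main := conflict_abs pA pA' pB pB' pS AA' A'A BB' B'B SA AS SB BS c1 c2 c3 F
  obtain ⟨gX, gY⟩ := conflict_g AA' BB' AS BS c1 c2 c3 F
  set g := avgL (RA' a b c d) (avgL (RA' c d a b) (swL a b c d F)) with hg
  -- invariance of g
  have g1 : ∀ G G', RA' a b c d G G' → g G = g G' := fun G G' h => avg_congr (relO_equiv a b _) _ h
  have g2 : ∀ G G', RA' c d a b G G' → g G = g G' := by
    have : g = avgL (RA' c d a b) (avgL (RA' a b c d) (swL a b c d F)) := by
      have := congrArg (fun T : Module.End ℝ (Finset (Edge n) → ℝ) => T (swL a b c d F)) c3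
      simpa only [Module.End.mul_apply] using this
    rw [this]
    exact fun G G' h => avg_congr (relO_equiv c d _) _ h
  -- the symmetrization term
  have hSterm : ip (F - swL a b c d F) (F - swL a b c d F) = (1/4) * ∑ G, (F G - F (sw a b c d G))^2 := by
    unfold ip; rw [mul_sum]
    exact sum_congr rfl (fun G _ => by simp only [Pi.sub_apply, swL_apply]; ring)
  -- split the sum
  set X := (avgL (RA' c d a b) * (avgL (RA' a b c d) * swL a b c d - avgL (RA a b))) F with hX
  set Y := (avgL (RA' a b c d) * (avgL (RA' c d a b) * swL a b c d - avgL (RA c d))) F with hY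
  have hXg : ∀ G, X G = g G - avg (RA a b) g G := fun G => by rw [gX]; rfl
  have hYg : ∀ G, Y G = g G - avg (RA c d) g G := fun G => by rw [gY]; rfl
  have hsplit : ip X Y = ∑ G ∈ univ.filter (fun G => isD a b c d G), X G * Y G +
      ∑ G ∈ univ.filter (fun G => Odd4 a b c d G), X G * Y G := by
    unfold ip
    rw [sum_filter, sum_filter, ← sum_add_distrib]
    apply sum_congr rfl
    intro G _
    by_cases hD : isD a b c d G
    · have hO : ¬ Odd4 a b c d G := by
        unfold isD at hD; unfold Odd4 blk; omega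
      simp [hD, hO]
    · by_cases hO : Odd4 a b c d G
      · simp [hD, hO]
      · simp only [hD, hO, if_false, add_zero]
        have l1 := v_le G a c; have l2 := v_le G a d; have l3 := v_le G b c; have l4 := v_le G b d
        by_cases hc : v G a c = v G b c ∧ v G a d = v G b d
        · rw [hXg, ra_inv_g hac had hbc hbd hcd g1 hc.1 hc.2, sub_self, zero_mul]
        · have hr : v G c a = v G d a ∧ v G c b = v G d b := by
            rw [v_comm G c a, v_comm G d a, v_comm G c b, v_comm G d b]
            unfold isD at hD; unfold Odd4 blk at hO; omega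
          rw [hYg, ra_inv_g hac.symm hbc.symm had.symm hbd.symm hab g2 hr.1 hr.2, sub_self, mul_zero]
  have hodd : 0 ≤ ∑ G ∈ univ.filter (fun G => Odd4 a b c d G), X G * Y G := by
    have := odd_part hab hac had hbc hbd hcd g
    refine le_of_le_of_eq this (sum_congr rfl (fun G _ => by rw [hXg, hYg]))
  -- errors
  have hXerr : ∑ G ∈ univ.filter (fun G => isD a b c d G), (X G)^2 ≤ errT a b c d F := by
    have := jensen_D (a := a) (b := b) (c := c) (d := d)
      (fun G => avg (RA' a b c d) (swL a b c d F) G - avg (RA a b) F G)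
    refine le_trans (le_of_eq ?_) (le_trans this (le_of_eq ?_))
    · apply sum_congr rfl; intro G _; rfl
    · unfold errT
      apply sum_congr rfl; intro G hG
      simp only [mem_filter, mem_univ, true_and] at hG
      rw [da_eq hac had hbc hbd hcd F hG]
  have hYerr : ∑ G ∈ univ.filter (fun G => isD a b c d G), (Y G)^2 ≤ errT c d a b F := by
    have hfil : univ.filter (fun G : Finset (Edge n) => isD a b c d G) =
        univ.filter (fun G => isD c d a b G) := by
      ext G; simp only [mem_filter, mem_univ, true_and]; exact isD_symm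
    have := jensen_D (a := c) (b := d) (c := a) (d := b)
      (fun G => avg (RA' c d a b) (swL c d a b F) G - avg (RA c d) F G)
    rw [hfil]
    refine le_trans (le_of_eq ?_) (le_trans this (le_of_eq ?_))
    · apply sum_congr rfl; intro G _; rw [hY, hswL]; rfl
    · unfold errT
      apply sum_congr rfl; intro G hG
      simp only [mem_filter, mem_univ, true_and] at hG
      rw [da_eq hac.symm hbc.symm had.symm hbd.symm hab F hG]
  have hDpart : -(1/2) * ∑ G ∈ univ.filter (fun G => isD a b c d G), (X G)^2
      - (1/2) * ∑ G ∈ univ.filter (fun G => isD a b c d G), (Y G)^2 ≤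
      ∑ G ∈ univ.filter (fun G => isD a b c d G), X G * Y G := by
    rw [mul_sum, mul_sum, ← sum_sub_distrib]
    apply sum_le_sum; intro G _
    nlinarith [sq_nonneg (X G + Y G)]
  have : (1/4) * ∑ G, (F G - F (sw a b c d G))^2 + ip X Y ≤ ip (F - avg (RA a b) F) (F - avg (RA c d) F) := by
    rw [← hSterm]; exact main
  rw [hsplit] at this
  linarith

end Crest.Agent.SwGap
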