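import Mathlib

/-!
# Johnson-scheme inequalities for exchange families (row S0453)
-/

namespace Crest.Agent.SwGap

open Finset

structure ExchFam {Ω V : Type*} [DecidableEq Ω] [DecidableEq V] (κ : Finset Ω) (M : Finset V)
    (x : Ω → V → ℤ) (τ : V → V → Ω → Ω) : Prop where
  val : ∀ S ∈ κ, ∀ c ∈ M, x S c = 1 ∨ x S c = -1
  mem : ∀ S ∈ κ, ∀ c ∈ M, ∀ d ∈ M, τ c d S ∈ κ
  swap : ∀ S ∈ κ, ∀ c ∈ M, ∀ d ∈ M, ∀ e ∈ M, x (τ c d S) e = x S (Equiv.swap c d e)
  invol : ∀ S ∈ κ, ∀ c ∈ M, ∀ d ∈ M, τ c d (τ c d S) = S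
  sum : ∃ s : ℤ, ∀ S ∈ κ, ∑ c ∈ M, x S c = s
  inj : ∀ S ∈ κ, ∀ S' ∈ κ, (∀ c ∈ M, x S c = x S' c) → S = S'

variable {Ω V : Type*} [DecidableEq Ω] [DecidableEq V] {κ : Finset Ω} {M : Finset V}
  {x : Ω → V → ℤ} {τ : V → V → Ω → Ω}

namespace ExchFam

lemma swap_left (h : ExchFam κ M x τ) {S : Ω} (hS : S ∈ κ) {c d : V} (hc : c ∈ M) (hd : d ∈ M) :
    x (τ c d S) c = x S d := by
  rw [h.swap S hS c hc d hd c hc, Equiv.swap_apply_left]

lemma swap_right (h : ExchFam κ M x τ) {S : Ω} (hS : S ∈ κ) {c d : V} (hc : c ∈ M) (hd : d ∈ M) :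
    x (τ c d S) d = x S c := by
  rw [h.swap S hS c hc d hd d hd, Equiv.swap_apply_right]

lemma swap_other (h : ExchFam κ M x τ) {S : Ω} (hS : S ∈ κ) {c d e : V} (hc : c ∈ M) (hd : d ∈ M)
    (he : e ∈ M) (hec : e ≠ c) (hed : e ≠ d) :
    x (τ c d S) e = x S e := by
  rw [h.swap S hS c hc d hd e he, Equiv.swap_apply_of_ne_of_ne hec hed]

/-- sums over `κ` are invariant under the involution. -/
lemma sum_tau (h : ExchFam κ M x τ) {c d : V} (hc : c ∈ M) (hd : d ∈ M) (f : Ω → ℝ) :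
    ∑ S ∈ κ, f (τ c d S) = ∑ S ∈ κ, f S := by
  refine Finset.sum_nbij' (fun S => τ c d S) (fun S => τ c d S) ?_ ?_ ?_ ?_ ?_
  · intro S hS; exact h.mem S hS c hc d hd
  · intro S hS; exact h.mem S hS c hc d hd
  · intro S hS; exact h.invol S hS c hc d hd
  · intro S hS; exact h.invol S hS c hc d hd
  · intro S hS; rfl

lemma tau_comm (h : ExchFam κ M x τ) {S : Ω} (hS : S ∈ κ) {c d : V} (hc : c ∈ M) (hd : d ∈ M) :
    τ c d S = τ d c S := by
  refine h.inj _ (h.mem S hS c hc d hd) _ (h.mem S hS d hd c hc) ?_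
  intro e he
  rw [h.swap S hS c hc d hd e he, h.swap S hS d hd c hc e he, Equiv.swap_comm]

lemma card_ne_eq (h : ExchFam κ M x τ) {c d e : V} (hc : c ∈ M) (hd : d ∈ M) (he : e ∈ M)
    (hcd : c ≠ d) (hce : c ≠ e) :
    (κ.filter (fun S => x S c ≠ x S d)).card = (κ.filter (fun S => x S c ≠ x S e)).card := by
  refine Finset.card_nbij' (fun S => τ d e S) (fun S => τ d e S) ?_ ?_ ?_ ?_
  · intro S hS
    have hS := Finset.mem_filter.1 hS
    refine Finset.mem_filter.2 ⟨h.mem S hS.1 d hd e he, ?_⟩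
    have h1 : x (τ d e S) c = x S c := h.swap_other hS.1 hd he hc hcd hce
    have h2 : x (τ d e S) e = x S d := h.swap_right hS.1 hd he
    rw [h1, h2]; exact hS.2
  · intro S hS
    have hS := Finset.mem_filter.1 hS
    refine Finset.mem_filter.2 ⟨h.mem S hS.1 d hd e he, ?_⟩
    have h1 : x (τ d e S) c = x S c := h.swap_other hS.1 hd he hc hcd hce
    have h2 : x (τ d e S) d = x S e := h.swap_left hS.1 hd he
    rw [h1, h2]; exact hS.2
  · intro S hS
    have hS := Finset.mem_filter.1 hS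
    exact h.invol S hS.1 d hd e he
  · intro S hS
    have hS := Finset.mem_filter.1 hS
    exact h.invol S hS.1 d hd e he

omit [DecidableEq Ω] [DecidableEq V] in
lemma card_ne_symm (c d : V) :
    (κ.filter (fun S => x S c ≠ x S d)).card = (κ.filter (fun S => x S d ≠ x S c)).card := by
  congr 1
  apply Finset.filter_congr
  intro S _
  exact ne_comm

lemma card_ne_all (h : ExchFam κ M x τ) {c d p q : V} (hc : c ∈ M) (hd : d ∈ M) (hp : p ∈ M)
    (hq : q ∈ M) (hcd : c ≠ d) (hpq : p ≠ q) :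
    (κ.filter (fun S => x S c ≠ x S d)).card = (κ.filter (fun S => x S p ≠ x S q)).card := by
  by_cases hcq : c = q
  · subst hcq
    rw [h.card_ne_eq hc hd hp hcd hpq.symm, card_ne_symm]
  · rw [h.card_ne_eq hc hd hq hcd hcq, card_ne_symm,
      h.card_ne_eq hq hc hp (fun hh => hcq hh.symm) hpq.symm, card_ne_symm]

/-- The key comparison of `a_{cd}` and `a_{ce}` in general form. -/
lemma key_cs (h : ExchFam κ M x τ) {d e : V} (hd : d ∈ M) (he : e ∈ M) (G : Ω → ℝ) (w : Ω → ℝ)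
    (hw : ∀ S ∈ κ, w (τ d e S) = w S) (hw1 : ∀ S ∈ κ, w S ^ 2 = 1) :
    (∑ S ∈ κ, G S * w S * ((x S d : ℝ) - x S e)) ^ 2 ≤
      ((κ.filter (fun S => x S d ≠ x S e)).card : ℝ) * ∑ S ∈ κ, (G S - G (τ d e S)) ^ 2 := by
  have h1 : ∑ S ∈ κ, G S * w S * ((x S d : ℝ) - x S e) =
      - ∑ S ∈ κ, G (τ d e S) * w S * ((x S d : ℝ) - x S e) := by
    rw [← h.sum_tau hd he, ← Finset.sum_neg_distrib]
    refine Finset.sum_congr rfl fun S hS => ?_
    rw [hw S hS, h.swap_left hS hd he, h.swap_right hS hd he]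
    ring
  have h2 : ∑ S ∈ κ, G S * w S * ((x S d : ℝ) - x S e) =
      (1/2) * ∑ S ∈ κ, (G S - G (τ d e S)) * (w S * ((x S d : ℝ) - x S e)) := by
    have : ∑ S ∈ κ, (G S - G (τ d e S)) * (w S * ((x S d : ℝ) - x S e)) =
        ∑ S ∈ κ, G S * w S * ((x S d : ℝ) - x S e) -
        ∑ S ∈ κ, G (τ d e S) * w S * ((x S d : ℝ) - x S e) := by
      rw [← Finset.sum_sub_distrib]
      refine Finset.sum_congr rfl fun S hS => ?_
      ring
    rw [this]
    linarith
  have h3 : ∑ S ∈ κ, (w S * ((x S d : ℝ) - x S e)) ^ 2 =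
      4 * ((κ.filter (fun S => x S d ≠ x S e)).card : ℝ) := by
    rw [Finset.card_filter]
    push_cast
    rw [Finset.mul_sum]
    refine Finset.sum_congr rfl fun S hS => ?_
    rw [mul_pow, hw1 S hS, one_mul]
    rcases h.val S hS d hd with h4 | h4 <;> rcases h.val S hS e he with h5 | h5 <;>
      rw [h4, h5] <;> norm_num
  have h4 := Finset.sum_mul_sq_le_sq_mul_sq κ (fun S => G S - G (τ d e S))
    (fun S => w S * ((x S d : ℝ) - x S e))
  rw [h3] at h4
  rw [h2]
  nlinarith [h4]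

end ExchFam

lemma sum_pair_sq {ι : Type*} (s : Finset ι) (a : ι → ℝ) :
    ∑ i ∈ s, ∑ j ∈ s, (a i - a j) ^ 2 = 2 * (s.card : ℝ) * ∑ i ∈ s, a i ^ 2 - 2 * (∑ i ∈ s, a i) ^ 2 := by
  have h1 : ∀ i ∈ s, ∑ j ∈ s, (a i - a j) ^ 2 =
      (s.card : ℝ) * a i ^ 2 - 2 * a i * ∑ j ∈ s, a j + ∑ j ∈ s, a j ^ 2 := by
    intro i _
    have : ∀ j ∈ s, (a i - a j) ^ 2 = a i ^ 2 - 2 * a i * a j + a j ^ 2 := fun j _ => by ring
    rw [Finset.sum_congr rfl this, Finset.sum_add_distrib, Finset.sum_sub_distrib,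
      Finset.sum_const, ← Finset.mul_sum, nsmul_eq_mul]
  rw [Finset.sum_congr rfl h1, Finset.sum_add_distrib, Finset.sum_sub_distrib,
    Finset.sum_const, ← Finset.mul_sum, ← Finset.sum_mul, ← Finset.mul_sum, nsmul_eq_mul]
  ring

/-- variance formula. -/
lemma var_eq {ι : Type*} (s : Finset ι) (F : ι → ℝ) :
    ∑ S ∈ s, (F S - (∑ S' ∈ s, F S') / (s.card : ℝ)) ^ 2 =
      ∑ S ∈ s, F S ^ 2 - (∑ S ∈ s, F S) ^ 2 / (s.card : ℝ) := by
  rcases s.eq_empty_or_nonempty with h | h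
  · subst h; simp
  have hc : (s.card : ℝ) ≠ 0 := by
    have := h.card_pos
    positivity
  set A := ∑ S' ∈ s, F S'
  have : ∀ S ∈ s, (F S - A / (s.card : ℝ)) ^ 2 =
      F S ^ 2 - 2 * (A / s.card) * F S + (A / s.card) ^ 2 := fun S _ => by ring
  rw [Finset.sum_congr rfl this, Finset.sum_add_distrib, Finset.sum_sub_distrib,
    ← Finset.mul_sum, Finset.sum_const, nsmul_eq_mul]
  change _ - 2 * (A / s.card) * A + _ = _
  field_simp
  ring

theorem john_J (h : ExchFam κ M x τ) (F : Ω → ℝ) :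
    ∑ c ∈ M, ∑ d ∈ M.erase c, ∑ S ∈ κ.filter (fun S => x S c ≠ x S d),
      ((∑ S' ∈ κ.filter (fun S' => x S' c ≠ x S' d), F S') /
        ((κ.filter (fun S' => x S' c ≠ x S' d)).card : ℝ) - (∑ S' ∈ κ, F S') / (κ.card : ℝ)) ^ 2
      ≤ (1/4) * ∑ c ∈ M, ∑ d ∈ M.erase c, ∑ S ∈ κ, (F S - F (τ c d S)) ^ 2 := by
  classical
  set μ : ℝ := (∑ S' ∈ κ, F S') / (κ.card : ℝ) with hμ
  set G : Ω → ℝ := fun S => F S - μ with hG
  set E : V → V → ℝ := fun c d => ∑ S ∈ κ, (F S - F (τ c d S)) ^ 2 with hE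
  have hE0 : ∀ c d, 0 ≤ E c d := fun c d => Finset.sum_nonneg fun S _ => sq_nonneg _
  have hGE : ∀ c d, ∑ S ∈ κ, (G S - G (τ c d S)) ^ 2 = E c d := by
    intro c d
    refine Finset.sum_congr rfl fun _ _ => ?_
    simp only [hG]; ring
  have hGsum : ∑ S ∈ κ, G S = 0 := by
    rcases κ.eq_empty_or_nonempty with hk | hk
    · rw [hk]; simp
    have hc : (κ.card : ℝ) ≠ 0 := by
      have := hk.card_pos
      positivity
    simp only [hG, Finset.sum_sub_distrib, Finset.sum_const, nsmul_eq_mul, hμ]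
    field_simp
    ring
  have hRHS0 : 0 ≤ ∑ c ∈ M, ∑ d ∈ M.erase c, E c d :=
    Finset.sum_nonneg fun c _ => Finset.sum_nonneg fun d _ => hE0 c d
  -- trivial case: no two distinct elements
  by_cases hM : ∃ p ∈ M, ∃ q ∈ M, p ≠ q
  swap
  · have hz : ∀ c ∈ M, M.erase c = ∅ := by
      intro c hc
      rw [Finset.eq_empty_iff_forall_notMem]
      intro d hd
      rw [Finset.mem_erase] at hd
      exact hM ⟨d, hd.2, c, hc, hd.1⟩
    rw [Finset.sum_eq_zero (fun c hc => by rw [hz c hc, Finset.sum_empty])]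
    linarith
  obtain ⟨p, hp, q, hq, hpq⟩ := hM
  set L : ℝ := ((κ.filter (fun S => x S p ≠ x S q)).card : ℝ) with hL
  have hL0 : 0 ≤ L := by positivity
  have hLcd : ∀ c ∈ M, ∀ d ∈ M, c ≠ d → ((κ.filter (fun S => x S c ≠ x S d)).card : ℝ) = L := by
    intro c hc d hd hcd
    rw [hL, h.card_ne_all hc hd hp hq hcd hpq]
  -- the quantities a and b
  set a : V → V → ℝ := fun c d => ∑ S ∈ κ, G S * (x S c : ℝ) * (x S d : ℝ) with ha
  set b : V → ℝ := fun c => ∑ S ∈ κ, G S * (x S c : ℝ) with hb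
  obtain ⟨s, hs⟩ := h.sum
  have hsR : ∀ S ∈ κ, ∑ c ∈ M, (x S c : ℝ) = s := by
    intro S hS
    have := hs S hS
    exact_mod_cast this
  have hx2 : ∀ S ∈ κ, ∀ c ∈ M, (x S c : ℝ) * x S c = 1 := by
    intro S hS c hc
    rcases h.val S hS c hc with h1 | h1 <;> rw [h1] <;> norm_num
  have hbsum : ∑ c ∈ M, b c = 0 := by
    simp only [hb]
    rw [Finset.sum_comm]
    have : ∀ S ∈ κ, ∑ c ∈ M, G S * (x S c : ℝ) = G S * s := by
      intro S hS
      rw [← Finset.mul_sum, hsR S hS]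
    rw [Finset.sum_congr rfl this, ← Finset.sum_mul, hGsum, zero_mul]
  have hasum : ∀ c ∈ M, ∑ d ∈ M.erase c, a c d = s * b c := by
    intro c hc
    have h1 : ∑ d ∈ M, a c d = s * b c := by
      simp only [ha, hb]
      rw [Finset.sum_comm, Finset.mul_sum]
      refine Finset.sum_congr rfl fun S hS => ?_
      rw [← Finset.mul_sum, hsR S hS]; ring
    have h2 : a c c = 0 := by
      simp only [ha]
      rw [← hGsum]
      refine Finset.sum_congr rfl fun S hS => ?_
      rw [mul_assoc, hx2 S hS c hc, mul_one]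
    rw [← Finset.add_sum_erase M _ hc, h2, zero_add] at h1
    exact h1
  have hadiff : ∀ c ∈ M, ∀ d ∈ M.erase c, ∀ e ∈ M.erase c, d ≠ e → (a c d - a c e) ^ 2 ≤ L * E d e := by
    intro c hc d hd e he hde
    rw [Finset.mem_erase] at hd he
    have h1 := h.key_cs hd.2 he.2 G (fun S => (x S c : ℝ))
      (fun S hS => by
        show ((x (τ d e S) c : ℤ) : ℝ) = _
        rw [h.swap_other hS hd.2 he.2 hc hd.1.symm he.1.symm])
      (fun S hS => by rw [pow_two]; exact hx2 S hS c hc)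
    rw [hGE, hLcd d hd.2 e he.2 hde] at h1
    have h2 : a c d - a c e = ∑ S ∈ κ, G S * (x S c : ℝ) * ((x S d : ℝ) - x S e) := by
      simp only [ha]
      rw [← Finset.sum_sub_distrib]
      refine Finset.sum_congr rfl fun S _ => ?_
      ring
    rw [h2]; exact h1
  have hbdiff : ∀ d ∈ M, ∀ e ∈ M, d ≠ e → (b d - b e) ^ 2 ≤ L * E d e := by
    intro d hd e he hde
    have h1 := h.key_cs hd he G (fun _ => (1:ℝ)) (fun S hS => rfl) (fun S hS => by norm_num)
    rw [hGE, hLcd d hd e he hde] at h1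
    have h2 : b d - b e = ∑ S ∈ κ, G S * 1 * ((x S d : ℝ) - x S e) := by
      simp only [hb]
      rw [← Finset.sum_sub_distrib]
      refine Finset.sum_congr rfl fun S _ => ?_
      ring
    rw [h2]; exact h1
  set Et : ℝ := ∑ c ∈ M, ∑ d ∈ M.erase c, E c d with hEt
  set m : ℝ := (M.card : ℝ) with hm
  have hm2 : 2 ≤ m := by
    have : 1 < M.card := Finset.one_lt_card.2 ⟨p, hp, q, hq, hpq⟩
    rw [hm]
    exact_mod_cast this
  -- b estimate : m * sum b^2 <= (L/2) * Et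
  have hbest : 2 * m * ∑ c ∈ M, b c ^ 2 ≤ L * Et := by
    have h1 := sum_pair_sq M b
    rw [hbsum] at h1
    have h2 : ∑ i ∈ M, ∑ j ∈ M, (b i - b j) ^ 2 ≤ L * Et := by
      rw [hEt, Finset.mul_sum]
      refine Finset.sum_le_sum fun c hc => ?_
      rw [← Finset.add_sum_erase M _ hc, sub_self, Finset.mul_sum]
      rw [zero_pow (by norm_num), zero_add]
      refine Finset.sum_le_sum fun d hd => ?_
      rw [Finset.mem_erase] at hd
      exact hbdiff c hc d hd.2 hd.1.symm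
    rw [← hm] at h1
    nlinarith [h1, h2]
  -- a estimate
  have haest : ∀ c ∈ M, 2 * (m - 1) * ∑ d ∈ M.erase c, a c d ^ 2 - 2 * (s * b c) ^ 2 ≤
      L * ∑ d ∈ M.erase c, ∑ e ∈ (M.erase c).erase d, E d e := by
    intro c hc
    have h1 := sum_pair_sq (M.erase c) (fun d => a c d)
    rw [hasum c hc, Finset.card_erase_of_mem hc] at h1
    have h3 : ((M.card - 1 : ℕ) : ℝ) = m - 1 := by
      have : 1 ≤ M.card := Finset.card_pos.2 ⟨p, hp⟩
      rw [Nat.cast_sub this, hm, Nat.cast_one]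
    rw [h3] at h1
    rw [← h1, Finset.mul_sum]
    refine Finset.sum_le_sum fun d hd => ?_
    rw [← Finset.add_sum_erase (M.erase c) _ hd, sub_self, Finset.mul_sum]
    rw [zero_pow (by norm_num), zero_add]
    refine Finset.sum_le_sum fun e he => ?_
    rw [Finset.mem_erase] at he
    exact hadiff c hc d hd e he.2 he.1.symm
  have htriple : ∑ c ∈ M, ∑ d ∈ M.erase c, ∑ e ∈ (M.erase c).erase d, E d e = (m - 2) * Et := by
    have h1 : ∑ c ∈ M, ∑ d ∈ M.erase c, ∑ e ∈ (M.erase c).erase d, E d e =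
        ∑ d ∈ M, ∑ c ∈ M.erase d, ∑ e ∈ (M.erase d).erase c, E d e := by
      rw [Finset.sum_comm' (s := M) (t := fun c => M.erase c) (t' := M) (s' := fun d => M.erase d)]
      · refine Finset.sum_congr rfl fun d _ => Finset.sum_congr rfl fun c _ => ?_
        rw [Finset.erase_right_comm]
      · intro c d
        simp only [Finset.mem_erase]
        constructor
        · rintro ⟨h1, h2, h3⟩; exact ⟨⟨h2.symm, h1⟩, h3⟩
        · rintro ⟨⟨h1, h2⟩, h3⟩; exact ⟨h2, h1.symm, h3⟩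
    rw [h1, hEt, Finset.mul_sum]
    refine Finset.sum_congr rfl fun d hd => ?_
    have h2 : ∑ c ∈ M.erase d, ∑ e ∈ (M.erase d).erase c, E d e =
        ∑ e ∈ M.erase d, ∑ c ∈ (M.erase d).erase e, E d e := by
      rw [Finset.sum_comm' (s := M.erase d) (t := fun c => (M.erase d).erase c) (t' := M.erase d)
        (s' := fun e => (M.erase d).erase e)]
      intro c e
      simp only [Finset.mem_erase]
      constructor
      · rintro ⟨⟨h1, h2⟩, h3, h4, h5⟩; exact ⟨⟨h3.symm, h1, h2⟩, h4, h5⟩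
      · rintro ⟨⟨h1, h2, h3⟩, h4, h5⟩; exact ⟨⟨h2, h3⟩, h1.symm, h4, h5⟩
    rw [h2, Finset.mul_sum]
    refine Finset.sum_congr rfl fun e he => ?_
    rw [Finset.sum_const, Finset.card_erase_of_mem he, Finset.card_erase_of_mem hd, nsmul_eq_mul]
    congr 1
    have h3 : 2 ≤ M.card := by
      have : (2:ℝ) ≤ (M.card : ℝ) := hm2
      exact_mod_cast this
    rw [Nat.sub_sub, Nat.cast_sub h3, hm]
    norm_num
  have hs2 : ((s:ℤ):ℝ) ^ 2 ≤ m ^ 2 ∨ κ = ∅ := by
    rcases κ.eq_empty_or_nonempty with hk | ⟨S, hS⟩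
    · right; exact hk
    left
    have h1 : |((s:ℤ):ℝ)| ≤ m := by
      rw [← hsR S hS]
      refine (Finset.abs_sum_le_sum_abs _ _).trans ?_
      have : ∀ c ∈ M, |(x S c : ℝ)| = 1 := by
        intro c hc
        rcases h.val S hS c hc with h1 | h1 <;> rw [h1] <;> norm_num
      rw [Finset.sum_congr rfl this, Finset.sum_const, nsmul_eq_mul, mul_one]
    rw [← sq_abs]
    exact pow_le_pow_left₀ (abs_nonneg _) h1 2
  have hfin : ∑ c ∈ M, ∑ d ∈ M.erase c, a c d ^ 2 ≤ L * Et := by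
    rcases hs2 with hs2 | hk
    swap
    · have : ∀ c d, a c d = 0 := by
        intro c d
        simp only [ha]
        rw [hk]; simp
      simp only [this]
      have : 0 ≤ L * Et := mul_nonneg hL0 hRHS0
      simpa using this
    have h1 : ∑ c ∈ M, (2 * (m - 1) * ∑ d ∈ M.erase c, a c d ^ 2 - 2 * (s * b c) ^ 2) ≤
        ∑ c ∈ M, L * ∑ d ∈ M.erase c, ∑ e ∈ (M.erase c).erase d, E d e :=
      Finset.sum_le_sum haest
    rw [← Finset.mul_sum, htriple, Finset.sum_sub_distrib, ← Finset.mul_sum] at h1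
    have h2 : ∑ c ∈ M, 2 * (s * b c) ^ 2 = 2 * (s:ℝ) ^ 2 * ∑ c ∈ M, b c ^ 2 := by
      rw [Finset.mul_sum]
      refine Finset.sum_congr rfl fun c _ => ?_
      ring
    rw [h2] at h1
    have hb0 : 0 ≤ ∑ c ∈ M, b c ^ 2 := Finset.sum_nonneg fun c _ => sq_nonneg _
    have h3 : 2 * (s:ℝ) ^ 2 * ∑ c ∈ M, b c ^ 2 ≤ m * (L * Et) := by
      calc 2 * (s:ℝ) ^ 2 * ∑ c ∈ M, b c ^ 2 ≤ 2 * m ^ 2 * ∑ c ∈ M, b c ^ 2 := by
            apply mul_le_mul_of_nonneg_right _ hb0
            linarith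
        _ = m * (2 * m * ∑ c ∈ M, b c ^ 2) := by ring
        _ ≤ m * (L * Et) := by
            apply mul_le_mul_of_nonneg_left hbest
            linarith
    have h4 : 2 * (m - 1) * ∑ c ∈ M, ∑ d ∈ M.erase c, a c d ^ 2 ≤ 2 * (m - 1) * (L * Et) := by
      nlinarith [h1, h3]
    have h5 : 0 < 2 * (m - 1) := by linarith
    exact le_of_mul_le_mul_left h4 h5
  -- the left hand side
  have hterm : ∀ c ∈ M, ∀ d ∈ M.erase c, ∑ S ∈ κ.filter (fun S => x S c ≠ x S d),
      ((∑ S' ∈ κ.filter (fun S' => x S' c ≠ x S' d), F S') /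
        ((κ.filter (fun S' => x S' c ≠ x S' d)).card : ℝ) - μ) ^ 2 = a c d ^ 2 / (4 * L) := by
    intro c hc d hd
    rw [Finset.mem_erase] at hd
    rw [Finset.sum_const, nsmul_eq_mul, hLcd c hc d hd.2 hd.1.symm]
    have h1 : a c d = - 2 * ∑ S ∈ κ.filter (fun S => x S c ≠ x S d), G S := by
      have h2 : ∑ S ∈ κ.filter (fun S => x S c ≠ x S d), G S =
          ∑ S ∈ κ, (if x S c ≠ x S d then G S else 0) := Finset.sum_filter _ _
      have h3 : a c d + 2 * ∑ S ∈ κ.filter (fun S => x S c ≠ x S d), G S = ∑ S ∈ κ, G S := by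
        rw [h2, Finset.mul_sum]
        simp only [ha]
        rw [← Finset.sum_add_distrib]
        refine Finset.sum_congr rfl fun S hS => ?_
        rcases h.val S hS c hc with h4 | h4 <;> rcases h.val S hS d hd.2 with h5 | h5 <;>
          rw [h4, h5] <;> norm_num <;> ring
      rw [hGsum] at h3
      linarith
    have h2 : ∑ S ∈ κ.filter (fun S => x S c ≠ x S d), G S =
        ∑ S ∈ κ.filter (fun S => x S c ≠ x S d), F S - L * μ := by
      simp only [hG]
      rw [Finset.sum_sub_distrib, Finset.sum_const, nsmul_eq_mul, hLcd c hc d hd.2 hd.1.symm]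
    rw [h1, h2]
    by_cases hLz : L = 0
    · rw [hLz]; simp
    · field_simp
      ring
  have hLHS : ∑ c ∈ M, ∑ d ∈ M.erase c, ∑ S ∈ κ.filter (fun S => x S c ≠ x S d),
      ((∑ S' ∈ κ.filter (fun S' => x S' c ≠ x S' d), F S') /
        ((κ.filter (fun S' => x S' c ≠ x S' d)).card : ℝ) - μ) ^ 2 =
      (∑ c ∈ M, ∑ d ∈ M.erase c, a c d ^ 2) / (4 * L) := by
    rw [Finset.sum_div]
    refine Finset.sum_congr rfl fun c hc => ?_
    rw [Finset.sum_div]
    exact Finset.sum_congr rfl fun d hd => hterm c hc d hd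
  rw [hLHS]
  by_cases hLz : L = 0
  · rw [hLz]; simp only [mul_zero, div_zero]
    linarith
  · have hLpos : 0 < L := lt_of_le_of_ne hL0 (Ne.symm hLz)
    rw [div_le_iff₀ (by positivity)]
    nlinarith [hfin]

namespace ExchFam

lemma tau_eq_self (h : ExchFam κ M x τ) {S : Ω} (hS : S ∈ κ) {c d : V} (hc : c ∈ M) (hd : d ∈ M)
    (hx : x S c = x S d) : τ c d S = S := by
  refine h.inj _ (h.mem S hS c hc d hd) _ hS ?_
  intro e he
  by_cases h1 : e = c
  · subst h1; rw [h.swap_left hS hc hd, hx]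
  by_cases h2 : e = d
  · subst h2; rw [h.swap_right hS hc hd, hx]
  exact h.swap_other hS hc hd he h1 h2

/-- restriction to the states with `x S c = ε`. -/
lemma restrict {M' : Finset V} {c : V} (hcM : c ∉ M') (h : ExchFam κ (insert c M') x τ) (ε : ℤ) :
    ExchFam (κ.filter (fun S => x S c = ε)) M' x τ where
  val := fun S hS d hd => h.val S (Finset.mem_filter.1 hS).1 d (Finset.mem_insert_of_mem hd)
  mem := fun S hS d hd e he => by
    have hS := Finset.mem_filter.1 hS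
    refine Finset.mem_filter.2 ⟨h.mem S hS.1 d (Finset.mem_insert_of_mem hd) e
      (Finset.mem_insert_of_mem he), ?_⟩
    rw [h.swap_other hS.1 (Finset.mem_insert_of_mem hd) (Finset.mem_insert_of_mem he)
      (Finset.mem_insert_self _ _) (fun hh => hcM (hh ▸ hd)) (fun hh => hcM (hh ▸ he))]
    exact hS.2
  swap := fun S hS d hd e he f hf => h.swap S (Finset.mem_filter.1 hS).1 d
    (Finset.mem_insert_of_mem hd) e (Finset.mem_insert_of_mem he) f (Finset.mem_insert_of_mem hf)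
  invol := fun S hS d hd e he => h.invol S (Finset.mem_filter.1 hS).1 d
    (Finset.mem_insert_of_mem hd) e (Finset.mem_insert_of_mem he)
  sum := by
    obtain ⟨s, hs⟩ := h.sum
    refine ⟨s - ε, fun S hS => ?_⟩
    have hS := Finset.mem_filter.1 hS
    have h1 := hs S hS.1
    rw [Finset.sum_insert hcM, hS.2] at h1
    linarith
  inj := fun S hS S' hS' hx => by
    have hS := Finset.mem_filter.1 hS
    have hS' := Finset.mem_filter.1 hS'
    refine h.inj S hS.1 S' hS'.1 ?_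
    intro d hd
    rcases Finset.mem_insert.1 hd with h1 | h1
    · subst h1; rw [hS.2, hS'.2]
    · exact hx d h1

end ExchFam

/-- The comparison of the two halves. -/
lemma between {κ : Finset Ω} {M' : Finset V} {x : Ω → V → ℤ} {τ : V → V → Ω → Ω} {c : V}
    (hcM : c ∉ M') (h : ExchFam κ (insert c M') x τ) (F : Ω → ℝ)
    (hp : (κ.filter (fun S => x S c = 1)).Nonempty) (hm : (κ.filter (fun S => x S c = -1)).Nonempty) :
    (∑ S ∈ κ.filter (fun S => x S c = 1), F S) ^ 2 / ((κ.filter (fun S => x S c = 1)).card : ℝ) +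
    (∑ S ∈ κ.filter (fun S => x S c = -1), F S) ^ 2 / ((κ.filter (fun S => x S c = -1)).card : ℝ) -
    (∑ S ∈ κ, F S) ^ 2 / (κ.card : ℝ) ≤
      (1/4) * ∑ d ∈ M', ∑ S ∈ κ, (F S - F (τ c d S)) ^ 2 := by
  classical
  set κp := κ.filter (fun S => x S c = 1) with hκp
  set κm := κ.filter (fun S => x S c = -1) with hκm
  have hcm : c ∈ insert c M' := Finset.mem_insert_self _ _
  have hdisj : Disjoint κp κm := by
    rw [Finset.disjoint_left]
    intro S h1 h2
    have h1 := (Finset.mem_filter.1 h1).2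
    have h2 := (Finset.mem_filter.1 h2).2
    omega
  have hunion : κ = κp ∪ κm := by
    ext S
    rw [Finset.mem_union, hκp, hκm, Finset.mem_filter, Finset.mem_filter]
    constructor
    · intro hS
      rcases h.val S hS c hcm with h1 | h1
      · left; exact ⟨hS, h1⟩
      · right; exact ⟨hS, h1⟩
    · rintro (h1 | h1) <;> exact h1.1
  have hsum : ∀ f : Ω → ℝ, ∑ S ∈ κ, f S = ∑ S ∈ κp, f S + ∑ S ∈ κm, f S := by
    intro f
    conv_lhs => rw [hunion]
    exact Finset.sum_union hdisj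
  have hcard : (κ.card : ℝ) = (κp.card : ℝ) + κm.card := by
    have := hsum (fun _ => (1:ℝ))
    simpa using this
  -- number of minus (plus) coordinates in M'
  obtain ⟨s, hs⟩ := h.sum
  have hcount : ∀ S ∈ κ, ((M'.filter (fun d => x S d = 1)).card : ℤ) +
      (M'.filter (fun d => x S d = -1)).card = M'.card ∧
      ((M'.filter (fun d => x S d = 1)).card : ℤ) -
      (M'.filter (fun d => x S d = -1)).card = s - x S c := by
    intro S hS
    have h1 : ∀ d ∈ M', ((if x S d = 1 then (1:ℤ) else 0) + (if x S d = -1 then (1:ℤ) else 0) = 1) ∧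
        ((if x S d = 1 then (1:ℤ) else 0) - (if x S d = -1 then (1:ℤ) else 0) = x S d) := by
      intro d hd
      rcases h.val S hS d (Finset.mem_insert_of_mem hd) with h2 | h2 <;> rw [h2] <;> norm_num
    constructor
    · rw [Finset.card_filter, Finset.card_filter]
      push_cast
      rw [← Finset.sum_add_distrib, Finset.sum_congr rfl (fun d hd => (h1 d hd).1)]
      simp
    · rw [Finset.card_filter, Finset.card_filter]
      push_cast
      rw [← Finset.sum_sub_distrib, Finset.sum_congr rfl (fun d hd => (h1 d hd).2)]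
      have h2 := hs S hS
      rw [Finset.sum_insert hcM] at h2
      linarith
  obtain ⟨Sp, hSp⟩ := hp
  obtain ⟨Sm, hSm⟩ := hm
  set q : ℕ := (M'.filter (fun d => x Sp d = -1)).card with hq
  set p : ℕ := (M'.filter (fun d => x Sm d = 1)).card with hpdef
  have hqS : ∀ S ∈ κp, (M'.filter (fun d => x S d = -1)).card = q := by
    intro S hS
    have hS' := Finset.mem_filter.1 hS
    have hSp' := Finset.mem_filter.1 hSp
    have h1 := hcount S hS'.1
    have h2 := hcount Sp hSp'.1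
    rw [hS'.2] at h1
    rw [hSp'.2] at h2
    omega
  have hpS : ∀ S ∈ κm, (M'.filter (fun d => x S d = 1)).card = p := by
    intro S hS
    have hS' := Finset.mem_filter.1 hS
    have hSm' := Finset.mem_filter.1 hSm
    have h1 := hcount S hS'.1
    have h2 := hcount Sm hSm'.1
    rw [hS'.2] at h1
    rw [hSm'.2] at h2
    omega
  have hpq : p + q = M'.card + 1 := by
    have hSp' := Finset.mem_filter.1 hSp
    have hSm' := Finset.mem_filter.1 hSm
    have h1 := hcount Sp hSp'.1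
    have h2 := hcount Sm hSm'.1
    rw [hSp'.2] at h1
    rw [hSm'.2] at h2
    omega
  -- double counting : the cross sets
  set Tp : V → Finset Ω := fun d => κp.filter (fun S => x S d = -1) with hTp
  set Tm : V → Finset Ω := fun d => κm.filter (fun S => x S d = 1) with hTm
  have hbij : ∀ d ∈ M', ∀ f : Ω → ℝ, ∑ S ∈ Tp d, f (τ c d S) = ∑ S ∈ Tm d, f S := by
    intro d hd f
    have hdm : d ∈ insert c M' := Finset.mem_insert_of_mem hd
    refine Finset.sum_nbij' (fun S => τ c d S) (fun S => τ c d S) ?_ ?_ ?_ ?_ ?_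
    · intro S hS
      have h1 := Finset.mem_filter.1 hS
      have h2 := Finset.mem_filter.1 h1.1
      refine Finset.mem_filter.2 ⟨Finset.mem_filter.2 ⟨h.mem S h2.1 c hcm d hdm, ?_⟩, ?_⟩
      · rw [h.swap_left h2.1 hcm hdm]; exact h1.2
      · rw [h.swap_right h2.1 hcm hdm]; exact h2.2
    · intro S hS
      have h1 := Finset.mem_filter.1 hS
      have h2 := Finset.mem_filter.1 h1.1
      refine Finset.mem_filter.2 ⟨Finset.mem_filter.2 ⟨h.mem S h2.1 c hcm d hdm, ?_⟩, ?_⟩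
      · rw [h.swap_left h2.1 hcm hdm]; exact h1.2
      · rw [h.swap_right h2.1 hcm hdm]; exact h2.2
    · intro S hS
      exact h.invol S (Finset.mem_filter.1 (Finset.mem_filter.1 hS).1).1 c hcm d hdm
    · intro S hS
      exact h.invol S (Finset.mem_filter.1 (Finset.mem_filter.1 hS).1).1 c hcm d hdm
    · intro S hS; rfl
  have hTpsum : ∀ f : Ω → ℝ, ∑ d ∈ M', ∑ S ∈ Tp d, f S = q * ∑ S ∈ κp, f S := by
    intro f
    rw [Finset.sum_comm' (s := M') (t := fun d => Tp d) (t' := κp)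
      (s' := fun S => M'.filter (fun d => x S d = -1))]
    · rw [Finset.mul_sum]
      refine Finset.sum_congr rfl fun S hS => ?_
      rw [Finset.sum_const, hqS S hS, nsmul_eq_mul]
    · intro d S
      simp only [hTp, Finset.mem_filter]
      tauto
  have hTmsum : ∀ f : Ω → ℝ, ∑ d ∈ M', ∑ S ∈ Tm d, f S = p * ∑ S ∈ κm, f S := by
    intro f
    rw [Finset.sum_comm' (s := M') (t := fun d => Tm d) (t' := κm)
      (s' := fun S => M'.filter (fun d => x S d = 1))]
    · rw [Finset.mul_sum]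
      refine Finset.sum_congr rfl fun S hS => ?_
      rw [Finset.sum_const, hpS S hS, nsmul_eq_mul]
    · intro d S
      simp only [hTm, Finset.mem_filter]
      tauto
  set kp : ℝ := (κp.card : ℝ) with hkp
  set km : ℝ := (κm.card : ℝ) with hkm
  set A : ℝ := ∑ S ∈ κp, F S with hA
  set B : ℝ := ∑ S ∈ κm, F S with hB
  have hkpq : kp * q = km * p := by
    have h1 := hTpsum (fun _ => (1:ℝ))
    have h2 := hTmsum (fun _ => (1:ℝ))
    have h3 : ∑ d ∈ M', ∑ S ∈ Tp d, (1:ℝ) = ∑ d ∈ M', ∑ S ∈ Tm d, (1:ℝ) :=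
      Finset.sum_congr rfl fun d hd => hbij d hd (fun _ => (1:ℝ))
    rw [h1, h2] at h3
    simp only [Finset.sum_const, nsmul_eq_mul, mul_one] at h3
    linarith
  have hkp0 : 0 < kp := by
    rw [hkp]; exact_mod_cast Finset.card_pos.2 ⟨Sp, hSp⟩
  have hkm0 : 0 < km := by
    rw [hkm]; exact_mod_cast Finset.card_pos.2 ⟨Sm, hSm⟩
  have hq0 : 0 < q := by
    by_contra hq0
    have hq0 : q = 0 := by omega
    have : km * p = 0 := by rw [← hkpq, hq0]; simp
    rcases mul_eq_zero.1 this with h1 | h1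
    · exact absurd h1 hkm0.ne'
    · have : p = 0 := by exact_mod_cast h1
      omega
  have hp0 : 0 < p := by
    by_contra hp0
    have hp0 : p = 0 := by omega
    have : kp * q = 0 := by rw [hkpq, hp0]; simp
    rcases mul_eq_zero.1 this with h1 | h1
    · exact absurd h1 hkp0.ne'
    · have : q = 0 := by exact_mod_cast h1
      omega
  set X : ℝ := ∑ d ∈ M', ∑ S ∈ Tp d, (F S - F (τ c d S)) ^ 2 with hX
  have hcs : (q * A - p * B) ^ 2 ≤ kp * q * X := by
    have h1 : q * A - p * B = ∑ d ∈ M', ∑ S ∈ Tp d, (F S - F (τ c d S)) := by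
      have : ∑ d ∈ M', ∑ S ∈ Tp d, (F S - F (τ c d S)) =
          ∑ d ∈ M', (∑ S ∈ Tp d, F S - ∑ S ∈ Tp d, F (τ c d S)) :=
        Finset.sum_congr rfl fun d _ => Finset.sum_sub_distrib _ _
      rw [this, Finset.sum_sub_distrib, Finset.sum_congr rfl (fun d hd => hbij d hd F), hTpsum, hTmsum]
    have h2 : ∑ d ∈ M', ∑ S ∈ Tp d, (F S - F (τ c d S)) =
        ∑ z ∈ M'.sigma Tp, (F z.2 - F (τ c z.1 z.2)) := by
      rw [Finset.sum_sigma]
    have h3 : X = ∑ z ∈ M'.sigma Tp, (F z.2 - F (τ c z.1 z.2)) ^ 2 := by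
      rw [hX, Finset.sum_sigma]
    have h4 : ((M'.sigma Tp).card : ℝ) = kp * q := by
      have h5 := hTpsum (fun _ => (1:ℝ))
      have h6 : ((M'.sigma Tp).card : ℝ) = ∑ d ∈ M', ∑ S ∈ Tp d, (1:ℝ) := by
        rw [← Finset.sum_sigma (f := fun z => (1:ℝ))]
        simp
      rw [h6, h5]
      simp only [Finset.sum_const, nsmul_eq_mul, mul_one]
      ring
    rw [h1, h2, h3, ← h4]
    exact sq_sum_le_card_mul_sum_sq
  have hXle : 2 * X ≤ ∑ d ∈ M', ∑ S ∈ κ, (F S - F (τ c d S)) ^ 2 := by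
    rw [hX, Finset.mul_sum]
    refine Finset.sum_le_sum fun d hd => ?_
    have hdm : d ∈ insert c M' := Finset.mem_insert_of_mem hd
    rw [hsum]
    have h1 : ∑ S ∈ Tp d, (F S - F (τ c d S)) ^ 2 ≤ ∑ S ∈ κp, (F S - F (τ c d S)) ^ 2 :=
      Finset.sum_le_sum_of_subset_of_nonneg (Finset.filter_subset _ _) (fun _ _ _ => sq_nonneg _)
    have h2 : ∑ S ∈ Tp d, (F S - F (τ c d S)) ^ 2 = ∑ S ∈ Tm d, (F S - F (τ c d S)) ^ 2 := by
      rw [← hbij d hd]
      refine Finset.sum_congr rfl fun S hS => ?_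
      have hS' : S ∈ κ := (Finset.mem_filter.1 (Finset.mem_filter.1 hS).1).1
      rw [h.invol S hS' c hcm d hdm]
      ring
    have h3 : ∑ S ∈ Tm d, (F S - F (τ c d S)) ^ 2 ≤ ∑ S ∈ κm, (F S - F (τ c d S)) ^ 2 :=
      Finset.sum_le_sum_of_subset_of_nonneg (Finset.filter_subset _ _) (fun _ _ _ => sq_nonneg _)
    linarith
  have hX0 : 0 ≤ X := Finset.sum_nonneg fun _ _ => Finset.sum_nonneg fun _ _ => sq_nonneg _
  have hBA : A ^ 2 / kp + B ^ 2 / km - (A + B) ^ 2 / (kp + km) =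
      (q * A - p * B) ^ 2 / (kp * q * (p + q)) := by
    have hqR : (0:ℝ) < q := by exact_mod_cast hq0
    have hpR : (0:ℝ) < p := by exact_mod_cast hp0
    have h1 : km = kp * q / p := by
      field_simp
      linarith
    rw [h1]
    field_simp
    ring
  have hlhs : A ^ 2 / kp + B ^ 2 / km - (∑ S ∈ κ, F S) ^ 2 / (κ.card : ℝ) =
      (q * A - p * B) ^ 2 / (kp * q * (p + q)) := by
    rw [hsum F, hcard]
    exact hBA
  rw [hlhs]
  have hqR : (1:ℝ) ≤ q := by exact_mod_cast hq0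
  have hpR : (1:ℝ) ≤ p := by exact_mod_cast hp0
  calc (q * A - p * B) ^ 2 / (kp * q * (p + q)) ≤ kp * q * X / (kp * q * (p + q)) := by
        apply div_le_div_of_nonneg_right hcs
        exact mul_nonneg (mul_nonneg hkp0.le (by linarith)) (by linarith)
    _ = X / (p + q) := mul_div_mul_left X _ (mul_ne_zero hkp0.ne' (by
        intro hh
        rw [hh] at hqR
        linarith))
    _ ≤ X / 2 := by
        apply div_le_div_of_nonneg_left hX0 (by norm_num)
        linarith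
    _ ≤ (1/4) * ∑ d ∈ M', ∑ S ∈ κ, (F S - F (τ c d S)) ^ 2 := by
        linarith

lemma john_gap_aux (x : Ω → V → ℤ) (τ : V → V → Ω → Ω) (F : Ω → ℝ) (M : Finset V) :
    ∀ κ : Finset Ω, ExchFam κ M x τ →
    ∑ S ∈ κ, F S ^ 2 - (∑ S ∈ κ, F S) ^ 2 / (κ.card : ℝ) ≤
      (1/8) * ∑ c ∈ M, ∑ d ∈ M.erase c, ∑ S ∈ κ, (F S - F (τ c d S)) ^ 2 := by
  classical
  induction M using Finset.induction_on with
  | empty =>
    intro κ h
    rcases κ.eq_empty_or_nonempty with hk | ⟨S, hS⟩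
    · rw [hk]; simp
    have : κ = {S} := by
      ext T
      rw [Finset.mem_singleton]
      constructor
      · intro hT
        exact h.inj T hT S hS (fun c hc => absurd hc (Finset.notMem_empty c))
      · rintro rfl; exact hS
    rw [this]; simp
  | insert c M' hcM ih =>
    intro κ h
    have hcm : c ∈ insert c M' := Finset.mem_insert_self _ _
    set κp := κ.filter (fun S => x S c = 1) with hκp
    set κm := κ.filter (fun S => x S c = -1) with hκm
    have hdisj : Disjoint κp κm := by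
      rw [Finset.disjoint_left]
      intro S h1 h2
      have h1 := (Finset.mem_filter.1 h1).2
      have h2 := (Finset.mem_filter.1 h2).2
      omega
    have hunion : κ = κp ∪ κm := by
      ext S
      rw [Finset.mem_union, hκp, hκm, Finset.mem_filter, Finset.mem_filter]
      constructor
      · intro hS
        rcases h.val S hS c hcm with h1 | h1
        · left; exact ⟨hS, h1⟩
        · right; exact ⟨hS, h1⟩
      · rintro (h1 | h1) <;> exact h1.1
    have hsum : ∀ f : Ω → ℝ, ∑ S ∈ κ, f S = ∑ S ∈ κp, f S + ∑ S ∈ κm, f S := by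
      intro f
      conv_lhs => rw [hunion]
      exact Finset.sum_union hdisj
    have hIp := ih κp (h.restrict hcM 1)
    have hIm := ih κm (h.restrict hcM (-1))
    -- expand the right hand side
    have hexp : ∑ c' ∈ insert c M', ∑ d ∈ (insert c M').erase c', ∑ S ∈ κ, (F S - F (τ c' d S)) ^ 2 =
        2 * ∑ d ∈ M', ∑ S ∈ κ, (F S - F (τ c d S)) ^ 2 +
        ∑ c' ∈ M', ∑ d ∈ M'.erase c', ∑ S ∈ κ, (F S - F (τ c' d S)) ^ 2 := by
      rw [Finset.sum_insert hcM, Finset.erase_insert hcM]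
      have h1 : ∑ c' ∈ M', ∑ d ∈ (insert c M').erase c', ∑ S ∈ κ, (F S - F (τ c' d S)) ^ 2 =
          ∑ c' ∈ M', (∑ S ∈ κ, (F S - F (τ c c' S)) ^ 2 +
            ∑ d ∈ M'.erase c', ∑ S ∈ κ, (F S - F (τ c' d S)) ^ 2) := by
        refine Finset.sum_congr rfl fun c' hc' => ?_
        have hne : c ≠ c' := fun hh => hcM (hh ▸ hc')
        rw [Finset.erase_insert_of_ne hne, Finset.sum_insert]
        · congr 1
          refine Finset.sum_congr rfl fun S hS => ?_
          rw [h.tau_comm hS (Finset.mem_insert_of_mem hc') hcm]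
        · intro hh
          exact hcM (Finset.mem_of_mem_erase hh)
      rw [h1, Finset.sum_add_distrib]
      ring
    have hsplit : ∑ c' ∈ M', ∑ d ∈ M'.erase c', ∑ S ∈ κ, (F S - F (τ c' d S)) ^ 2 =
        ∑ c' ∈ M', ∑ d ∈ M'.erase c', ∑ S ∈ κp, (F S - F (τ c' d S)) ^ 2 +
        ∑ c' ∈ M', ∑ d ∈ M'.erase c', ∑ S ∈ κm, (F S - F (τ c' d S)) ^ 2 := by
      rw [← Finset.sum_add_distrib]
      refine Finset.sum_congr rfl fun c' _ => ?_
      rw [← Finset.sum_add_distrib]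
      refine Finset.sum_congr rfl fun d _ => ?_
      exact hsum _
    rw [hexp, hsplit]
    have hcross0 : 0 ≤ ∑ d ∈ M', ∑ S ∈ κ, (F S - F (τ c d S)) ^ 2 :=
      Finset.sum_nonneg fun _ _ => Finset.sum_nonneg fun _ _ => sq_nonneg _
    rcases κp.eq_empty_or_nonempty with hkp | hkp
    · have hk : κ = κm := by rw [hunion, hkp, Finset.empty_union]
      have h1 : ∑ S ∈ κ, F S ^ 2 - (∑ S ∈ κ, F S) ^ 2 / (κ.card : ℝ) =
          ∑ S ∈ κm, F S ^ 2 - (∑ S ∈ κm, F S) ^ 2 / (κm.card : ℝ) := by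
        conv_lhs => rw [hk]
      rw [h1]
      have h2 : 0 ≤ ∑ c' ∈ M', ∑ d ∈ M'.erase c', ∑ S ∈ κp, (F S - F (τ c' d S)) ^ 2 :=
        Finset.sum_nonneg fun _ _ => Finset.sum_nonneg fun _ _ => Finset.sum_nonneg fun _ _ => sq_nonneg _
      linarith
    rcases κm.eq_empty_or_nonempty with hkm | hkm
    · have hk : κ = κp := by rw [hunion, hkm, Finset.union_empty]
      have h1 : ∑ S ∈ κ, F S ^ 2 - (∑ S ∈ κ, F S) ^ 2 / (κ.card : ℝ) =
          ∑ S ∈ κp, F S ^ 2 - (∑ S ∈ κp, F S) ^ 2 / (κp.card : ℝ) := by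
        conv_lhs => rw [hk]
      rw [h1]
      have h2 : 0 ≤ ∑ c' ∈ M', ∑ d ∈ M'.erase c', ∑ S ∈ κm, (F S - F (τ c' d S)) ^ 2 :=
        Finset.sum_nonneg fun _ _ => Finset.sum_nonneg fun _ _ => Finset.sum_nonneg fun _ _ => sq_nonneg _
      linarith
    have hb := between hcM h F hkp hkm
    have hsq := hsum (fun S => F S ^ 2)
    rw [hsq]
    linarith

theorem john_gap (h : ExchFam κ M x τ) (F : Ω → ℝ) :
    ∑ S ∈ κ, (F S - (∑ S' ∈ κ, F S') / (κ.card : ℝ)) ^ 2 ≤
      (1/8) * ∑ c ∈ M, ∑ d ∈ M.erase c, ∑ S ∈ κ, (F S - F (τ c d S)) ^ 2 := by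
  rw [var_eq]
  exact john_gap_aux x τ F M κ h

end Crest.Agent.SwGap
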