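import Crest.Agent.SwGap.Sw
import Crest.Agent.SwGap.Johnson

/-! Transfer of the Johnson-scheme inequalities to graphs (task P1 of row S0453). -/

set_option autoImplicit false
open Finset Crest.SwitchChain

namespace Crest.Agent.SwGap

namespace JohnG

variable {n : ℕ}

open scoped Classical in
/-- the free columns -/
noncomputable def MM (a b : Fin n) (G0 : Finset (Edge n)) : Finset (Fin n) :=
  (Out a b).filter fun x => v G0 a x + v G0 b x = 1

/-- the sign -/
noncomputable def xx (a : Fin n) (G : Finset (Edge n)) (c : Fin n) : ℤ := 2 * (v G a c : ℤ) - 1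

lemma mem_MM {a b : Fin n} {G0 : Finset (Edge n)} {c : Fin n} :
    c ∈ MM a b G0 ↔ (c ≠ a ∧ c ≠ b) ∧ v G0 a c + v G0 b c = 1 := by
  simp [MM]

lemma isD_mem {a b c d : Fin n} {G0 G : Finset (Edge n)} (h : RA a b G0 G) (hc : c ∈ Out a b)
    (hd : d ∈ Out a b) (hD : isD a b c d G) : c ∈ MM a b G0 ∧ d ∈ MM a b G0 := by
  obtain ⟨h1, h2, h3⟩ := hD
  have e1 := h.col c hc
  have e2 := h.col d hd
  rw [mem_Out] at hc hd
  constructor
  · rw [mem_MM]; exact ⟨hc, by omega⟩
  · rw [mem_MM]; exact ⟨hd, by omega⟩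

lemma isD_self {a b c : Fin n} {G : Finset (Edge n)} : ¬ isD a b c c G := by
  rintro ⟨h1, h2, h3⟩
  omega

lemma isD_iff {a b c d : Fin n} {G0 G : Finset (Edge n)} (h : RA a b G0 G)
    (hc : c ∈ MM a b G0) (hd : d ∈ MM a b G0) : isD a b c d G ↔ xx a G c ≠ xx a G d := by
  rw [mem_MM] at hc hd
  have e1 := h.col c (mem_Out.2 hc.1)
  have e2 := h.col d (mem_Out.2 hd.1)
  have l1 := v_le G a c
  have l2 := v_le G a d
  unfold isD xx
  constructor
  · rintro ⟨h1, h2, h3⟩ h4
    omega
  · intro h4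
    omega

lemma exch {a b : Fin n} (hab : a ≠ b) (G0 : Finset (Edge n)) :
    ExchFam (cls (RA a b) G0) (MM a b G0) (xx a) (sw a b) where
  val := by
    intro G _ c _
    have := v_le G a c
    unfold xx
    omega
  mem := by
    intro G hG c hc d hd
    rw [mem_cls] at hG ⊢
    by_cases hcd : c = d
    · subst hcd
      unfold sw
      rw [if_neg isD_self]
      exact hG
    · rw [mem_MM] at hc hd
      exact (relO_equiv a b _).trans hG
        (ra_sw hc.1.1.symm hd.1.1.symm hc.1.2.symm hd.1.2.symm hcd G)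
  swap := by
    intro G hG c hc d hd e he
    rw [mem_cls] at hG
    have hD := isD_iff hG hc hd
    have hc' := mem_MM.1 hc
    have hd' := mem_MM.1 hd
    have he' := mem_MM.1 he
    unfold sw
    by_cases h : isD a b c d G
    · rw [if_pos h]
      obtain ⟨t1, t2, t3, t4⟩ := v_tog (G := G) hc'.1.1.symm hd'.1.1.symm hc'.1.2.symm hd'.1.2.symm
      obtain ⟨d1, d2, d3⟩ := h
      have l1 := v_le G a c
      have l2 := v_le G a d
      rcases eq_or_ne e c with rfl | h1
      · rw [Equiv.swap_apply_left]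
        unfold xx
        omega
      · rcases eq_or_ne e d with rfl | h2
        · rw [Equiv.swap_apply_right]
          unfold xx
          omega
        · rw [Equiv.swap_apply_of_ne_of_ne h1 h2]
          unfold xx
          rw [v_tog_off]
          unfold InI
          simp only [mem_insert, mem_singleton]
          rintro (⟨_, g | g⟩ | ⟨g | g, _⟩)
          · exact h1 g
          · exact h2 g
          · exact he'.1.1 g
          · exact he'.1.2 g
    · rw [if_neg h]
      have h' : xx a G c = xx a G d := by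
        by_contra hne
        exact h (hD.2 hne)
      rcases eq_or_ne e c with rfl | h1
      · rw [Equiv.swap_apply_left, h']
      · rcases eq_or_ne e d with rfl | h2
        · rw [Equiv.swap_apply_right, h']
        · rw [Equiv.swap_apply_of_ne_of_ne h1 h2]
  invol := by
    intro G hG c hc d hd
    have hc' := mem_MM.1 hc
    have hd' := mem_MM.1 hd
    exact sw_sw hc'.1.1.symm hd'.1.1.symm hc'.1.2.symm hd'.1.2.symm G
  sum := by
    refine ⟨∑ c ∈ MM a b G0, xx a G0 c, fun G hG => ?_⟩
    rw [mem_cls] at hG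
    have h1 : ∀ G' : Finset (Edge n), ∑ c ∈ MM a b G0, xx a G' c =
        2 * ∑ c ∈ MM a b G0, (v G' a c : ℤ) - ∑ c ∈ MM a b G0, (1 : ℤ) := by
      intro G'
      unfold xx
      rw [sum_sub_distrib, mul_sum]
    rw [h1, h1]
    have h2 : ∀ G', ∑ c ∈ Out a b, v G' a c = ∑ c ∈ MM a b G0, v G' a c +
        ∑ c ∈ (Out a b).filter (fun x => ¬ v G0 a x + v G0 b x = 1), v G' a c := by
      intro G'
      unfold MM
      rw [sum_filter_add_sum_filter_not]
    have h3 := hG.cnt
    rw [h2, h2] at h3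
    have h4 : ∑ c ∈ (Out a b).filter (fun x => ¬ v G0 a x + v G0 b x = 1), v G0 a c =
        ∑ c ∈ (Out a b).filter (fun x => ¬ v G0 a x + v G0 b x = 1), v G a c := by
      refine sum_congr rfl fun c hc => ?_
      rw [mem_filter] at hc
      have e1 := hG.col c hc.1
      have l1 := v_le G a c
      have l2 := v_le G b c
      have l3 := v_le G0 a c
      have l4 := v_le G0 b c
      have := hc.2
      omega
    have h5 : ∑ c ∈ MM a b G0, v G a c = ∑ c ∈ MM a b G0, v G0 a c := by omega
    have h6 : ∑ c ∈ MM a b G0, (v G a c : ℤ) = ∑ c ∈ MM a b G0, (v G0 a c : ℤ) := by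
      exact_mod_cast h5
    rw [h6]
  inj := by
    intro G hG G' hG' h
    rw [mem_cls] at hG hG'
    have key : ∀ c ∈ Out a b, v G a c = v G' a c ∧ v G b c = v G' b c := by
      intro c hc
      have e1 := hG.col c hc
      have e2 := hG'.col c hc
      have l1 := v_le G a c
      have l2 := v_le G b c
      have l3 := v_le G' a c
      have l4 := v_le G' b c
      by_cases hM : c ∈ MM a b G0
      · have := h c hM
        unfold xx at this
        omega
      · have h5 : v G0 a c + v G0 b c ≠ 1 := fun h' => hM (mem_MM.2 ⟨mem_Out.1 hc, h'⟩)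
        omega
    apply ext_v
    intro p q _
    by_cases hI : InI a b (Out a b) p q
    · rcases hI with ⟨rfl | rfl, hq⟩ | ⟨rfl | rfl, hp⟩
      · exact (key q hq).1
      · exact (key q hq).2
      · rw [v_comm G, v_comm G']; exact (key p hp).1
      · rw [v_comm G, v_comm G']; exact (key p hp).2
    · rw [← hG.off p q hI, ← hG'.off p q hI]

/-- reduce a double sum over `Out` to the free columns -/
lemma sum_red {a b : Fin n} (G0 : Finset (Edge n)) (f : Fin n → Fin n → ℝ)
    (hf : ∀ c ∈ Out a b, ∀ d ∈ Out a b, ¬ (c ∈ MM a b G0 ∧ d ∈ MM a b G0) → f c d = 0) :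
    ∑ c ∈ Out a b, ∑ d ∈ (Out a b).erase c, f c d =
      ∑ c ∈ MM a b G0, ∑ d ∈ (MM a b G0).erase c, f c d := by
  have hsub : MM a b G0 ⊆ Out a b := filter_subset _ _
  rw [← sum_subset hsub]
  · refine sum_congr rfl fun c hc => ?_
    rw [← sum_subset (erase_subset_erase c hsub)]
    intro d hd hd'
    refine hf c (hsub hc) d (mem_of_mem_erase hd) fun h => hd' ?_
    exact mem_erase.2 ⟨ne_of_mem_erase hd, h.2⟩
  · intro c hc hc'
    refine sum_eq_zero fun d hd => ?_
    exact hf c hc d (mem_of_mem_erase hd) fun h => hc' h.1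

lemma sw_id {a b c d : Fin n} {G0 G : Finset (Edge n)} (h : RA a b G0 G) (hc : c ∈ Out a b)
    (hd : d ∈ Out a b) (hn : ¬ (c ∈ MM a b G0 ∧ d ∈ MM a b G0)) : sw a b c d G = G := by
  unfold sw
  rw [if_neg fun hD => hn (isD_mem h hc hd hD)]

end JohnG

open JohnG

variable {n : ℕ}

theorem john_graph {a b : Fin n} (hab : a ≠ b) (F : Finset (Edge n) → ℝ) :
    ∑ c ∈ Out a b, ∑ d ∈ (Out a b).erase c, errT a b c d F ≤
      (1/4) * ∑ c ∈ Out a b, ∑ d ∈ (Out a b).erase c, ∑ G, (F G - F (sw a b c d G))^2 := by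
  classical
  have hE := relO_equiv a b (Out a b)
  have h0 := sum_nonneg_of_class hE
    (fun G => (1/4) * ∑ c ∈ Out a b, ∑ d ∈ (Out a b).erase c, (F G - F (sw a b c d G))^2 -
      ∑ c ∈ Out a b, ∑ d ∈ (Out a b).erase c,
        (if isD a b c d G then (DA a b c d F G - avg (RA a b) F G)^2 else 0)) (by
    intro G0
    rw [sum_sub_distrib, sub_nonneg, ← mul_sum]
    have hJ := john_J (exch hab G0) F
    have e1 : ∑ y ∈ cls (RA a b) G0, ∑ c ∈ Out a b, ∑ d ∈ (Out a b).erase c,
        (F y - F (sw a b c d y))^2 = ∑ c ∈ MM a b G0, ∑ d ∈ (MM a b G0).erase c,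
        ∑ S ∈ cls (RA a b) G0, (F S - F (sw a b c d S)) ^ 2 := by
      rw [sum_comm]
      simp_rw [sum_comm (s := cls (RA a b) G0)]
      refine sum_red G0 _ fun c hc d hd hn => sum_eq_zero fun y hy => ?_
      rw [sw_id (mem_cls.1 hy) hc hd hn]
      ring
    have e2 : ∑ y ∈ cls (RA a b) G0, ∑ c ∈ Out a b, ∑ d ∈ (Out a b).erase c,
        (if isD a b c d y then (DA a b c d F y - avg (RA a b) F y)^2 else 0) =
        ∑ c ∈ MM a b G0, ∑ d ∈ (MM a b G0).erase c,
          ∑ S ∈ (cls (RA a b) G0).filter (fun S => xx a S c ≠ xx a S d),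
          ((∑ S' ∈ (cls (RA a b) G0).filter (fun S' => xx a S' c ≠ xx a S' d), F S') /
            (((cls (RA a b) G0).filter (fun S' => xx a S' c ≠ xx a S' d)).card : ℝ) -
            (∑ S' ∈ cls (RA a b) G0, F S') / ((cls (RA a b) G0).card : ℝ)) ^ 2 := by
      rw [sum_comm]
      simp_rw [sum_comm (s := cls (RA a b) G0)]
      rw [sum_red G0]
      · refine sum_congr rfl fun c hc => sum_congr rfl fun d hd => ?_
        have hd' := mem_of_mem_erase hd
        rw [← sum_filter]
        have hfil : (cls (RA a b) G0).filter (fun G' => isD a b c d G') =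
            (cls (RA a b) G0).filter (fun S => xx a S c ≠ xx a S d) :=
          filter_congr fun G hG => isD_iff (mem_cls.1 hG) hc hd'
        rw [hfil]
        refine sum_congr rfl fun G hG => ?_
        have hG' := mem_cls.1 (mem_filter.1 hG).1
        unfold DA avg
        rw [← cls_eq hE hG', hfil]
      · intro c hc d hd hn
        refine sum_eq_zero fun y hy => ?_
        rw [if_neg fun hD => hn (isD_mem (mem_cls.1 hy) hc hd hD)]
    rw [e1, e2]
    exact hJ)
  rw [sum_sub_distrib, sub_nonneg, ← mul_sum] at h0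
  have e1 : ∑ c ∈ Out a b, ∑ d ∈ (Out a b).erase c, ∑ G, (F G - F (sw a b c d G))^2 =
      ∑ G, ∑ c ∈ Out a b, ∑ d ∈ (Out a b).erase c, (F G - F (sw a b c d G))^2 := by
    rw [sum_comm (s := (univ : Finset (Finset (Edge n))))]
    refine sum_congr rfl fun c _ => ?_
    rw [sum_comm]
  have e2 : ∑ c ∈ Out a b, ∑ d ∈ (Out a b).erase c, errT a b c d F =
      ∑ G, ∑ c ∈ Out a b, ∑ d ∈ (Out a b).erase c,
        (if isD a b c d G then (DA a b c d F G - avg (RA a b) F G)^2 else 0) := by
    rw [sum_comm (s := (univ : Finset (Finset (Edge n))))]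
    refine sum_congr rfl fun c _ => ?_
    rw [sum_comm]
    refine sum_congr rfl fun d _ => ?_
    unfold errT
    rw [sum_filter]
  rw [e1, e2]
  exact h0

theorem john_graph_gap {a b : Fin n} (hab : a ≠ b) (F : Finset (Edge n) → ℝ) :
    ip (F - avg (RA a b) F) (F - avg (RA a b) F) ≤
      (1/8) * ∑ c ∈ Out a b, ∑ d ∈ (Out a b).erase c, ∑ G, (F G - F (sw a b c d G))^2 := by
  classical
  have hE := relO_equiv a b (Out a b)
  have h0 := sum_nonneg_of_class hE
    (fun G => (1/8) * ∑ c ∈ Out a b, ∑ d ∈ (Out a b).erase c, (F G - F (sw a b c d G))^2 -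
      (F G - avg (RA a b) F G)^2) (by
    intro G0
    rw [sum_sub_distrib, sub_nonneg, ← mul_sum]
    have hJ := john_gap (exch hab G0) F
    have e1 : ∑ y ∈ cls (RA a b) G0, ∑ c ∈ Out a b, ∑ d ∈ (Out a b).erase c,
        (F y - F (sw a b c d y))^2 = ∑ c ∈ MM a b G0, ∑ d ∈ (MM a b G0).erase c,
        ∑ S ∈ cls (RA a b) G0, (F S - F (sw a b c d S)) ^ 2 := by
      rw [sum_comm]
      simp_rw [sum_comm (s := cls (RA a b) G0)]
      refine sum_red G0 _ fun c hc d hd hn => sum_eq_zero fun y hy => ?_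
      rw [sw_id (mem_cls.1 hy) hc hd hn]
      ring
    have e2 : ∑ y ∈ cls (RA a b) G0, (F y - avg (RA a b) F y)^2 =
        ∑ S ∈ cls (RA a b) G0, (F S - (∑ S' ∈ cls (RA a b) G0, F S') /
          ((cls (RA a b) G0).card : ℝ)) ^ 2 := by
      refine sum_congr rfl fun G hG => ?_
      unfold avg
      rw [← cls_eq hE (mem_cls.1 hG)]
    rw [e1, e2]
    exact hJ)
  rw [sum_sub_distrib, sub_nonneg, ← mul_sum] at h0
  have e1 : ∑ c ∈ Out a b, ∑ d ∈ (Out a b).erase c, ∑ G, (F G - F (sw a b c d G))^2 =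
      ∑ G, ∑ c ∈ Out a b, ∑ d ∈ (Out a b).erase c, (F G - F (sw a b c d G))^2 := by
    rw [sum_comm (s := (univ : Finset (Finset (Edge n))))]
    refine sum_congr rfl fun c _ => ?_
    rw [sum_comm]
  rw [e1]
  refine le_trans (le_of_eq ?_) h0
  unfold ip
  refine sum_congr rfl fun G _ => ?_
  simp only [Pi.sub_apply]
  ring

end Crest.Agent.SwGap
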