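import Mathlib
import Crest.Prelude.Def_SwitchChain

/-! Adjacency for graphs represented as `Finset (Edge n)`. -/

set_option autoImplicit false
open Finset Crest.SwitchChain

namespace Crest.Agent.SwGap

variable {n : ℕ}

def Adj (G : Finset (Edge n)) (x y : Fin n) : Prop :=
  ∃ h : ¬ (s(x,y) : Sym2 (Fin n)).IsDiag, (⟨s(x,y), h⟩ : Edge n) ∈ G

lemma Adj.symm {G : Finset (Edge n)} {x y : Fin n} (h : Adj G x y) : Adj G y x := by
  obtain ⟨h1, h2⟩ := h
  have e : (s(x,y) : Sym2 (Fin n)) = s(y,x) := Sym2.eq_swap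
  refine ⟨e ▸ h1, ?_⟩
  convert h2 using 2
  exact e.symm

lemma adj_comm {G : Finset (Edge n)} {x y : Fin n} : Adj G x y ↔ Adj G y x :=
  ⟨Adj.symm, Adj.symm⟩

lemma Adj.ne {G : Finset (Edge n)} {x y : Fin n} (h : Adj G x y) : x ≠ y := by
  obtain ⟨h1, _⟩ := h
  simpa using h1

@[simp] lemma not_adj_self {G : Finset (Edge n)} {x : Fin n} : ¬ Adj G x x := fun h => h.ne rfl

lemma ext_adj {G G' : Finset (Edge n)} (h : ∀ x y, x ≠ y → (Adj G x y ↔ Adj G' x y)) : G = G' := by
  ext ⟨e, he⟩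
  induction e using Sym2.ind with
  | _ x y =>
    have hxy : x ≠ y := by simpa using he
    have := h x y hxy
    constructor
    · intro hG
      obtain ⟨_, h2⟩ := this.mp ⟨he, hG⟩
      exact h2
    · intro hG
      obtain ⟨_, h2⟩ := this.mpr ⟨he, hG⟩
      exact h2

open scoped Classical in
/-- build a graph from a (symmetric) relation -/
noncomputable def ofAdj (P : Fin n → Fin n → Prop) : Finset (Edge n) :=
  univ.filter fun e => ∃ x y, e.1 = s(x,y) ∧ P x y

lemma adj_ofAdj {P : Fin n → Fin n → Prop} (hP : ∀ x y, P x y → P y x) {x y : Fin n} :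
    Adj (ofAdj P) x y ↔ x ≠ y ∧ P x y := by
  constructor
  · intro h
    refine ⟨h.ne, ?_⟩
    obtain ⟨h1, h2⟩ := h
    simp only [ofAdj, mem_filter, mem_univ, true_and] at h2
    obtain ⟨u, v, huv, hP'⟩ := h2
    rcases Sym2.eq_iff.mp huv with ⟨rfl, rfl⟩ | ⟨rfl, rfl⟩
    · exact hP'
    · exact hP _ _ hP'
  · rintro ⟨hne, h⟩
    refine ⟨by simpa using hne, ?_⟩
    simp only [ofAdj, mem_filter, mem_univ, true_and]
    exact ⟨x, y, rfl, h⟩

open scoped Classical in
lemma deg_eq (G : Finset (Edge n)) (v : Fin n) : deg G v = (univ.filter fun x => Adj G v x).card := by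
  symm
  unfold deg
  refine card_bij (fun x hx => ⟨s(v,x), (by
      simp only [mem_filter, mem_univ, true_and] at hx
      exact hx.1)⟩) ?_ ?_ ?_
  · intro x hx
    simp only [mem_filter, mem_univ, true_and] at hx
    obtain ⟨h1, h2⟩ := hx
    simp only [mem_filter]
    exact ⟨h2, by simp⟩
  · intro x hx y hy hxy
    have : (s(v,x) : Sym2 (Fin n)) = s(v,y) := congrArg Subtype.val hxy
    rcases Sym2.eq_iff.mp this with ⟨_, h⟩ | ⟨h1, h2⟩
    · exact h
    · rw [h2, h1]
  · rintro ⟨e, he⟩ hb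
    simp only [mem_filter] at hb
    obtain ⟨x, rfl⟩ := Sym2.mem_iff_exists.mp hb.2
    exact ⟨x, by simp only [mem_filter, mem_univ, true_and]; exact ⟨he, hb.1⟩, rfl⟩

lemma mem_realizations {d : Fin n → ℕ} {G : Finset (Edge n)} :
    G ∈ realizations d ↔ ∀ v, deg G v = d v := by
  simp [realizations]

end Crest.Agent.SwGap
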