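import Mathlib

/-! Averaging operators over the classes of an equivalence relation on a finite type. -/

set_option autoImplicit false
open Finset

namespace Crest.Agent.SwGap

section Avg

variable {Ω : Type*} [Fintype Ω]

open scoped Classical in
/-- the class of `x` -/
noncomputable def cls (r : Ω → Ω → Prop) (x : Ω) : Finset Ω := univ.filter (fun y => r x y)

/-- average over the class -/
noncomputable def avg (r : Ω → Ω → Prop) (F : Ω → ℝ) (x : Ω) : ℝ :=
  (∑ y ∈ cls r x, F y) / ((cls r x).card : ℝ)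

/-- inner product -/
def ip (f g : Ω → ℝ) : ℝ := ∑ x, f x * g x

@[simp] lemma mem_cls {r : Ω → Ω → Prop} {x y : Ω} : y ∈ cls r x ↔ r x y := by
  simp [cls]

lemma cls_eq {r : Ω → Ω → Prop} (hr : Equivalence r) {x y : Ω} (h : r x y) : cls r x = cls r y := by
  ext z; simp only [mem_cls]
  exact ⟨fun hz => hr.trans (hr.symm h) hz, fun hz => hr.trans h hz⟩

lemma cls_card_pos {r : Ω → Ω → Prop} (hr : Equivalence r) (x : Ω) : 0 < ((cls r x).card : ℝ) := by
  have : x ∈ cls r x := by simp [hr.refl x]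
  exact_mod_cast card_pos.mpr ⟨x, this⟩

lemma avg_congr {r : Ω → Ω → Prop} (hr : Equivalence r) (F : Ω → ℝ) {x y : Ω} (h : r x y) :
    avg r F x = avg r F y := by
  unfold avg; rw [cls_eq hr h]

lemma avg_fix {r : Ω → Ω → Prop} (hr : Equivalence r) {F : Ω → ℝ} {x : Ω} (h : ∀ y, r x y → F y = F x) :
    avg r F x = F x := by
  unfold avg
  rw [sum_congr rfl (fun y hy => h y (mem_cls.mp hy)), sum_const, nsmul_eq_mul,
    mul_div_assoc, mul_comm, div_mul_cancel₀]
  exact (cls_card_pos hr x).ne'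

lemma avg_add (r : Ω → Ω → Prop) (F G : Ω → ℝ) : avg r (F + G) = avg r F + avg r G := by
  funext x; simp [avg, sum_add_distrib, add_div]

lemma avg_smul (r : Ω → Ω → Prop) (c : ℝ) (F : Ω → ℝ) : avg r (c • F) = c • avg r F := by
  funext x; simp [avg, ← mul_sum, mul_div_assoc]

/-- averaging as a linear map -/
noncomputable def avgL (r : Ω → Ω → Prop) : Module.End ℝ (Ω → ℝ) where
  toFun := avg r
  map_add' := avg_add r
  map_smul' := avg_smul r

@[simp] lemma avgL_apply (r : Ω → Ω → Prop) (F : Ω → ℝ) : avgL r F = avg r F := rfl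

/-- self-adjointness -/
lemma avg_ip {r : Ω → Ω → Prop} (hr : Equivalence r) (F G : Ω → ℝ) :
    ip (avg r F) G = ip F (avg r G) := by
  classical
  unfold ip avg
  have h1 : ∀ x, (∑ y ∈ cls r x, F y) / ((cls r x).card : ℝ) * G x
      = ∑ y, if r x y then F y * G x / ((cls r x).card : ℝ) else 0 := by
    intro x
    rw [← sum_filter, sum_div, sum_mul]
    apply sum_congr
    · ext; simp
    · intros; ring
  have h2 : ∀ x, F x * ((∑ y ∈ cls r x, G y) / ((cls r x).card : ℝ))
      = ∑ y, if r x y then F x * G y / ((cls r x).card : ℝ) else 0 := by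
    intro x
    rw [← sum_filter, sum_div, mul_sum]
    apply sum_congr
    · ext; simp
    · intros; ring
  simp_rw [h1, h2]
  rw [sum_comm]
  apply sum_congr rfl; intro x _
  apply sum_congr rfl; intro y _
  by_cases h : r x y
  · rw [if_pos h, if_pos (hr.symm h), cls_eq hr h]
  · rw [if_neg h, if_neg (fun h' => h (hr.symm h'))]

/-- tower: if `s ≤ r`, averaging over `s` then `r` is averaging over `r` -/
lemma avg_avg_of_le {r s : Ω → Ω → Prop} (hr : Equivalence r) (hs : Equivalence s)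
    (h : ∀ x y, s x y → r x y) (F : Ω → ℝ) : avg s (avg r F) = avg r F := by
  funext x
  exact avg_fix hs (fun y hy => (avg_congr hr F (h x y hy)).symm)

lemma ip_comm (f g : Ω → ℝ) : ip f g = ip g f := by
  unfold ip; exact sum_congr rfl (fun _ _ => mul_comm _ _)

lemma ip_ext {f g : Ω → ℝ} (h : ∀ k, ip f k = ip g k) : f = g := by
  classical
  funext x
  have := h (fun y => if y = x then 1 else 0)
  simpa [ip] using this

lemma avg_avg_of_le' {r s : Ω → Ω → Prop} (hr : Equivalence r) (hs : Equivalence s)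
    (h : ∀ x y, s x y → r x y) (F : Ω → ℝ) : avg r (avg s F) = avg r F := by
  apply ip_ext; intro k
  rw [avg_ip hr, avg_ip hs, avg_avg_of_le hr hs h, avg_ip hr]

lemma ip_add_left (f g h : Ω → ℝ) : ip (f + g) h = ip f h + ip g h := by
  simp [ip, add_mul, sum_add_distrib]
lemma ip_sub_left (f g h : Ω → ℝ) : ip (f - g) h = ip f h - ip g h := by
  simp [ip, sub_mul, sum_sub_distrib]
lemma ip_add_right (f g h : Ω → ℝ) : ip f (g + h) = ip f g + ip f h := by
  simp [ip, mul_add, sum_add_distrib]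
lemma ip_sub_right (f g h : Ω → ℝ) : ip f (g - h) = ip f g - ip f h := by
  simp [ip, mul_sub, sum_sub_distrib]
lemma ip_self_nonneg (f : Ω → ℝ) : 0 ≤ ip f f := sum_nonneg (fun _ _ => mul_self_nonneg _)

/-- sum over everything through classes -/
lemma sum_avg {r : Ω → Ω → Prop} (hr : Equivalence r) (Φ : Ω → ℝ) : ∑ x, avg r Φ x = ∑ x, Φ x := by
  have := avg_ip hr Φ (fun _ => 1)
  have h1 : avg r (fun _ : Ω => (1:ℝ)) = fun _ => 1 := by
    funext x; exact avg_fix hr (fun _ _ => rfl)
  rw [h1] at this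
  simpa [ip] using this

lemma sum_nonneg_of_class {r : Ω → Ω → Prop} (hr : Equivalence r) (Φ : Ω → ℝ)
    (h : ∀ x, 0 ≤ ∑ y ∈ cls r x, Φ y) : 0 ≤ ∑ x, Φ x := by
  rw [← sum_avg hr]
  exact sum_nonneg (fun x _ => div_nonneg (h x) (Nat.cast_nonneg _))

/-- the rectangle property -/
def RectProp (r s : Ω → Ω → Prop) : Prop :=
  ∀ x y z, r x y → s x z → ∃! w, s y w ∧ r z w

lemma avg_comm {r s : Ω → Ω → Prop} (hr : Equivalence r) (hs : Equivalence s)
    (hq : RectProp r s) (F : Ω → ℝ) : avg r (avg s F) = avg s (avg r F) := by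
  classical
  -- card of s-class constant along r
  have key : ∀ (r s : Ω → Ω → Prop), Equivalence r → Equivalence s → RectProp r s → ∀ x y, r x y →
      ∀ Φ : Ω → ℝ, ∃ e : Ω → Ω, (∀ z ∈ cls s x, e z ∈ cls s y) ∧ (Set.InjOn e (cls s x)) ∧
        (∀ w ∈ cls s y, ∃ z ∈ cls s x, e z = w) ∧ (∀ z ∈ cls s x, r z (e z)) := by
    intro r s hr hs hq x y hxy Φ
    choose! e he using fun z (hz : s x z) => (hq x y z hxy hz)
    refine ⟨e, fun z hz => by simpa using (he z (mem_cls.mp hz)).1.1, ?_, ?_, fun z hz => (he z (mem_cls.mp hz)).1.2⟩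
    · intro z1 h1 z2 h2 h12
      simp only [Finset.mem_coe, mem_cls] at h1 h2
      have a1 := (he z1 h1).1
      have a2 := (he z2 h2).1
      rw [← h12] at a2
      -- rectangle at y with x (r y x) and w (s y w)
      obtain ⟨u, hu, huu⟩ := hq y x (e z1) (hr.symm hxy) a1.1
      have e1 := huu z1 ⟨h1, hr.symm a1.2⟩
      have e2 := huu z2 ⟨h2, hr.symm a2.2⟩
      rw [e1, e2]
    · intro w hw
      obtain ⟨u, hu, _⟩ := hq y x w (hr.symm hxy) (mem_cls.mp hw)
      refine ⟨u, by simpa using hu.1, ?_⟩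
      have := (he u hu.1).2 w ⟨mem_cls.mp hw, hr.symm hu.2⟩
      exact this.symm
  funext x
  -- both sides equal double sums
  have cardS : ∀ y, r x y → (cls s y).card = (cls s x).card := by
    intro y hxy
    obtain ⟨e, h1, h2, h3, _⟩ := key r s hr hs hq x y hxy (fun _ => 0)
    exact (card_bij (fun z _ => e z) h1 (fun a ha b hb hab => h2 ha hb hab)
      (fun w hw => by obtain ⟨z, hz, hzw⟩ := h3 w hw; exact ⟨z, hz, hzw⟩)).symm
  have hq' : RectProp s r := by
    intro x y z hxy hxz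
    obtain ⟨w, hw, huw⟩ := hq x z y hxz hxy
    exact ⟨w, ⟨hw.2, hw.1⟩, fun v hv => huw v ⟨hv.2, hv.1⟩⟩
  have cardR : ∀ z, s x z → (cls r z).card = (cls r x).card := by
    intro z hxz
    obtain ⟨e, h1, h2, h3, _⟩ := key s r hs hr hq' x z hxz (fun _ => 0)
    exact (card_bij (fun z _ => e z) h1 (fun a ha b hb hab => h2 ha hb hab)
      (fun w hw => by obtain ⟨z, hz, hzw⟩ := h3 w hw; exact ⟨z, hz, hzw⟩)).symm
  choose! W hW using fun y (hy : r x y) z (hz : s x z) => (hq x y z hy hz)
  have L : avg r (avg s F) x = (∑ y ∈ cls r x, ∑ z ∈ cls s x, F (W y z)) /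
      (((cls s x).card : ℝ) * ((cls r x).card : ℝ)) := by
    have h1 : ∀ y ∈ cls r x, avg s F y = (∑ z ∈ cls s x, F (W y z)) / ((cls s x).card : ℝ) := by
      intro y hy
      have hy' := mem_cls.mp hy
      unfold avg
      rw [cardS y hy']
      congr 1
      symm
      refine sum_bij (fun z _ => W y z) ?_ ?_ ?_ (fun _ _ => rfl)
      · intro z hz; simpa using (hW y hy' z (mem_cls.mp hz)).1.1
      · intro z1 h1 z2 h2 h12
        simp only [mem_cls] at h1 h2
        have a1 := (hW y hy' z1 h1).1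
        have a2 := (hW y hy' z2 h2).1
        rw [← h12] at a2
        obtain ⟨u, hu, huu⟩ := hq y x (W y z1) (hr.symm hy') a1.1
        have e1 := huu z1 ⟨h1, hr.symm a1.2⟩
        have e2 := huu z2 ⟨h2, hr.symm a2.2⟩
        rw [e1, e2]
      · intro w hw
        obtain ⟨u, hu, _⟩ := hq y x w (hr.symm hy') (mem_cls.mp hw)
        refine ⟨u, by simpa using hu.1, ?_⟩
        exact ((hW y hy' u hu.1).2 w ⟨mem_cls.mp hw, hr.symm hu.2⟩).symm
    unfold avg at h1 ⊢
    rw [sum_congr rfl h1, ← sum_div, div_div]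
  have R : avg s (avg r F) x = (∑ y ∈ cls r x, ∑ z ∈ cls s x, F (W y z)) /
      (((cls s x).card : ℝ) * ((cls r x).card : ℝ)) := by
    have h1 : ∀ z ∈ cls s x, avg r F z = (∑ y ∈ cls r x, F (W y z)) / ((cls r x).card : ℝ) := by
      intro z hz
      have hz' := mem_cls.mp hz
      unfold avg
      rw [cardR z hz']
      congr 1
      symm
      refine sum_bij (fun y _ => W y z) ?_ ?_ ?_ (fun _ _ => rfl)
      · intro y hy; simpa using (hW y (mem_cls.mp hy) z hz').1.2
      · intro y1 h1 y2 h2 h12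
        simp only [mem_cls] at h1 h2
        have a1 := (hW y1 h1 z hz').1
        have a2 := (hW y2 h2 z hz').1
        rw [← h12] at a2
        -- rectangle for s r at z, x, W
        obtain ⟨u, hu, huu⟩ := hq' z x (W y1 z) (hs.symm hz') a1.2
        have e1 := huu y1 ⟨h1, hs.symm a1.1⟩
        have e2 := huu y2 ⟨h2, hs.symm a2.1⟩
        rw [e1, e2]
      · intro w hw
        obtain ⟨u, hu, _⟩ := hq' z x w (hs.symm hz') (mem_cls.mp hw)
        refine ⟨u, by simpa using hu.1, ?_⟩
        exact ((hW u hu.1 z hz').2 w ⟨hs.symm hu.2, mem_cls.mp hw⟩).symm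
    unfold avg at h1 ⊢
    rw [sum_congr rfl h1, ← sum_div, div_div, sum_comm, mul_comm]
  rw [L, R]

end Avg

end Crest.Agent.SwGap
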