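import Crest.Agent.SwGap.Adj

/-! Elementary facts on the kernel of the switch chain. -/

set_option autoImplicit false
open Finset Crest.SwitchChain

namespace Crest.Agent.SwGap

variable {n : ℕ}

lemma switch_symm {E E' F F' : Finset (Edge n)} (hne : E ≠ E') (h : switchResult E F F' = E') :
    switchResult E' F' F = E := by
  unfold switchResult at h
  split_ifs at h with h1
  · obtain ⟨h2, h3⟩ := h1
    subst h
    have h4 : F' ⊆ E \ F ∪ F' := subset_union_right
    have h5 : Disjoint F (E \ F ∪ F') := by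
      rw [disjoint_union_right]
      exact ⟨disjoint_sdiff, (h3.mono_right h2).symm⟩
    unfold switchResult
    rw [if_pos ⟨h4, h5⟩]
    ext e
    have h6 : e ∈ F → e ∈ E := fun h => h2 h
    have h7 : e ∈ F' → e ∉ E := fun h => disjoint_left.mp h3 h
    simp only [mem_union, mem_sdiff]
    tauto
  · exact absurd h hne

lemma switch_iff {E E' F F' : Finset (Edge n)} (hne : E ≠ E') :
    switchResult E F F' = E' ↔ switchResult E' F' F = E :=
  ⟨switch_symm hne, switch_symm hne.symm⟩

lemma sum_pairs_comm {α : Type*} [DecidableEq α] {M : Type*} [AddCommMonoid M] (s : Finset α)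
    (g : α → α → M) :
    ∑ a ∈ s, ∑ b ∈ s.erase a, g a b = ∑ a ∈ s, ∑ b ∈ s.erase a, g b a := by
  have h1 : ∀ g : α → α → M, ∑ a ∈ s, ∑ b ∈ s.erase a, g a b =
      ∑ a ∈ s, ∑ b ∈ s, if b ≠ a then g a b else 0 := by
    intro g
    refine sum_congr rfl fun a ha => ?_
    rw [← sum_filter]
    refine sum_congr ?_ fun _ _ => rfl
    ext b; simp [and_comm]
  rw [h1, h1, sum_comm]
  refine sum_congr rfl fun a _ => sum_congr rfl fun b _ => ?_
  by_cases h : a = b
  · subst h; simp
  · simp [h, Ne.symm h]

lemma proposalCount_symm (E E' : Finset (Edge n)) : proposalCount E E' = proposalCount E' E := by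
  by_cases hne : E = E'
  · rw [hne]
  · unfold proposalCount
    refine sum_congr rfl fun S _ => ?_
    rw [sum_pairs_comm]
    refine sum_congr rfl fun F _ => sum_congr rfl fun F' _ => ?_
    simp only [switch_iff (F := F') (F' := F) hne]

/-- (K1) -/
theorem kernel_symm (E E' : Finset (Edge n)) : kernel n E E' = kernel n E' E := by
  unfold kernel
  rw [proposalCount_symm]
  simp only [eq_comm]

/-! ### perfect matchings of a four-set -/

lemma mem_pmSet {S : Finset (Fin n)} {F : Finset (Edge n)} :
    F ∈ pmSet S ↔ F.card = 2 ∧ (∀ e ∈ F, ∀ v : Fin n, v ∈ e.1 → v ∈ S) ∧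
      ∀ v ∈ S, (F.filter fun e => v ∈ e.1).card = 1 := by
  simp [pmSet]

/-- the edge `xy` -/
def ed (x y : Fin n) (h : x ≠ y) : Edge n := ⟨s(x, y), by simpa using h⟩

lemma ed_eq {x y u w : Fin n} {h : x ≠ y} {h' : u ≠ w} :
    ed x y h = ed u w h' ↔ (x = u ∧ y = w) ∨ (x = w ∧ y = u) := by
  unfold ed
  rw [Subtype.mk.injEq, Sym2.eq_iff]

lemma ed_comm {x y : Fin n} (h : x ≠ y) : ed x y h = ed y x h.symm :=
  Subtype.ext Sym2.eq_swap

lemma mem_ed {x y u : Fin n} {h : x ≠ y} : u ∈ (ed x y h).1 ↔ u = x ∨ u = y := by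
  unfold ed; exact Sym2.mem_iff

lemma adj_iff_ed {G : Finset (Edge n)} {x y : Fin n} (h : x ≠ y) : Adj G x y ↔ ed x y h ∈ G := by
  unfold Adj ed
  constructor
  · rintro ⟨h1, h2⟩; exact h2
  · intro h2; exact ⟨_, h2⟩

lemma exists_ed (e : Edge n) : ∃ x y, ∃ h : x ≠ y, e = ed x y h := by
  obtain ⟨e, he⟩ := e
  induction e using Sym2.ind with
  | _ x y => exact ⟨x, y, by simpa using he, rfl⟩

lemma pm_mem {a b c d : Fin n} (hab : a ≠ b) (hac : a ≠ c) (had : a ≠ d) (hbc : b ≠ c)
    (hbd : b ≠ d) (hcd : c ≠ d) : {ed a b hab, ed c d hcd} ∈ pmSet ({a, b, c, d} : Finset (Fin n)) := by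
  rw [mem_pmSet]
  refine ⟨?_, ?_, ?_⟩
  · rw [card_pair]
    rw [Ne, ed_eq]; tauto
  · intro e he v hv
    simp only [mem_insert, mem_singleton] at he
    rcases he with rfl | rfl <;> rw [mem_ed] at hv <;> simp only [mem_insert, mem_singleton] <;> tauto
  · intro v hv
    simp only [mem_insert, mem_singleton] at hv
    rw [card_eq_one]
    rcases hv with rfl | rfl | rfl | rfl
    · exact ⟨ed v b hab, by
        ext e; simp only [mem_filter, mem_insert, mem_singleton]
        constructor
        · rintro ⟨rfl | rfl, h⟩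
          · rfl
          · rw [mem_ed] at h; tauto
        · rintro rfl; exact ⟨Or.inl rfl, by rw [mem_ed]; tauto⟩⟩
    · exact ⟨ed a v hab, by
        ext e; simp only [mem_filter, mem_insert, mem_singleton]
        constructor
        · rintro ⟨rfl | rfl, h⟩
          · rfl
          · rw [mem_ed] at h; tauto
        · rintro rfl; exact ⟨Or.inl rfl, by rw [mem_ed]; tauto⟩⟩
    · exact ⟨ed v d hcd, by
        ext e; simp only [mem_filter, mem_insert, mem_singleton]
        constructor
        · rintro ⟨rfl | rfl, h⟩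
          · rw [mem_ed] at h; exfalso; rcases h with h | h <;> [exact hac h.symm; exact hbc h.symm]
          · rfl
        · rintro rfl; exact ⟨Or.inr rfl, by rw [mem_ed]; tauto⟩⟩
    · exact ⟨ed c v hcd, by
        ext e; simp only [mem_filter, mem_insert, mem_singleton]
        constructor
        · rintro ⟨rfl | rfl, h⟩
          · rw [mem_ed] at h; exfalso; rcases h with h | h <;> [exact had h.symm; exact hbd h.symm]
          · rfl
        · rintro rfl; exact ⟨Or.inr rfl, by rw [mem_ed]; tauto⟩⟩

set_option maxHeartbeats 800000 in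
lemma pmSet_eq {a b c d : Fin n} (hab : a ≠ b) (hac : a ≠ c) (had : a ≠ d) (hbc : b ≠ c)
    (hbd : b ≠ d) (hcd : c ≠ d) : pmSet ({a, b, c, d} : Finset (Fin n)) =
      {{ed a b hab, ed c d hcd}, {ed a c hac, ed b d hbd}, {ed a d had, ed b c hbc}} := by
  ext F
  simp only [mem_insert, mem_singleton]
  constructor
  · intro hF
    rw [mem_pmSet] at hF
    obtain ⟨h2, hS, h1⟩ := hF
    obtain ⟨e, he⟩ := card_eq_one.mp (h1 a (by simp))
    have heF : e ∈ F ∧ a ∈ e.1 := by
      have : e ∈ F.filter fun e => a ∈ e.1 := by rw [he]; simp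
      simpa using this
    obtain ⟨e', he'⟩ := card_eq_one.mp (show (F.erase e).card = 1 by
      rw [card_erase_of_mem heF.1, h2])
    have he'F : e' ≠ e ∧ e' ∈ F := by
      have : e' ∈ F.erase e := by rw [he']; simp
      simpa using this
    have hFe : F = {e, e'} := by
      rw [← insert_erase heF.1, he']
    obtain ⟨x, hx⟩ := Sym2.mem_iff_exists.mp heF.2
    have hax : a ≠ x := by
      intro h; subst h
      exact e.2 (by rw [hx]; simp)
    have hex : e = ed a x hax := Subtype.ext hx
    have hxS : x ∈ ({a, b, c, d} : Finset (Fin n)) := hS e heF.1 x (by rw [hx]; simp)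
    have hane' : a ∉ e'.1 := by
      intro h
      have : e' ∈ F.filter fun e => a ∈ e.1 := by simp [he'F.2, h]
      rw [he] at this
      exact he'F.1 (by simpa using this)
    have hxne' : x ∉ e'.1 := by
      intro h
      obtain ⟨e'', he''⟩ := card_eq_one.mp (h1 x hxS)
      have i1 : e' ∈ F.filter fun e => x ∈ e.1 := by simp [he'F.2, h]
      have i2 : e ∈ F.filter fun e => x ∈ e.1 := by simp [heF.1, hx]
      rw [he''] at i1 i2
      exact he'F.1 (by rw [mem_singleton.mp i1, mem_singleton.mp i2])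
    obtain ⟨u, w, huw, hew⟩ := exists_ed e'
    have huS : u ∈ ({a, b, c, d} : Finset (Fin n)) := hS e' he'F.2 u (by rw [hew, mem_ed]; simp)
    have hwS : w ∈ ({a, b, c, d} : Finset (Fin n)) := hS e' he'F.2 w (by rw [hew, mem_ed]; simp)
    rw [hew, mem_ed] at hane' hxne'
    push Not at hane' hxne'
    obtain ⟨hau, haw⟩ := hane'
    obtain ⟨hxu, hxw⟩ := hxne'
    rw [hFe, hex, hew]
    simp only [mem_insert, mem_singleton] at hxS huS hwS
    rcases hxS with rfl | rfl | rfl | rfl
    · exact absurd rfl hax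
    · left
      rcases huS with rfl | rfl | rfl | rfl
      · exact absurd rfl hau
      · exact absurd rfl hxu
      · rcases hwS with rfl | rfl | rfl | rfl
        · exact absurd rfl haw
        · exact absurd rfl hxw
        · exact absurd rfl huw
        · rfl
      · rcases hwS with rfl | rfl | rfl | rfl
        · exact absurd rfl haw
        · exact absurd rfl hxw
        · rw [ed_comm huw]
        · exact absurd rfl huw
    · right; left
      rcases huS with rfl | rfl | rfl | rfl
      · exact absurd rfl hau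
      · rcases hwS with rfl | rfl | rfl | rfl
        · exact absurd rfl haw
        · exact absurd rfl huw
        · exact absurd rfl hxw
        · rfl
      · exact absurd rfl hxu
      · rcases hwS with rfl | rfl | rfl | rfl
        · exact absurd rfl haw
        · rw [ed_comm huw]
        · exact absurd rfl hxw
        · exact absurd rfl huw
    · right; right
      rcases huS with rfl | rfl | rfl | rfl
      · exact absurd rfl hau
      · rcases hwS with rfl | rfl | rfl | rfl
        · exact absurd rfl haw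
        · exact absurd rfl huw
        · rfl
        · exact absurd rfl hxw
      · rcases hwS with rfl | rfl | rfl | rfl
        · exact absurd rfl haw
        · rw [ed_comm huw]
        · exact absurd rfl huw
        · exact absurd rfl hxw
      · exact absurd rfl hxu
  · rintro (rfl | rfl | rfl)
    · exact pm_mem hab hac had hbc hbd hcd
    · have : ({a, b, c, d} : Finset (Fin n)) = {a, c, b, d} := by
        ext; simp only [mem_insert, mem_singleton]; tauto
      rw [this]
      exact pm_mem hac hab had hbc.symm hcd hbd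
    · have : ({a, b, c, d} : Finset (Fin n)) = {a, d, b, c} := by
        ext; simp only [mem_insert, mem_singleton]; tauto
      rw [this]
      exact pm_mem had hab hac hbd.symm hcd.symm hbc

lemma pair_ne {a b c d a' b' c' d' : Fin n} {h1 : a ≠ b} {h2 : c ≠ d} {h3 : a' ≠ b'} {h4 : c' ≠ d'}
    (h : ed a b h1 ≠ ed a' b' h3) (h' : ed a b h1 ≠ ed c' d' h4) :
    ({ed a b h1, ed c d h2} : Finset (Edge n)) ≠ {ed a' b' h3, ed c' d' h4} := by
  intro he
  have : ed a b h1 ∈ ({ed a' b' h3, ed c' d' h4} : Finset (Edge n)) := by rw [← he]; simp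
  simp only [mem_insert, mem_singleton] at this
  tauto

lemma card_pmSet {S : Finset (Fin n)} (hS : S.card = 4) : (pmSet S).card = 3 := by
  obtain ⟨a, b, c, d, hab, hac, had, hbc, hbd, hcd, rfl⟩ := card_eq_four.mp hS
  rw [pmSet_eq hab hac had hbc hbd hcd]
  rw [card_insert_of_notMem, card_insert_of_notMem, card_singleton]
  · rw [mem_singleton]
    refine pair_ne ?_ ?_ <;> rw [Ne, ed_eq] <;> tauto
  · simp only [mem_insert, mem_singleton]
    push Not
    refine ⟨pair_ne ?_ ?_, pair_ne ?_ ?_⟩ <;> rw [Ne, ed_eq] <;> tauto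

/-- (K2) rows sum to one -/
theorem kernel_row (hn : 4 ≤ n) (E : Finset (Edge n)) : ∑ E', kernel n E E' = 1 := by
  unfold kernel
  rw [sum_add_distrib, sum_ite_eq univ E, if_pos (mem_univ _), ← sum_div]
  have h1 : (∑ E' : Finset (Edge n), (proposalCount E E' : ℝ)) = 6 * (n.choose 4 : ℝ) := by
    have : ∑ E' : Finset (Edge n), proposalCount E E' = 6 * n.choose 4 := by
      unfold proposalCount
      rw [sum_comm]
      have : ∀ S ∈ (univ : Finset (Fin n)).powersetCard 4, ∑ E' : Finset (Edge n),
          ∑ F ∈ pmSet S, ∑ F' ∈ (pmSet S).erase F, (if switchResult E F F' = E' then 1 else 0) = 6 := by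
        intro S hS
        have hc := card_pmSet (mem_powersetCard.mp hS).2
        rw [sum_comm]
        have : ∀ F ∈ pmSet S, ∑ E' : Finset (Edge n), ∑ F' ∈ (pmSet S).erase F,
            (if switchResult E F F' = E' then 1 else 0) = 2 := by
          intro F hF
          rw [sum_comm]
          simp [card_erase_of_mem hF, hc]
        rw [sum_congr rfl this]
        simp [hc]
      rw [sum_congr rfl this]
      simp [mul_comm]
    exact_mod_cast this
  rw [h1]
  have h2 : (n.choose 4 : ℝ) ≠ 0 := by
    have : 0 < n.choose 4 := Nat.choose_pos hn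
    positivity
  field_simp
  norm_num

lemma kernel_nonneg (E E' : Finset (Edge n)) : 0 ≤ kernel n E E' := by
  unfold kernel; positivity

lemma kernel_diag (E : Finset (Edge n)) : 1 / 2 ≤ kernel n E E := by
  unfold kernel
  rw [if_pos rfl]
  have : (0 : ℝ) ≤ (proposalCount E E : ℝ) / (12 * (n.choose 4 : ℝ)) := by positivity
  linarith

lemma pm_deg {S : Finset (Fin n)} {F : Finset (Edge n)} (hF : F ∈ pmSet S) (v : Fin n) :
    deg F v = if v ∈ S then 1 else 0 := by
  rw [mem_pmSet] at hF
  unfold deg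
  split_ifs with h
  · exact hF.2.2 v h
  · rw [card_eq_zero, filter_eq_empty_iff]
    intro e he hv
    exact h (hF.2.1 e he v hv)

lemma deg_switch {S : Finset (Fin n)} {F F' : Finset (Edge n)} (hF : F ∈ pmSet S)
    (hF' : F' ∈ pmSet S) (E : Finset (Edge n)) (v : Fin n) :
    deg (switchResult E F F') v = deg E v := by
  unfold switchResult
  split_ifs with h
  · obtain ⟨h1, h2⟩ := h
    have e1 := pm_deg hF v
    have e2 := pm_deg hF' v
    have e3 : deg (E \ F ∪ F') v = deg (E \ F) v + deg F' v := by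
      unfold deg
      rw [filter_union, card_union_of_disjoint]
      refine disjoint_filter_filter ?_
      exact (h2.symm.mono_left sdiff_subset)
    have e4 : deg (E \ F) v + deg F v = deg E v := by
      unfold deg
      rw [← card_union_of_disjoint, ← filter_union, sdiff_union_of_subset h1]
      refine disjoint_filter_filter ?_
      exact sdiff_disjoint
    rw [e3, ← e4, e1, e2]
  · rfl

lemma switch_mem_realizations {d : Fin n → ℕ} {S : Finset (Fin n)} {F F' : Finset (Edge n)}
    (hF : F ∈ pmSet S) (hF' : F' ∈ pmSet S) {E : Finset (Edge n)} (hE : E ∈ realizations d) :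
    switchResult E F F' ∈ realizations d := by
  rw [mem_realizations] at *
  intro v
  rw [deg_switch hF hF', hE]

/-- (K3) -/
theorem kernel_closed {d : Fin n → ℕ} {G G' : Finset (Edge n)} (hG : G ∈ realizations d)
    (h : kernel n G G' ≠ 0) : G' ∈ realizations d := by
  by_cases hne : G = G'
  · rwa [← hne]
  · have h1 : proposalCount G G' ≠ 0 := by
      intro h0
      apply h
      unfold kernel
      rw [if_neg hne, h0]; simp
    unfold proposalCount at h1
    obtain ⟨S, hS, h2⟩ := exists_ne_zero_of_sum_ne_zero h1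
    obtain ⟨F, hF, h3⟩ := exists_ne_zero_of_sum_ne_zero h2
    obtain ⟨F', hF', h4⟩ := exists_ne_zero_of_sum_ne_zero h3
    have h5 : switchResult G F F' = G' := by
      by_contra h6
      exact h4 (if_neg h6)
    rw [← h5]
    exact switch_mem_realizations hF (mem_of_mem_erase hF') hG

/-- (K4) Dirichlet form -/
theorem kernel_dirichlet (hn : 4 ≤ n) (d : Fin n → ℕ) (f : Finset (Edge n) → ℝ) :
    ∑ G ∈ realizations d, f G * (f G - ∑ G' ∈ realizations d, kernel n G G' * f G') =
      (1 / (24 * (n.choose 4 : ℝ))) * ∑ G ∈ realizations d,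
        ∑ S ∈ (univ : Finset (Fin n)).powersetCard 4, ∑ F ∈ pmSet S, ∑ F' ∈ (pmSet S).erase F,
          (f G - f (switchResult G F F')) ^ 2 := by
  have hrow : ∀ G ∈ realizations d, ∑ G' ∈ realizations d, kernel n G G' = 1 := by
    intro G hG
    rw [← kernel_row hn G]
    refine sum_subset (subset_univ _) fun G' _ hG' => ?_
    by_contra h
    exact hG' (kernel_closed hG h)
  have h1 : ∑ G ∈ realizations d, f G * (f G - ∑ G' ∈ realizations d, kernel n G G' * f G') =
      ∑ G ∈ realizations d, ∑ G' ∈ realizations d, kernel n G G' * (f G * (f G - f G')) := by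
    refine sum_congr rfl fun G hG => ?_
    have : f G = ∑ G' ∈ realizations d, kernel n G G' * f G := by
      rw [← sum_mul, hrow G hG, one_mul]
    nth_rewrite 2 [this]
    rw [← sum_sub_distrib, mul_sum]
    exact sum_congr rfl fun G' _ => by ring
  have h2 : ∑ G ∈ realizations d, ∑ G' ∈ realizations d, kernel n G G' * (f G * (f G - f G')) =
      ∑ G ∈ realizations d, ∑ G' ∈ realizations d, kernel n G G' * (f G' * (f G' - f G)) := by
    rw [sum_comm]
    exact sum_congr rfl fun G _ => sum_congr rfl fun G' _ => by rw [kernel_symm]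
  have h3 : 2 * ∑ G ∈ realizations d, ∑ G' ∈ realizations d, kernel n G G' * (f G * (f G - f G')) =
      ∑ G ∈ realizations d, ∑ G' ∈ realizations d, kernel n G G' * (f G - f G') ^ 2 := by
    rw [two_mul]
    nth_rewrite 2 [h2]
    rw [← sum_add_distrib]
    refine sum_congr rfl fun G _ => ?_
    rw [← sum_add_distrib]
    exact sum_congr rfl fun G' _ => by ring
  have h4 : ∑ G ∈ realizations d, ∑ G' ∈ realizations d, kernel n G G' * (f G - f G') ^ 2 =
      (1 / (12 * (n.choose 4 : ℝ))) * ∑ G ∈ realizations d,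
        ∑ S ∈ (univ : Finset (Fin n)).powersetCard 4, ∑ F ∈ pmSet S, ∑ F' ∈ (pmSet S).erase F,
          (f G - f (switchResult G F F')) ^ 2 := by
    rw [mul_sum]
    refine sum_congr rfl fun G hG => ?_
    have h5 : ∑ G' ∈ realizations d, kernel n G G' * (f G - f G') ^ 2 =
        (1 / (12 * (n.choose 4 : ℝ))) * ∑ G' ∈ realizations d,
          (proposalCount G G' : ℝ) * (f G - f G') ^ 2 := by
      rw [mul_sum]
      refine sum_congr rfl fun G' _ => ?_
      by_cases hne : G = G'
      · subst hne; simp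
      · unfold kernel; rw [if_neg hne]; ring
    rw [h5]
    congr 1
    unfold proposalCount
    simp only [Nat.cast_sum, sum_mul]
    rw [sum_comm]
    refine sum_congr rfl fun S _ => ?_
    rw [sum_comm]
    refine sum_congr rfl fun F hF => ?_
    rw [sum_comm]
    refine sum_congr rfl fun F' hF' => ?_
    simp only [Nat.cast_ite, Nat.cast_one, Nat.cast_zero, ite_mul, one_mul, zero_mul]
    rw [sum_ite_eq, if_pos (switch_mem_realizations hF (mem_of_mem_erase hF') hG)]
  rw [h1]
  have h6 : (1 / (24 * (n.choose 4 : ℝ))) = (1 / 2) * (1 / (12 * (n.choose 4 : ℝ))) := by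
    rw [div_mul_div_comm]; norm_num
    ring
  rw [h6, mul_assoc, ← h4, ← h3]
  ring

/-! ### sums over switches -/

/-- the pair of edges `xy`, `zw` -/
def edp (x y z w : Fin n) : Finset (Edge n) :=
  univ.filter fun e => e.1 = s(x, y) ∨ e.1 = s(z, w)

lemma edp_eq {x y z w : Fin n} (h : x ≠ y) (h' : z ≠ w) : edp x y z w = {ed x y h, ed z w h'} := by
  ext e
  simp only [edp, mem_filter, mem_univ, true_and, mem_insert, mem_singleton]
  unfold ed
  rw [Subtype.ext_iff, Subtype.ext_iff]

/-- `G'` is obtained from `G` by the switch `ac, be → ae, bc` -/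
structure IsSwitch (G G' : Finset (Edge n)) (a b c e : Fin n) : Prop where
  nac : ¬ Adj G' a c
  nbe : ¬ Adj G' b e
  ae : Adj G' a e
  bc : Adj G' b c
  rest : ∀ x y, s(x, y) ≠ s(a, c) → s(x, y) ≠ s(b, e) → s(x, y) ≠ s(a, e) → s(x, y) ≠ s(b, c) →
    (Adj G x y ↔ Adj G' x y)

/-- the four vertices are distinct and the switch `ac, be → ae, bc` is possible at `G` -/
structure CanSwitch (G : Finset (Edge n)) (a b c e : Fin n) : Prop where
  ab : a ≠ b
  ac : a ≠ c
  ae : a ≠ e
  bc : b ≠ c
  be : b ≠ e
  ce : c ≠ e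
  hac : Adj G a c
  hbe : Adj G b e
  hae : ¬ Adj G a e
  hbc : ¬ Adj G b c

lemma adj_mk {G : Finset (Edge n)} {e : Edge n} {x y : Fin n} (h : e.1 = s(x, y)) :
    Adj G x y ↔ e ∈ G := by
  have he := e.2
  rw [h] at he
  constructor
  · rintro ⟨h1, h2⟩
    have : e = ⟨s(x, y), h1⟩ := Subtype.ext h
    rwa [this]
  · intro h2
    refine ⟨he, ?_⟩
    have : e = ⟨s(x, y), he⟩ := Subtype.ext h
    rwa [← this]

lemma switchResult_eq {G G' : Finset (Edge n)} {a b c e : Fin n} (h : CanSwitch G a b c e)
    (h' : IsSwitch G G' a b c e) : switchResult G (edp a c b e) (edp a e b c) = G' := by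
  have h1 : edp a c b e ⊆ G := by
    intro x hx
    simp only [edp, mem_filter, mem_univ, true_and] at hx
    rcases hx with hx | hx
    · exact (adj_mk hx).mp h.hac
    · exact (adj_mk hx).mp h.hbe
  have h2 : Disjoint (edp a e b c) G := by
    rw [disjoint_left]
    intro x hx hG
    simp only [edp, mem_filter, mem_univ, true_and] at hx
    rcases hx with hx | hx
    · exact h.hae ((adj_mk hx).mpr hG)
    · exact h.hbc ((adj_mk hx).mpr hG)
  unfold switchResult
  rw [if_pos ⟨h1, h2⟩]
  ext x
  simp only [mem_union, mem_sdiff]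
  by_cases c1 : x.1 = s(a, c)
  · have m1 : x ∈ edp a c b e := by simp [edp, c1]
    have m2 : x ∉ edp a e b c := fun hh => disjoint_left.mp h2 hh (h1 m1)
    have m3 : x ∉ G' := fun hh => h'.nac ((adj_mk c1).mpr hh)
    tauto
  by_cases c2 : x.1 = s(b, e)
  · have m1 : x ∈ edp a c b e := by simp [edp, c2]
    have m2 : x ∉ edp a e b c := fun hh => disjoint_left.mp h2 hh (h1 m1)
    have m3 : x ∉ G' := fun hh => h'.nbe ((adj_mk c2).mpr hh)
    tauto
  by_cases c3 : x.1 = s(a, e)
  · have m1 : x ∈ edp a e b c := by simp [edp, c3]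
    have m3 : x ∈ G' := (adj_mk c3).mp h'.ae
    tauto
  by_cases c4 : x.1 = s(b, c)
  · have m1 : x ∈ edp a e b c := by simp [edp, c4]
    have m3 : x ∈ G' := (adj_mk c4).mp h'.bc
    tauto
  have m1 : x ∉ edp a c b e := by simp [edp, c1, c2]
  have m2 : x ∉ edp a e b c := by simp [edp, c3, c4]
  obtain ⟨u, w, huw, hx⟩ := exists_ed x
  have hx' : x.1 = s(u, w) := by rw [hx]; rfl
  rw [hx'] at c1 c2 c3 c4
  have := h'.rest u w c1 c2 c3 c4
  rw [adj_mk hx', adj_mk hx'] at this
  tauto

open scoped Classical in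
/-- (K5) -/
theorem sum_switch_le (f : Finset (Edge n) → ℝ) (G : Finset (Edge n))
    (σ : Fin n → Fin n → Fin n → Fin n → Finset (Edge n))
    (hσ : ∀ a b c e, CanSwitch G a b c e → IsSwitch G (σ a b c e) a b c e) :
    ∑ a, ∑ b, ∑ c, ∑ e, (if CanSwitch G a b c e then (f G - f (σ a b c e)) ^ 2 else 0) ≤
      4 * ∑ S ∈ (univ : Finset (Fin n)).powersetCard 4, ∑ F ∈ pmSet S, ∑ F' ∈ (pmSet S).erase F,
        (f G - f (switchResult G F F')) ^ 2 := by
  set T : Finset (Fin n × Fin n × Fin n × Fin n) :=
    univ.filter fun t => CanSwitch G t.1 t.2.1 t.2.2.1 t.2.2.2 with hT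
  set J : Finset (Σ _ : Finset (Fin n), Σ _ : Finset (Edge n), Finset (Edge n)) :=
    ((univ : Finset (Fin n)).powersetCard 4).sigma fun S =>
      (pmSet S).sigma fun F => (pmSet S).erase F with hJ
  set φ : Fin n × Fin n × Fin n × Fin n →
      (Σ _ : Finset (Fin n), Σ _ : Finset (Edge n), Finset (Edge n)) := fun t =>
    ⟨{t.1, t.2.1, t.2.2.1, t.2.2.2}, edp t.1 t.2.2.1 t.2.1 t.2.2.2, edp t.1 t.2.2.2 t.2.1 t.2.2.1⟩
    with hφ
  have hmem : ∀ t, t ∈ T ↔ CanSwitch G t.1 t.2.1 t.2.2.1 t.2.2.2 := fun t => by simp [hT]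
  have hL : ∑ a, ∑ b, ∑ c, ∑ e, (if CanSwitch G a b c e then (f G - f (σ a b c e)) ^ 2 else 0) =
      ∑ t ∈ T, (f G - f (switchResult G (φ t).2.1 (φ t).2.2)) ^ 2 := by
    have : ∑ t ∈ T, (f G - f (switchResult G (φ t).2.1 (φ t).2.2)) ^ 2 =
        ∑ t ∈ T, (f G - f (σ t.1 t.2.1 t.2.2.1 t.2.2.2)) ^ 2 := by
      refine sum_congr rfl fun t ht => ?_
      have h1 := (hmem t).mp ht
      have h2 := switchResult_eq h1 (hσ _ _ _ _ h1)
      simp only [hφ]
      rw [h2]
    rw [this, hT, sum_filter]
    simp only [Fintype.sum_prod_type]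
  have hR : ∑ S ∈ (univ : Finset (Fin n)).powersetCard 4, ∑ F ∈ pmSet S, ∑ F' ∈ (pmSet S).erase F,
        (f G - f (switchResult G F F')) ^ 2 =
      ∑ j ∈ J, (f G - f (switchResult G j.2.1 j.2.2)) ^ 2 := by
    rw [hJ, sum_sigma]
    refine sum_congr rfl fun S _ => ?_
    rw [sum_sigma]
  rw [hL, hR]
  have hmaps : ∀ t ∈ T, φ t ∈ J := by
    rintro ⟨a, b, c, e⟩ ht
    have h := (hmem _).mp ht
    simp only at h
    simp only [hφ, hJ, mem_sigma, mem_powersetCard, subset_univ, true_and, mem_erase]
    obtain ⟨hab, hac, hae, hbc, hbe, hce, _, _, _, _⟩ := h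
    refine ⟨?_, ?_, ?_, ?_⟩
    · rw [card_eq_four]
      exact ⟨a, b, c, e, hab, hac, hae, hbc, hbe, hce, rfl⟩
    · rw [edp_eq hac hbe]
      have : ({a, b, c, e} : Finset (Fin n)) = {a, c, b, e} := by
        ext; simp only [mem_insert, mem_singleton]; tauto
      rw [this]
      exact pm_mem hac hab hae hbc.symm hce hbe
    · rw [edp_eq hac hbe, edp_eq hae hbc]
      refine pair_ne ?_ ?_ <;> rw [Ne, ed_eq]
      · rintro (⟨_, h⟩ | ⟨h, _⟩)
        · exact hce.symm h
        · exact hac h
      · rintro (⟨h, _⟩ | ⟨h, _⟩)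
        · exact hab h
        · exact hae h
    · rw [edp_eq hae hbc]
      have : ({a, b, c, e} : Finset (Fin n)) = {a, e, b, c} := by
        ext; simp only [mem_insert, mem_singleton]; tauto
      rw [this]
      exact pm_mem hae hab hac hbe.symm hce.symm hbc
  rw [← sum_fiberwise_of_maps_to hmaps, mul_sum]
  refine sum_le_sum fun j hj => ?_
  have h1 : ∑ t ∈ T.filter (fun t => φ t = j), (f G - f (switchResult G (φ t).2.1 (φ t).2.2)) ^ 2 =
      ((T.filter (fun t => φ t = j)).card : ℝ) * (f G - f (switchResult G j.2.1 j.2.2)) ^ 2 := by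
    rw [← nsmul_eq_mul, ← sum_const]
    refine sum_congr rfl fun t ht => ?_
    rw [(mem_filter.mp ht).2]
  rw [h1]
  refine mul_le_mul_of_nonneg_right ?_ (sq_nonneg _)
  have h2 : (T.filter (fun t => φ t = j)).card ≤ j.1.card := by
    refine card_le_card_of_injOn (fun t => t.1) ?_ ?_
    · intro t ht
      have := (mem_filter.mp (mem_coe.mp ht)).2
      rw [mem_coe, ← this]
      simp [hφ]
    · rintro ⟨a, b, c, e⟩ ht ⟨a', b', c', e'⟩ ht' haa
      simp only at haa
      subst haa
      obtain ⟨ht1, ht2⟩ := mem_filter.mp (mem_coe.mp ht)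
      obtain ⟨ht1', ht2'⟩ := mem_filter.mp (mem_coe.mp ht')
      have h := (hmem _).mp ht1
      have h' := (hmem _).mp ht1'
      simp only at h h'
      have heq := ht2.trans ht2'.symm
      simp only [hφ] at heq
      rw [Sigma.mk.injEq, heq_eq_eq, Sigma.mk.injEq, heq_eq_eq] at heq
      obtain ⟨q1, q2, q3⟩ := heq
      have c1 : c' = c := by
        have : ed a c' h'.ac ∈ edp a c b e := by
          rw [q2, edp_eq h'.ac h'.be]; simp
        rw [edp_eq h.ac h.be, mem_insert, mem_singleton, ed_eq, ed_eq] at this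
        rcases this with (⟨_, h1⟩ | ⟨h1, _⟩) | (⟨h1, _⟩ | ⟨h1, _⟩)
        · exact h1
        · exact absurd h1 h.ac
        · exact absurd h1 h.ab
        · exact absurd h1 h.ae
      have c2 : e' = e := by
        have : ed a e' h'.ae ∈ edp a e b c := by
          rw [q3, edp_eq h'.ae h'.bc]; simp
        rw [edp_eq h.ae h.bc, mem_insert, mem_singleton, ed_eq, ed_eq] at this
        rcases this with (⟨_, h1⟩ | ⟨h1, _⟩) | (⟨h1, _⟩ | ⟨h1, _⟩)
        · exact h1
        · exact absurd h1 h.ae
        · exact absurd h1 h.ab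
        · exact absurd h1 h.ac
      subst c1 c2
      have c3 : b' = b := by
        have : b' ∈ ({a, b, c', e'} : Finset (Fin n)) := by rw [q1]; simp
        simp only [mem_insert, mem_singleton] at this
        rcases this with h1 | h1 | h1 | h1
        · exact absurd h1.symm h'.ab
        · exact h1
        · exact absurd h1 h'.bc
        · exact absurd h1 h'.be
      rw [c3]
  have h3 : j.1.card = 4 := by
    rw [hJ, mem_sigma] at hj
    exact (mem_powersetCard.mp hj.1).2
  rw [h3] at h2
  exact_mod_cast h2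

open scoped Classical in
/-- (K4)+(K5): the Dirichlet form of the kernel dominates the sum over all switches -/
theorem dirichlet_ge (hn : 4 ≤ n) (d : Fin n → ℕ) (f : Finset (Edge n) → ℝ)
    (σ : Finset (Edge n) → Fin n → Fin n → Fin n → Fin n → Finset (Edge n))
    (hσ : ∀ G a b c e, CanSwitch G a b c e → IsSwitch G (σ G a b c e) a b c e) :
    (1 / (96 * (n.choose 4 : ℝ))) * ∑ G ∈ realizations d, ∑ a, ∑ b, ∑ c, ∑ e,
        (if CanSwitch G a b c e then (f G - f (σ G a b c e)) ^ 2 else 0) ≤
      ∑ G ∈ realizations d, f G * (f G - ∑ G' ∈ realizations d, kernel n G G' * f G') := by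
  rw [kernel_dirichlet hn]
  have h1 := sum_le_sum fun G (_ : G ∈ realizations d) => sum_switch_le f G (σ G) (hσ G)
  rw [← mul_sum] at h1
  have h2 : (0 : ℝ) ≤ 1 / (96 * (n.choose 4 : ℝ)) := by positivity
  calc _ ≤ (1 / (96 * (n.choose 4 : ℝ))) * _ := mul_le_mul_of_nonneg_left h1 h2
    _ = _ := by
      rw [← mul_assoc]
      congr 1
      ring

end Crest.Agent.SwGap
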