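import Crest.Agent.SwGap.Rel

/-! Commutation of the two pair-resamplings on the odd sectors. -/

set_option autoImplicit false
open Finset Crest.SwitchChain

namespace Crest.Agent.SwGap

variable {n : ℕ}

/-- number of block edges -/
noncomputable def blk (a b c d : Fin n) (G : Finset (Edge n)) : ℕ :=
  v G a c + v G a d + v G b c + v G b d

def Odd4 (a b c d : Fin n) (G : Finset (Edge n)) : Prop := blk a b c d G = 1 ∨ blk a b c d G = 3

lemma blk_ra {a b c d : Fin n} (hac : a ≠ c) (had : a ≠ d) (hbc : b ≠ c) (hbd : b ≠ d)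
    {G G' : Finset (Edge n)} (h : RA a b G G') : blk a b c d G = blk a b c d G' := by
  have hc := h.col c (by simp [hac.symm, hbc.symm])
  have hd := h.col d (by simp [had.symm, hbd.symm])
  unfold blk; omega

/-- relation restricted to a set of states -/
def restr (r : Finset (Edge n) → Finset (Edge n) → Prop) (Z : Finset (Edge n) → Prop)
    (G G' : Finset (Edge n)) : Prop := G = G' ∨ (Z G ∧ Z G' ∧ r G G')

lemma restr_equiv {r : Finset (Edge n) → Finset (Edge n) → Prop} (hr : Equivalence r)
    (Z : Finset (Edge n) → Prop) : Equivalence (restr r Z) where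
  refl := fun _ => Or.inl rfl
  symm := by
    rintro x y (h | ⟨h1, h2, h3⟩)
    · exact Or.inl h.symm
    · exact Or.inr ⟨h2, h1, hr.symm h3⟩
  trans := by
    rintro x y z (rfl | ⟨h1, h2, h3⟩) (rfl | ⟨h1', h2', h3'⟩)
    · exact Or.inl rfl
    · exact Or.inr ⟨h1', h2', h3'⟩
    · exact Or.inr ⟨h1, h2, h3⟩
    · exact Or.inr ⟨h1, h2', hr.trans h3 h3'⟩

lemma blk_symm {a b c d : Fin n} (G : Finset (Edge n)) : blk a b c d G = blk c d a b G := by
  unfold blk
  rw [v_comm G c a, v_comm G c b, v_comm G d a, v_comm G d b]; ring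

lemma inI_Out_split {a b c d p q : Fin n} (h : InI a b (Out a b) p q) :
    InI a b (Out4 a b c d) p q ∨ InI a b {c, d} p q := by
  unfold InI at h ⊢
  simp only [mem_Out, mem_Out4, mem_insert, mem_singleton] at h ⊢
  rcases h with ⟨h1, h2, h3⟩ | ⟨h1, h2, h3⟩
  · by_cases hc : q = c
    · exact Or.inr (Or.inl ⟨h1, Or.inl hc⟩)
    · by_cases hd : q = d
      · exact Or.inr (Or.inl ⟨h1, Or.inr hd⟩)
      · exact Or.inl (Or.inl ⟨h1, h2, h3, hc, hd⟩)
  · by_cases hc : p = c
    · exact Or.inr (Or.inr ⟨h1, Or.inl hc⟩)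
    · by_cases hd : p = d
      · exact Or.inr (Or.inr ⟨h1, Or.inr hd⟩)
      · exact Or.inl (Or.inr ⟨h1, h2, h3, hc, hd⟩)

lemma inI_block_Out {a b c d p q : Fin n} (hac : a ≠ c) (had : a ≠ d) (hbc : b ≠ c)
    (hbd : b ≠ d) (h : InI a b {c, d} p q) : InI c d (Out c d) p q := by
  unfold InI at h ⊢
  simp only [mem_insert, mem_singleton, mem_Out] at h ⊢
  rcases h with ⟨h1, h2⟩ | ⟨h1, h2⟩
  · right; refine ⟨h2, ?_⟩; rcases h1 with rfl | rfl
    · exact ⟨hac, had⟩
    · exact ⟨hbc, hbd⟩
  · left; refine ⟨h2, ?_⟩; rcases h1 with rfl | rfl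
    · exact ⟨hac, had⟩
    · exact ⟨hbc, hbd⟩

lemma inI_block_Out' {a b c d p q : Fin n} (hac : a ≠ c) (had : a ≠ d) (hbc : b ≠ c)
    (hbd : b ≠ d) (h : InI a b {c, d} p q) : InI a b (Out a b) p q := by
  unfold InI at h ⊢
  simp only [mem_insert, mem_singleton, mem_Out] at h ⊢
  rcases h with ⟨h1, h2⟩ | ⟨h1, h2⟩
  · left; refine ⟨h1, ?_⟩; rcases h2 with rfl | rfl
    · exact ⟨hac.symm, hbc.symm⟩
    · exact ⟨had.symm, hbd.symm⟩
  · right; refine ⟨h1, ?_⟩; rcases h2 with rfl | rfl
    · exact ⟨hac.symm, hbc.symm⟩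
    · exact ⟨had.symm, hbd.symm⟩

lemma inI_Out4_Out {a b c d p q : Fin n} (h : InI a b (Out4 a b c d) p q) :
    InI a b (Out a b) p q := by
  unfold InI at h ⊢
  simp only [mem_Out, mem_Out4] at h ⊢
  rcases h with ⟨h1, h2, h3, _, _⟩ | ⟨h1, h2, h3, _, _⟩
  · exact Or.inl ⟨h1, h2, h3⟩
  · exact Or.inr ⟨h1, h2, h3⟩

lemma odd_exists {a b c d : Fin n} (hab : a ≠ b) (hac : a ≠ c) (had : a ≠ d) (hbc : b ≠ c)
    (hbd : b ≠ d) (hcd : c ≠ d) {x y z : Finset (Edge n)} (hxy : RA a b x y) (hxz : RA c d x z)
    (hodd : Odd4 a b c d x) : ∃ w, RA c d y w ∧ RA a b z w := by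
  classical
  set same : Prop := v y a c + v y a d = v x a c + v x a d with hsame
  set P : Fin n → Fin n → Prop := fun p q =>
    (InI a b (Out4 a b c d) p q ∧ Adj y p q) ∨
    (¬ InI a b (Out4 a b c d) p q ∧
      ((InI a b {c, d} p q ∧ ¬ same ∧ Adj z (Equiv.swap a b p) (Equiv.swap a b q)) ∨
       (¬ (InI a b {c, d} p q ∧ ¬ same) ∧ Adj z p q))) with hPdef
  have hP : ∀ p q, P p q → P q p := by
    intro p q h
    have s1 : InI a b (Out4 a b c d) p q ↔ InI a b (Out4 a b c d) q p := ⟨InI.symm, InI.symm⟩
    have s2 : InI a b {c, d} p q ↔ InI a b {c, d} q p := ⟨InI.symm, InI.symm⟩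
    simp only [hPdef] at h ⊢
    rw [← s1, ← s2, adj_comm (G := y) (x := q), adj_comm (G := z) (x := q),
      adj_comm (G := z) (x := Equiv.swap a b q)]
    exact h
  set w := ofAdj P with hw
  have vw : ∀ p q, p ≠ q → v w p q = if P p q then 1 else 0 := fun p q hpq => v_ofAdj hP hpq
  have wI : ∀ p q, InI a b (Out4 a b c d) p q → v w p q = v y p q := by
    intro p q h
    by_cases hpq : p = q
    · subst hpq; simp
    · rw [vw p q hpq]
      simp only [hPdef, h, true_and, not_true_eq_false, false_and, or_false]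
      unfold v; congr
  have wN : ∀ p q, ¬ InI a b (Out4 a b c d) p q → ¬ InI a b {c, d} p q → v w p q = v z p q := by
    intro p q h h'
    by_cases hpq : p = q
    · subst hpq; simp
    · rw [vw p q hpq]
      simp only [hPdef, h, h', false_and, not_false_eq_true, true_and, false_or]
      unfold v; congr
  have nI : ∀ p q, (p = a ∨ p = b) → (q = c ∨ q = d) → ¬ InI a b (Out4 a b c d) p q := by
    intro p q hp hq h
    unfold InI at h; simp only [mem_Out4] at h
    rcases hp with rfl | rfl <;> rcases hq with rfl | rfl <;> tauto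
  have wB : ∀ p q, (p = a ∨ p = b) → (q = c ∨ q = d) →
      v w p q = if same then v z p q else v z (Equiv.swap a b p) q := by
    intro p q hp hq
    have hpq : p ≠ q := by
      rcases hp with rfl | rfl <;> rcases hq with rfl | rfl <;> assumption
    have h2 : InI a b {c, d} p q := Or.inl ⟨hp, by simpa using hq⟩
    have hsq : Equiv.swap a b q = q := by
      rcases hq with rfl | rfl
      · exact Equiv.swap_apply_of_ne_of_ne hac.symm hbc.symm
      · exact Equiv.swap_apply_of_ne_of_ne had.symm hbd.symm
    rw [vw p q hpq]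
    simp only [hPdef, nI p q hp hq, h2, false_and, not_false_eq_true, true_and, false_or, hsq]
    by_cases hs : same
    · simp only [hs, not_true_eq_false, false_and, not_false_eq_true, true_and, false_or, if_true]
      unfold v; congr
    · simp only [hs, not_false_eq_true, true_and, not_true_eq_false, false_and, or_false, if_false]
      unfold v; congr
  have wac := wB a c (Or.inl rfl) (Or.inl rfl)
  have wad := wB a d (Or.inl rfl) (Or.inr rfl)
  have wbc := wB b c (Or.inr rfl) (Or.inl rfl)
  have wbd := wB b d (Or.inr rfl) (Or.inr rfl)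
  rw [Equiv.swap_apply_left] at wac wad
  rw [Equiv.swap_apply_right] at wbc wbd
  -- numeric facts
  have yc := hxy.col c (by simp [hac.symm, hbc.symm])
  have yd := hxy.col d (by simp [had.symm, hbd.symm])
  have za := hxz.col a (by simp [hac, had])
  have zb := hxz.col b (by simp [hbc, hbd])
  rw [v_comm x c a, v_comm x d a, v_comm z c a, v_comm z d a] at za
  rw [v_comm x c b, v_comm x d b, v_comm z c b, v_comm z d b] at zb
  have ycnt := hxy.cnt
  have zcnt := hxz.cnt
  rw [sum_Out hac had hbc hbd hcd, sum_Out hac had hbc hbd hcd] at ycnt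
  have hperm : Out4 c d a b = Out4 a b c d := by
    ext u; simp only [mem_Out4]; tauto
  rw [sum_Out hac.symm hbc.symm had.symm hbd.symm hab, sum_Out hac.symm hbc.symm had.symm hbd.symm hab,
    hperm, v_comm x c a, v_comm x c b, v_comm z c a, v_comm z c b] at zcnt
  unfold Odd4 blk at hodd
  have l1 := v_le x a c; have l2 := v_le x a d; have l3 := v_le x b c; have l4 := v_le x b d
  have l5 := v_le y a c; have l6 := v_le y a d; have l7 := v_le y b c; have l8 := v_le y b d
  have l9 := v_le z a c; have l10 := v_le z a d; have l11 := v_le z b c; have l12 := v_le z b d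
  -- rows of w agree with y
  have rowa : v w a c + v w a d = v y a c + v y a d := by
    by_cases hs : same
    · rw [wac, wad, if_pos hs, if_pos hs]; omega
    · rw [wac, wad, if_neg hs, if_neg hs]
      rw [hsame] at hs
      omega
  have rowb : v w b c + v w b d = v y b c + v y b d := by
    by_cases hs : same
    · rw [wbc, wbd, if_pos hs, if_pos hs]; rw [hsame] at hs; omega
    · rw [wbc, wbd, if_neg hs, if_neg hs]
      rw [hsame] at hs
      omega
  have colc : v w a c + v w b c = v z a c + v z b c := by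
    by_cases hs : same
    · rw [wac, wbc, if_pos hs, if_pos hs]
    · rw [wac, wbc, if_neg hs, if_neg hs]; omega
  have cold : v w a d + v w b d = v z a d + v z b d := by
    by_cases hs : same
    · rw [wad, wbd, if_pos hs, if_pos hs]
    · rw [wad, wbd, if_neg hs, if_neg hs]; omega
  -- adjacency of w with rows a, b outside
  have wa : ∀ u ∈ Out4 a b c d, v w a u = v y a u := fun u hu => wI a u (Or.inl ⟨Or.inl rfl, hu⟩)
  have wb : ∀ u ∈ Out4 a b c d, v w b u = v y b u := fun u hu => wI b u (Or.inl ⟨Or.inr rfl, hu⟩)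
  have zx : ∀ p q, ¬ InI c d (Out c d) p q → v x p q = v z p q := hxz.off
  have yx : ∀ p q, ¬ InI a b (Out a b) p q → v x p q = v y p q := hxy.off
  refine ⟨w, ⟨?_, ?_, ?_⟩, ⟨?_, ?_, ?_⟩⟩
  · -- off for RA c d y w
    intro p q hpq
    by_cases hI : InI a b (Out4 a b c d) p q
    · exact (wI p q hI).symm
    · have hB : ¬ InI a b {c, d} p q := fun h => hpq (inI_block_Out hac had hbc hbd h)
      rw [wN p q hI hB, ← zx p q hpq]
      refine (yx p q ?_).symm
      intro h
      rcases inI_Out_split (c := c) (d := d) h with h | h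
      · exact hI h
      · exact hB h
  · -- col for RA c d y w
    intro u hu
    simp only [mem_Out] at hu
    by_cases hua : u = a
    · subst hua; rw [v_comm y, v_comm y d, v_comm w, v_comm w d]; exact rowa.symm
    · by_cases hub : u = b
      · subst hub; rw [v_comm y, v_comm y d, v_comm w, v_comm w d]; exact rowb.symm
      · have i1 : ¬ InI a b (Out a b) c u := by
          unfold InI; simp [hac.symm, hbc.symm, hua, hub]
        have i2 : ¬ InI a b (Out a b) d u := by
          unfold InI; simp [had.symm, hbd.symm, hua, hub]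
        have i3 : ¬ InI a b (Out4 a b c d) c u := by
          unfold InI; simp [hac.symm, hbc.symm, hua, hub]
        have i4 : ¬ InI a b (Out4 a b c d) d u := by
          unfold InI; simp [had.symm, hbd.symm, hua, hub]
        have i5 : ¬ InI a b {c, d} c u := by
          unfold InI; simp [hac.symm, hbc.symm, hua, hub]
        have i6 : ¬ InI a b {c, d} d u := by
          unfold InI; simp [had.symm, hbd.symm, hua, hub]
        rw [← yx c u i1, ← yx d u i2, wN c u i3 i5, wN d u i4 i6]
        exact hxz.col u (by simp [hu.1, hu.2])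
  · -- cnt for RA c d y w
    rw [sum_Out hac.symm hbc.symm had.symm hbd.symm hab, sum_Out hac.symm hbc.symm had.symm hbd.symm hab,
      hperm, v_comm y c a, v_comm y c b, v_comm w c a, v_comm w c b]
    have e1 : ∑ u ∈ Out4 a b c d, v y c u = ∑ u ∈ Out4 a b c d, v x c u := by
      refine sum_congr rfl (fun u hu => (yx c u ?_).symm)
      simp only [mem_Out4] at hu
      unfold InI; simp [hac.symm, hbc.symm, hu.1, hu.2.1]
    have e2 : ∑ u ∈ Out4 a b c d, v w c u = ∑ u ∈ Out4 a b c d, v z c u := by
      refine sum_congr rfl (fun u hu => wN c u ?_ ?_)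
      · simp only [mem_Out4] at hu
        unfold InI; simp [hac.symm, hbc.symm, hu.1, hu.2.1]
      · simp only [mem_Out4] at hu
        unfold InI; simp [hac.symm, hbc.symm, hu.1, hu.2.1]
    rw [e1, e2]
    omega
  · -- off for RA a b z w
    intro p q hpq
    exact (wN p q (fun h => hpq (inI_Out4_Out h)) (fun h => hpq (inI_block_Out' hac had hbc hbd h))).symm
  · -- col for RA a b z w
    intro u hu
    simp only [mem_Out] at hu
    by_cases huc : u = c
    · subst huc; exact colc.symm
    · by_cases hud : u = d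
      · subst hud; exact cold.symm
      · have hu4 : u ∈ Out4 a b c d := by simp [hu.1, hu.2, huc, hud]
        have i1 : ¬ InI c d (Out c d) a u := by
          unfold InI; simp [hac, had, huc, hud]
        have i2 : ¬ InI c d (Out c d) b u := by
          unfold InI; simp [hbc, hbd, huc, hud]
        rw [← zx a u i1, ← zx b u i2, wa u hu4, wb u hu4]
        exact hxy.col u (by simp [hu.1, hu.2])
  · -- cnt for RA a b z w
    have e3 : ∑ u ∈ Out4 a b c d, v w a u = ∑ u ∈ Out4 a b c d, v y a u := sum_congr rfl wa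
    rw [sum_Out hac had hbc hbd hcd, sum_Out hac had hbc hbd hcd, e3]
    have e1 : ∑ u ∈ Out4 a b c d, v z a u = ∑ u ∈ Out4 a b c d, v x a u := by
      refine sum_congr rfl (fun u hu => (zx a u ?_).symm)
      simp only [mem_Out4] at hu
      unfold InI; simp [hac, had, hu.2.2.1, hu.2.2.2]
    rw [e1]
    omega

lemma odd_unique {a b c d : Fin n} (hab : a ≠ b) (hac : a ≠ c) (had : a ≠ d) (hbc : b ≠ c)
    (hbd : b ≠ d) (hcd : c ≠ d) {y z w w' : Finset (Edge n)}
    (h1 : RA c d y w) (h2 : RA a b z w) (h1' : RA c d y w') (h2' : RA a b z w')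
    (hodd : Odd4 a b c d w) : w' = w := by
  have rowa := (h1.col a (by simp [hac, had])).symm.trans (h1'.col a (by simp [hac, had]))
  have rowb := (h1.col b (by simp [hbc, hbd])).symm.trans (h1'.col b (by simp [hbc, hbd]))
  have colc := (h2.col c (by simp [hac.symm, hbc.symm])).symm.trans (h2'.col c (by simp [hac.symm, hbc.symm]))
  have cold := (h2.col d (by simp [had.symm, hbd.symm])).symm.trans (h2'.col d (by simp [had.symm, hbd.symm]))
  rw [v_comm w c a, v_comm w d a, v_comm w' c a, v_comm w' d a] at rowa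
  rw [v_comm w c b, v_comm w d b, v_comm w' c b, v_comm w' d b] at rowb
  unfold Odd4 blk at hodd
  have l1 := v_le w a c; have l2 := v_le w a d; have l3 := v_le w b c; have l4 := v_le w b d
  have l5 := v_le w' a c; have l6 := v_le w' a d; have l7 := v_le w' b c; have l8 := v_le w' b d
  have b1 : v w' a c = v w a c := by omega
  have b2 : v w' a d = v w a d := by omega
  have b3 : v w' b c = v w b c := by omega
  have b4 : v w' b d = v w b d := by omega
  apply ext_v
  intro p q _
  by_cases hI : InI a b (Out a b) p q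
  · rcases inI_Out_split (c := c) (d := d) hI with h | h
    · -- in Out4 part: use h1, h1' (off c d)
      have hn : ¬ InI c d (Out c d) p q := by
        intro h'
        unfold InI at h h'
        simp only [mem_Out, mem_Out4] at h h'
        rcases h with ⟨e1, e2, e3, e4, e5⟩ | ⟨e1, e2, e3, e4, e5⟩
        · rcases h' with ⟨f1 | f1, _⟩ | ⟨f1 | f1, _⟩
          · rcases e1 with e1 | e1
            · exact hac (e1.symm.trans f1)
            · exact hbc (e1.symm.trans f1)
          · rcases e1 with e1 | e1
            · exact had (e1.symm.trans f1)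
            · exact hbd (e1.symm.trans f1)
          · exact e4 f1
          · exact e5 f1
        · rcases h' with ⟨f1 | f1, _⟩ | ⟨f1 | f1, _⟩
          · exact e4 f1
          · exact e5 f1
          · rcases e1 with e1 | e1
            · exact hac (e1.symm.trans f1)
            · exact hbc (e1.symm.trans f1)
          · rcases e1 with e1 | e1
            · exact had (e1.symm.trans f1)
            · exact hbd (e1.symm.trans f1)
      rw [← h1'.off p q hn, h1.off p q hn]
    · unfold InI at h
      simp only [mem_insert, mem_singleton] at h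
      rcases h with ⟨rfl | rfl, rfl | rfl⟩ | ⟨rfl | rfl, rfl | rfl⟩
      · exact b1
      · exact b2
      · exact b3
      · exact b4
      · rw [v_comm w', v_comm w]; exact b1
      · rw [v_comm w', v_comm w]; exact b2
      · rw [v_comm w', v_comm w]; exact b3
      · rw [v_comm w', v_comm w]; exact b4
  · rw [← h2'.off p q hI, h2.off p q hI]

lemma odd_rect {a b c d : Fin n} (hab : a ≠ b) (hac : a ≠ c) (had : a ≠ d) (hbc : b ≠ c)
    (hbd : b ≠ d) (hcd : c ≠ d) :
    RectProp (restr (RA a b) (Odd4 a b c d)) (restr (RA c d) (Odd4 a b c d)) := by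
  have oddA : ∀ {G G' : Finset (Edge n)}, RA a b G G' → Odd4 a b c d G → Odd4 a b c d G' := by
    intro G G' h ho; unfold Odd4 at *; rw [← blk_ra hac had hbc hbd h]; exact ho
  have oddB : ∀ {G G' : Finset (Edge n)}, RA c d G G' → Odd4 a b c d G → Odd4 a b c d G' := by
    intro G G' h ho; unfold Odd4 at *
    rw [blk_symm, ← blk_ra hac.symm hbc.symm had.symm hbd.symm h, blk_symm]; exact ho
  intro x y z hxy hxz
  by_cases hx : Odd4 a b c d x
  · have hxy' : RA a b x y := by
      rcases hxy with rfl | ⟨_, _, h⟩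
      · exact (relO_equiv a b _).refl _
      · exact h
    have hxz' : RA c d x z := by
      rcases hxz with rfl | ⟨_, _, h⟩
      · exact (relO_equiv c d _).refl _
      · exact h
    obtain ⟨w, h1, h2⟩ := odd_exists hab hac had hbc hbd hcd hxy' hxz' hx
    have hy := oddA hxy' hx
    have hz := oddB hxz' hx
    have hw := oddB h1 hy
    refine ⟨w, ⟨Or.inr ⟨hy, hw, h1⟩, Or.inr ⟨hz, hw, h2⟩⟩, ?_⟩
    rintro w' ⟨g1, g2⟩
    have g1' : RA c d y w' := by
      rcases g1 with rfl | ⟨_, _, h⟩
      · exact (relO_equiv c d _).refl _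
      · exact h
    have g2' : RA a b z w' := by
      rcases g2 with rfl | ⟨_, _, h⟩
      · exact (relO_equiv a b _).refl _
      · exact h
    exact odd_unique hab hac had hbc hbd hcd h1 h2 g1' g2' hw
  · have e1 : x = y := by
      rcases hxy with h | ⟨h, _, _⟩
      · exact h
      · exact absurd h hx
    have e2 : x = z := by
      rcases hxz with h | ⟨h, _, _⟩
      · exact h
      · exact absurd h hx
    subst e1; subst e2
    refine ⟨x, ⟨Or.inl rfl, Or.inl rfl⟩, ?_⟩
    rintro w' ⟨g1, _⟩
    rcases g1 with h | ⟨h, _, _⟩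
    · exact h.symm
    · exact absurd h hx

end Crest.Agent.SwGap
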