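import Crest.Agent.SwGap.Avg

/-! Operator part of the conflict inequality. -/

set_option autoImplicit false
open Finset

namespace Crest.Agent.SwGap

variable {Ω : Type*} [Fintype Ω]

structure Proj (P : Module.End ℝ (Ω → ℝ)) : Prop where
  sa : ∀ f g, ip (P f) g = ip f (P g)
  idem : P * P = P

lemma proj_avgL {r : Ω → Ω → Prop} (hr : Equivalence r) : Proj (avgL r) where
  sa := fun f g => avg_ip hr f g
  idem := by
    apply LinearMap.ext; intro f
    exact avg_avg_of_le hr hr (fun _ _ h => h) f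

lemma Proj.apply_apply {P : Module.End ℝ (Ω → ℝ)} (hP : Proj P) (f : Ω → ℝ) : P (P f) = P f := by
  have := congrArg (fun T : Module.End ℝ (Ω → ℝ) => T f) hP.idem
  simpa using this

lemma Proj.ip_comm_nonneg {P Q : Module.End ℝ (Ω → ℝ)} (hP : Proj P) (hQ : Proj Q)
    (h : P * Q = Q * P) (f : Ω → ℝ) : 0 ≤ ip (P f) (Q f) := by
  have hc : ∀ u, P (Q u) = Q (P u) := fun u => by
    have := congrArg (fun T : Module.End ℝ (Ω → ℝ) => T u) h
    simpa using this
  have e : ip (P f) (Q f) = ip (P (Q f)) (P (Q f)) := by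
    calc ip (P f) (Q f) = ip (P f) (Q (Q f)) := by rw [hQ.apply_apply]
      _ = ip (Q (P f)) (Q f) := by rw [hQ.sa]
      _ = ip (P (Q f)) (Q f) := by rw [hc]
      _ = ip (P (P (Q f))) (Q f) := by rw [hP.apply_apply]
      _ = ip (P (Q f)) (P (Q f)) := by rw [hP.sa]
  rw [e]; exact ip_self_nonneg _

lemma Proj.one_sub {P : Module.End ℝ (Ω → ℝ)} (hP : Proj P) : Proj (1 - P) where
  sa := fun f g => by
    simp only [LinearMap.sub_apply, Module.End.one_apply, ip_sub_left, ip_sub_right, hP.sa]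
  idem := by
    rw [sub_mul, one_mul, mul_sub, mul_one, hP.idem, sub_self, sub_zero]

lemma Proj.sub {P Q : Module.End ℝ (Ω → ℝ)} (hP : Proj P) (hQ : Proj Q) (h1 : P * Q = Q)
    (h2 : Q * P = Q) : Proj (P - Q) where
  sa := fun f g => by
    simp only [LinearMap.sub_apply, ip_sub_left, ip_sub_right, hP.sa, hQ.sa]
  idem := by
    rw [sub_mul, mul_sub, mul_sub, hP.idem, hQ.idem, h1, h2]; abel

theorem conflict_abs {A A' B B' S : Module.End ℝ (Ω → ℝ)} (hA : Proj A) (hA' : Proj A')
    (hB : Proj B) (hB' : Proj B') (hS : Proj S)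
    (hAA' : A * A' = A) (hA'A : A' * A = A) (hBB' : B * B' = B) (hB'B : B' * B = B)
    (hSA : S * A = A) (hAS : A * S = A) (hSB : S * B = B) (hBS : B * S = B)
    (c1 : A' * B = B * A') (c2 : A * B' = B' * A) (c3 : A' * B' = B' * A') (F : Ω → ℝ) :
    ip (F - S F) (F - S F) + ip ((B' * (A' * S - A)) F) ((A' * (B' * S - B)) F)
      ≤ ip (F - A F) (F - B F) := by
  have ap : ∀ {P Q R T : Module.End ℝ (Ω → ℝ)}, P * Q = R * T → ∀ u, P (Q u) = R (T u) :=
    fun h u => by
      have := congrArg (fun T : Module.End ℝ (Ω → ℝ) => T u) h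
      simpa using this
  have ap1 : ∀ {P Q R : Module.End ℝ (Ω → ℝ)}, P * Q = R → ∀ u, P (Q u) = R u :=
    fun h u => by
      have := congrArg (fun T : Module.End ℝ (Ω → ℝ) => T u) h
      simpa using this
  set f := S F with hf
  -- step 2
  have s2 : ip (F - A F) (F - B F) = ip (F - f) (F - f) + ip (f - A f) (f - B f) := by
    have e1 : A f = A F := ap1 hAS F
    have e2 : B f = B F := ap1 hBS F
    have e3 : S (F - f) = 0 := by
      rw [map_sub, hf, hS.apply_apply, sub_self]
    have e4 : f - A f = S (f - A f) := by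
      rw [map_sub, ap1 hSA, hf, hS.apply_apply]
    have e5 : f - B f = S (f - B f) := by
      rw [map_sub, ap1 hSB, hf, hS.apply_apply]
    have o1 : ip (F - f) (f - B f) = 0 := by
      rw [e5, ← hS.sa, e3]; simp [ip]
    have o2 : ip (f - A f) (F - f) = 0 := by
      rw [ip_comm, e4, ← hS.sa, e3]; simp [ip]
    have d1 : F - A F = (F - f) + (f - A f) := by rw [e1]; abel
    have d2 : F - B F = (F - f) + (f - B f) := by rw [e2]; abel
    rw [d1, d2, ip_add_left, ip_add_right, ip_add_right, o1, o2]; ring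
  rw [s2]
  have s3 : 0 ≤ ip ((1 - A') f) ((1 - B) f) :=
    hA'.one_sub.ip_comm_nonneg hB.one_sub (by
      rw [sub_mul, mul_sub, mul_sub, sub_mul, mul_sub, mul_sub, c1]; noncomm_ring) f
  have s4 : 0 ≤ ip ((A' - A) f) ((1 - B') f) :=
    (hA'.sub hA hA'A hAA').ip_comm_nonneg hB'.one_sub (by
      rw [sub_mul, mul_sub, mul_sub, sub_mul, mul_sub, mul_sub, c2, c3]; noncomm_ring) f
  have s5 : ip ((A' - A) f) ((B' - B) f) = ip ((B' * (A' * S - A)) F) ((A' * (B' * S - B)) F) := by
    have p1 : Proj (A' - A) := hA'.sub hA hA'A hAA'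
    have p2 : Proj (B' - B) := hB'.sub hB hB'B hBB'
    have k1 : (A' - A) * B' = B' * (A' - A) := by rw [sub_mul, mul_sub, c2, c3]
    have k2 : (B' - B) * A' = A' * (B' - B) := by rw [sub_mul, mul_sub, c1, c3]
    have k3 : B' * (B' - B) = B' - B := by rw [mul_sub, hB'.idem, hB'B]
    have k4 : A' * (A' - A) = A' - A := by rw [mul_sub, hA'.idem, hA'A]
    calc ip ((A' - A) f) ((B' - B) f) = ip ((A' - A) f) (B' ((B' - B) f)) := by rw [ap1 k3]
      _ = ip (B' ((A' - A) f)) ((B' - B) f) := by rw [hB'.sa]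
      _ = ip ((A' - A) (B' f)) ((B' - B) f) := by rw [ap k1]
      _ = ip (A' ((A' - A) (B' f))) ((B' - B) f) := by rw [ap1 k4]
      _ = ip ((A' - A) (B' f)) (A' ((B' - B) f)) := by rw [hA'.sa]
      _ = ip (B' ((A' - A) f)) (A' ((B' - B) f)) := by rw [ap k1]
      _ = _ := by
        have q1 : (A' - A) f = (A' * S - A) F := by
          rw [hf, LinearMap.sub_apply, LinearMap.sub_apply, ap1 hAS]; rfl
        have q2 : (B' - B) f = (B' * S - B) F := by
          rw [hf, LinearMap.sub_apply, LinearMap.sub_apply, ap1 hBS]; rfl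
        rw [q1, q2]; rfl
  have s6 : ip (f - A f) (f - B f) = ip ((1 - A') f) ((1 - B) f) + ip ((A' - A) f) ((1 - B') f)
      + ip ((A' - A) f) ((B' - B) f) := by
    have d1 : f - A f = (1 - A') f + (A' - A) f := by simp
    have d2 : f - B f = (1 - B') f + (B' - B) f := by simp
    have d3 : f - B f = (1 - B) f := by simp
    rw [d1, ip_add_left]
    nth_rewrite 2 [d2]
    rw [ip_add_right, d3]; ring
  rw [s6, ← s5]; linarith

theorem conflict_g {A A' B B' S : Module.End ℝ (Ω → ℝ)}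
    (hAA' : A * A' = A) (hBB' : B * B' = B) (hAS : A * S = A) (hBS : B * S = B)
    (c1 : A' * B = B * A') (c2 : A * B' = B' * A) (c3 : A' * B' = B' * A') (F : Ω → ℝ) :
    (B' * (A' * S - A)) F = A' (B' (S F)) - A (A' (B' (S F))) ∧
    (A' * (B' * S - B)) F = A' (B' (S F)) - B (A' (B' (S F))) := by
  have e1 : B' * (A' * S - A) = A' * B' * S - A * A' * B' * S := by
    rw [hAA', mul_sub, ← mul_assoc, ← c3, c2, mul_assoc B' A S, hAS]
  have e2 : A' * (B' * S - B) = A' * B' * S - B * A' * B' * S := by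
    rw [mul_sub, ← mul_assoc, ← c1, mul_assoc A' B B', hBB', mul_assoc A' B S, hBS]
  refine ⟨?_, ?_⟩
  · rw [e1]; simp [Module.End.mul_apply]
  · rw [e2]; simp [Module.End.mul_apply]

end Crest.Agent.SwGap
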