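import Crest.Agent.SwGap.Adj
import Crest.Agent.SwGap.Oper

/-! The pair-resampling relations and their commutation. -/

set_option autoImplicit false
open Finset Crest.SwitchChain

namespace Crest.Agent.SwGap

variable {n : ℕ}

open scoped Classical in
/-- adjacency indicator -/
noncomputable def v (G : Finset (Edge n)) (p q : Fin n) : ℕ := if Adj G p q then 1 else 0

lemma v_le (G : Finset (Edge n)) (p q : Fin n) : v G p q ≤ 1 := by
  unfold v; split <;> simp

lemma v_comm (G : Finset (Edge n)) (p q : Fin n) : v G p q = v G q p := by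
  unfold v
  by_cases h : Adj G p q
  · rw [if_pos h, if_pos h.symm]
  · rw [if_neg h, if_neg (fun h' => h h'.symm)]

@[simp] lemma v_self (G : Finset (Edge n)) (p : Fin n) : v G p p = 0 := by
  simp [v]

lemma adj_iff_v {G : Finset (Edge n)} {p q : Fin n} : Adj G p q ↔ v G p q = 1 := by
  unfold v; split <;> simp_all

lemma v_eq_iff {G G' : Finset (Edge n)} {p q : Fin n} : v G p q = v G' p q ↔ (Adj G p q ↔ Adj G' p q) := by
  unfold v; split <;> split <;> simp_all

lemma ext_v {G G' : Finset (Edge n)} (h : ∀ p q, p ≠ q → v G p q = v G' p q) : G = G' :=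
  ext_adj (fun p q hpq => v_eq_iff.mp (h p q hpq))

lemma v_ofAdj {P : Fin n → Fin n → Prop} (hP : ∀ x y, P x y → P y x) {p q : Fin n} (hpq : p ≠ q)
    [Decidable (P p q)] : v (ofAdj P) p q = if P p q then 1 else 0 := by
  unfold v
  simp only [adj_ofAdj hP, ne_eq, hpq, not_false_eq_true, true_and]

lemma deg_eq_sum (G : Finset (Edge n)) (x : Fin n) : deg G x = ∑ y, v G x y := by
  classical
  rw [deg_eq, card_filter]
  exact sum_congr rfl (fun y _ => by unfold v; congr)

/-- the potential edge `{p,q}` joins `{a,b}` to `O` -/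
def InI (a b : Fin n) (O : Finset (Fin n)) (p q : Fin n) : Prop :=
  ((p = a ∨ p = b) ∧ q ∈ O) ∨ ((q = a ∨ q = b) ∧ p ∈ O)

lemma InI.symm {a b : Fin n} {O : Finset (Fin n)} {p q : Fin n} (h : InI a b O p q) : InI a b O q p := by
  unfold InI at *; tauto

structure RelO (a b : Fin n) (O : Finset (Fin n)) (G G' : Finset (Edge n)) : Prop where
  off : ∀ p q, ¬ InI a b O p q → v G p q = v G' p q
  col : ∀ x ∈ O, v G a x + v G b x = v G' a x + v G' b x
  cnt : ∑ x ∈ O, v G a x = ∑ x ∈ O, v G' a x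

lemma relO_equiv (a b : Fin n) (O : Finset (Fin n)) : Equivalence (RelO a b O) where
  refl := fun _ => ⟨fun _ _ _ => rfl, fun _ _ => rfl, rfl⟩
  symm := fun h => ⟨fun p q hpq => (h.off p q hpq).symm, fun x hx => (h.col x hx).symm, h.cnt.symm⟩
  trans := fun h h' => ⟨fun p q hpq => (h.off p q hpq).trans (h'.off p q hpq),
    fun x hx => (h.col x hx).trans (h'.col x hx), h.cnt.trans h'.cnt⟩

structure Supp (r : Finset (Edge n) → Finset (Edge n) → Prop) (I : Fin n → Fin n → Prop) : Prop where
  isymm : ∀ p q, I p q → I q p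
  off : ∀ G G', r G G' → ∀ p q, ¬ I p q → v G p q = v G' p q
  loc : ∀ G1 G1' G2 G2', r G1 G1' → (∀ p q, I p q → v G1 p q = v G2 p q) →
    (∀ p q, I p q → v G1' p q = v G2' p q) →
    (∀ p q, ¬ I p q → v G2 p q = v G2' p q) → r G2 G2'

lemma rect_of_supp {r s : Finset (Edge n) → Finset (Edge n) → Prop} {I J : Fin n → Fin n → Prop}
    (hr : Supp r I) (hs : Supp s J) (hIJ : ∀ p q, I p q → ¬ J p q) : RectProp r s := by
  classical
  intro x y z hxy hxz
  set P : Fin n → Fin n → Prop := fun p q => (I p q ∧ Adj y p q) ∨ (¬ I p q ∧ Adj z p q) with hPdef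
  have hP : ∀ p q, P p q → P q p := by
    intro p q h
    rcases h with ⟨h1, h2⟩ | ⟨h1, h2⟩
    · exact Or.inl ⟨hr.isymm _ _ h1, h2.symm⟩
    · exact Or.inr ⟨fun h => h1 (hr.isymm _ _ h), h2.symm⟩
  set w := ofAdj P with hw
  have wI : ∀ p q, I p q → v w p q = v y p q := by
    intro p q h
    by_cases hpq : p = q
    · subst hpq; simp
    · rw [hw, v_ofAdj hP hpq]
      simp only [hPdef, h, true_and, not_true_eq_false, false_and, or_false]
      unfold v; congr
  have wN : ∀ p q, ¬ I p q → v w p q = v z p q := by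
    intro p q h
    by_cases hpq : p = q
    · subst hpq; simp
    · rw [hw, v_ofAdj hP hpq]
      simp only [hPdef, h, false_and, not_false_eq_true, true_and, false_or]
      unfold v; congr
  refine ⟨w, ⟨?_, ?_⟩, ?_⟩
  · refine hs.loc x z y w hxz ?_ ?_ ?_
    · intro p q hJ; exact hr.off x y hxy p q (fun h => hIJ p q h hJ)
    · intro p q hJ; exact (wN p q (fun h => hIJ p q h hJ)).symm
    · intro p q hJ
      by_cases hI : I p q
      · exact (wI p q hI).symm
      · rw [wN p q hI, ← hr.off x y hxy p q hI, hs.off x z hxz p q hJ]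
  · refine hr.loc x y z w hxy ?_ ?_ ?_
    · intro p q hI; exact hs.off x z hxz p q (hIJ p q hI)
    · intro p q hI; exact (wI p q hI).symm
    · intro p q hI; exact (wN p q hI).symm
  · rintro w' ⟨h1, h2⟩
    apply ext_v
    intro p q _
    by_cases hI : I p q
    · rw [wI p q hI, hs.off y w' h1 p q (hIJ p q hI)]
    · rw [wN p q hI, hr.off z w' h2 p q hI]

lemma relO_supp (a b : Fin n) (O : Finset (Fin n)) : Supp (RelO a b O) (InI a b O) where
  isymm := fun _ _ h => h.symm
  off := fun _ _ h => h.off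
  loc := by
    intro G1 G1' G2 G2' h h1 h2 h3
    refine ⟨h3, ?_, ?_⟩
    · intro x hx
      rw [← h1 a x (Or.inl ⟨Or.inl rfl, hx⟩), ← h1 b x (Or.inl ⟨Or.inr rfl, hx⟩),
        ← h2 a x (Or.inl ⟨Or.inl rfl, hx⟩), ← h2 b x (Or.inl ⟨Or.inr rfl, hx⟩)]
      exact h.col x hx
    · rw [← sum_congr rfl (fun x hx => h1 a x (Or.inl ⟨Or.inl rfl, hx⟩)),
        ← sum_congr rfl (fun x hx => h2 a x (Or.inl ⟨Or.inl rfl, hx⟩))]
      exact h.cnt

lemma relO_mono {a b : Fin n} {O O' : Finset (Fin n)} (hO : O' ⊆ O) (ha : a ∉ O) (hb : b ∉ O)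
    {G G' : Finset (Edge n)} (h : RelO a b O' G G') : RelO a b O G G' := by
  classical
  have ha' : a ∉ O' := fun h => ha (hO h)
  have hb' : b ∉ O' := fun h => hb (hO h)
  have offa : ∀ x, x ∉ O' → v G a x = v G' a x := by
    intro x hx; apply h.off; unfold InI; tauto
  have offb : ∀ x, x ∉ O' → v G b x = v G' b x := by
    intro x hx; apply h.off; unfold InI; tauto
  refine ⟨?_, ?_, ?_⟩
  · intro p q hpq
    apply h.off
    intro h'
    apply hpq
    unfold InI at *
    rcases h' with ⟨h1, h2⟩ | ⟨h1, h2⟩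
    · exact Or.inl ⟨h1, hO h2⟩
    · exact Or.inr ⟨h1, hO h2⟩
  · intro x _
    by_cases hx : x ∈ O'
    · exact h.col x hx
    · rw [offa x hx, offb x hx]
  · rw [← sum_sdiff hO, ← sum_sdiff hO, h.cnt]
    congr 1
    exact sum_congr rfl (fun x hx => offa x (mem_sdiff.mp hx).2)

/-- outside of `{a,b}` -/
def Out (a b : Fin n) : Finset (Fin n) := univ \ {a, b}
/-- outside of `{a,b,c,d}` -/
def Out4 (a b c d : Fin n) : Finset (Fin n) := univ \ {a, b, c, d}

@[simp] lemma mem_Out {a b x : Fin n} : x ∈ Out a b ↔ x ≠ a ∧ x ≠ b := by simp [Out]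
@[simp] lemma mem_Out4 {a b c d x : Fin n} : x ∈ Out4 a b c d ↔ x ≠ a ∧ x ≠ b ∧ x ≠ c ∧ x ≠ d := by
  simp [Out4]

/-- resampling relation of the pair `a b` -/
abbrev RA (a b : Fin n) := RelO a b (Out a b)
/-- resampling relation of the pair `a b` away from `c d` -/
abbrev RA' (a b c d : Fin n) := RelO a b (Out4 a b c d)

lemma sum_Out {a b c d : Fin n} (hac : a ≠ c) (had : a ≠ d) (hbc : b ≠ c) (hbd : b ≠ d) (hcd : c ≠ d)
    (f : Fin n → ℕ) : ∑ x ∈ Out a b, f x = ∑ x ∈ Out4 a b c d, f x + f c + f d := by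
  have : Out a b = insert c (insert d (Out4 a b c d)) := by
    ext x; simp only [mem_Out, mem_insert, mem_Out4]
    constructor
    · rintro ⟨h1, h2⟩; tauto
    · rintro (rfl | rfl | ⟨h1, h2, _, _⟩)
      · exact ⟨hac.symm, hbc.symm⟩
      · exact ⟨had.symm, hbd.symm⟩
      · exact ⟨h1, h2⟩
  rw [this, sum_insert, sum_insert]
  · ring
  · simp
  · simp [hcd]

lemma ra'_le_ra {a b c d : Fin n} {G G' : Finset (Edge n)} (h : RA' a b c d G G') : RA a b G G' := by
  refine relO_mono ?_ (by simp) (by simp) h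
  intro x; simp only [mem_Out4, mem_Out]; tauto

lemma ra'_block {a b c d : Fin n} {G G' : Finset (Edge n)} (h : RA' a b c d G G') :
    v G a c = v G' a c ∧ v G a d = v G' a d ∧ v G b c = v G' b c ∧ v G b d = v G' b d := by
  refine ⟨h.off _ _ ?_, h.off _ _ ?_, h.off _ _ ?_, h.off _ _ ?_⟩ <;>
    (unfold InI; simp)

lemma ra'_of_ra {a b c d : Fin n} (hac : a ≠ c) (had : a ≠ d) (hbc : b ≠ c) (hbd : b ≠ d)
    (hcd : c ≠ d) {G G' : Finset (Edge n)} (h : RA a b G G')
    (h1 : v G a c = v G' a c) (h2 : v G a d = v G' a d) : RA' a b c d G G' := by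
  have hc := h.col c (by simp [hac.symm, hbc.symm])
  have hd := h.col d (by simp [had.symm, hbd.symm])
  refine ⟨?_, ?_, ?_⟩
  · intro p q hpq
    by_cases hI : InI a b (Out a b) p q
    · -- must be in the block
      unfold InI at hI hpq
      simp only [mem_Out, mem_Out4] at hI hpq
      have h3 : v G b c = v G' b c := by omega
      have h4 : v G b d = v G' b d := by omega
      rcases hI with ⟨hp | hp, hq1, hq2⟩ | ⟨hq | hq, hp1, hp2⟩
      · subst hp
        by_cases hqc : q = c
        · subst hqc; exact h1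
        · by_cases hqd : q = d
          · subst hqd; exact h2
          · exact absurd (Or.inl ⟨Or.inl rfl, hq1, hq2, hqc, hqd⟩) hpq
      · subst hp
        by_cases hqc : q = c
        · subst hqc; exact h3
        · by_cases hqd : q = d
          · subst hqd; exact h4
          · exact absurd (Or.inl ⟨Or.inr rfl, hq1, hq2, hqc, hqd⟩) hpq
      · subst hq
        rw [v_comm G, v_comm G']
        by_cases hqc : p = c
        · subst hqc; exact h1
        · by_cases hqd : p = d
          · subst hqd; exact h2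
          · exact absurd (Or.inr ⟨Or.inl rfl, hp1, hp2, hqc, hqd⟩) hpq
      · subst hq
        rw [v_comm G, v_comm G']
        by_cases hqc : p = c
        · subst hqc; exact h3
        · by_cases hqd : p = d
          · subst hqd; exact h4
          · exact absurd (Or.inr ⟨Or.inr rfl, hp1, hp2, hqc, hqd⟩) hpq
    · exact h.off p q hI
  · intro x hx
    apply h.col
    simp only [mem_Out4] at hx; simp [hx.1, hx.2.1]
  · have := h.cnt
    rw [sum_Out hac had hbc hbd hcd, sum_Out hac had hbc hbd hcd] at this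
    omega

end Crest.Agent.SwGap
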