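import Crest.Agent.SwGap.Kernel

/-! Total variation bound from the Poincare inequality. -/

set_option autoImplicit false
open Finset Crest.SwitchChain

namespace Crest.Agent.SwGap

/-! ### abstract part -/

section Abstract

variable {α : Type*} [Fintype α] [DecidableEq α]

/-- symmetric stochastic `Q`: `‖Q f‖ ≤ ‖f‖` -/
lemma stoch_contr (Q : α → α → ℝ) (hnn : ∀ x y, 0 ≤ Q x y) (hrow : ∀ x, ∑ y, Q x y = 1)
    (hcol : ∀ y, ∑ x, Q x y = 1) (f : α → ℝ) :
    ∑ x, (∑ y, Q x y * f y) ^ 2 ≤ ∑ y, f y ^ 2 := by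
  have h1 : ∀ x, (∑ y, Q x y * f y) ^ 2 ≤ ∑ y, Q x y * f y ^ 2 := by
    intro x
    have h := Finset.sum_sq_le_sum_mul_sum_of_sq_le_mul (univ : Finset α) (f := fun y => Q x y)
      (g := fun y => Q x y * f y ^ 2) (r := fun y => Q x y * f y) (fun y _ => hnn x y)
      (fun y _ => mul_nonneg (hnn x y) (sq_nonneg _)) (fun y _ => le_of_eq (by ring))
    rwa [hrow, one_mul] at h
  calc ∑ x, (∑ y, Q x y * f y) ^ 2 ≤ ∑ x, ∑ y, Q x y * f y ^ 2 := sum_le_sum fun x _ => h1 x
    _ = ∑ y, f y ^ 2 := by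
      rw [sum_comm]
      refine sum_congr rfl fun y _ => ?_
      rw [← sum_mul, hcol, one_mul]

/-- one step: for `P = (1 + Q)/2`, `‖P f‖² ≤ ⟨f, P f⟩` -/
lemma lazy_step (P : α → α → ℝ) (hsym : ∀ x y, P x y = P y x) (hrow : ∀ x, ∑ y, P x y = 1)
    (hnn : ∀ x y, 0 ≤ P x y) (hdiag : ∀ x, 1 / 2 ≤ P x x) (f : α → ℝ) :
    ∑ x, (∑ y, P x y * f y) ^ 2 ≤ ∑ x, f x * ∑ y, P x y * f y := by
  set Q : α → α → ℝ := fun x y => 2 * P x y - if x = y then 1 else 0 with hQ
  have q1 : ∀ x y, 0 ≤ Q x y := by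
    intro x y
    simp only [hQ]
    by_cases h : x = y
    · subst h; rw [if_pos rfl]; linarith [hdiag x]
    · rw [if_neg h]; linarith [hnn x y]
  have q2 : ∀ x, ∑ y, Q x y = 1 := by
    intro x
    simp only [hQ]
    rw [sum_sub_distrib, ← mul_sum, hrow]
    simp; norm_num
  have q3 : ∀ y, ∑ x, Q x y = 1 := by
    intro y
    rw [← q2 y]
    refine sum_congr rfl fun x _ => ?_
    simp only [hQ, hsym x y, eq_comm (a := x)]
  have q4 := stoch_contr Q q1 q2 q3 f
  have q5 : ∀ x, ∑ y, Q x y * f y = 2 * (∑ y, P x y * f y) - f x := by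
    intro x
    simp only [hQ, sub_mul, sum_sub_distrib, mul_assoc, ← mul_sum]
    simp
  simp only [q5] at q4
  have q6 : ∑ x, (2 * (∑ y, P x y * f y) - f x) ^ 2 =
      4 * ∑ x, (∑ y, P x y * f y) ^ 2 - 4 * ∑ x, f x * (∑ y, P x y * f y) + ∑ x, f x ^ 2 := by
    rw [mul_sum, mul_sum, ← sum_sub_distrib, ← sum_add_distrib]
    exact sum_congr rfl fun x _ => by ring
  rw [q6] at q4
  linarith

/-- iterate -/
theorem tv_abs (Om : Finset α) (P : Matrix α α ℝ) (hsym : ∀ x y, P x y = P y x)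
    (hrow : ∀ x, ∑ y, P x y = 1) (hnn : ∀ x y, 0 ≤ P x y) (hdiag : ∀ x, 1 / 2 ≤ P x x)
    (hcl : ∀ x ∈ Om, ∀ y, y ∉ Om → P x y = 0) (g : ℝ) (hg1 : g ≤ 1)
    (hP : ∀ f : α → ℝ, ∑ x ∈ Om, f x = 0 →
      g * ∑ x ∈ Om, f x ^ 2 ≤ ∑ x ∈ Om, f x * (f x - ∑ y ∈ Om, P x y * f y))
    (x₀ : α) (hx₀ : x₀ ∈ Om) (t : ℕ) :
    ∑ y, ((P ^ t) x₀ y - unifOn Om y) ^ 2 ≤ (1 - g) ^ t := by
  have hcard : (Om.card : ℝ) ≠ 0 := by
    have : 0 < Om.card := card_pos.mpr ⟨x₀, hx₀⟩
    positivity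
  set D : ℕ → α → ℝ := fun t y => (P ^ t) x₀ y - unifOn Om y with hD
  have hcl' : ∀ x, x ∉ Om → ∀ y ∈ Om, P x y = 0 := fun x hx y hy => by
    rw [hsym]; exact hcl y hy x hx
  have hunif : ∀ y, ∑ x, unifOn Om x * P x y = unifOn Om y := by
    intro y
    have h1 : ∑ x, unifOn Om x * P x y = ∑ x ∈ Om, (1 / (Om.card : ℝ)) * P x y := by
      rw [← sum_subset (subset_univ Om)]
      · exact sum_congr rfl fun x hx => by simp [unifOn, hx]
      · intro x _ hx; simp [unifOn, hx]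
    rw [h1, ← mul_sum]
    by_cases hy : y ∈ Om
    · have h2 : ∑ x ∈ Om, P x y = 1 := by
        rw [← hrow y]
        rw [sum_subset (subset_univ Om) (fun x _ hx => hcl' x hx y hy)]
        exact sum_congr rfl fun x _ => hsym x y
      rw [h2]; simp [unifOn, hy]
    · have h2 : ∑ x ∈ Om, P x y = 0 := sum_eq_zero fun x hx => hcl x hx y hy
      rw [h2]; simp [unifOn, hy]
  have hstep : ∀ t y, D (t + 1) y = ∑ x, P y x * D t x := by
    intro t y
    simp only [hD]
    rw [pow_succ, Matrix.mul_apply]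
    nth_rewrite 1 [← hunif y]
    rw [← sum_sub_distrib]
    refine sum_congr rfl fun x _ => ?_
    rw [hsym y x]; ring
  have hsupp : ∀ t y, y ∉ Om → D t y = 0 := by
    intro t
    induction t with
    | zero =>
      intro y hy
      have : x₀ ≠ y := fun h => hy (h ▸ hx₀)
      simp [hD, unifOn, hy, Matrix.one_apply_ne this]
    | succ t ih =>
      intro y hy
      rw [hstep]
      refine sum_eq_zero fun x _ => ?_
      by_cases hx : x ∈ Om
      · rw [hcl' y hy x hx, zero_mul]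
      · rw [ih x hx, mul_zero]
  have hsum : ∀ t, ∑ y ∈ Om, D t y = 0 := by
    intro t
    induction t with
    | zero =>
      simp only [hD, pow_zero, sum_sub_distrib]
      have h1 : ∑ y ∈ Om, (1 : Matrix α α ℝ) x₀ y = 1 := by
        rw [sum_eq_single x₀]
        · simp
        · intro b _ hb; exact Matrix.one_apply_ne hb.symm
        · intro h; exact absurd hx₀ h
      have h2 : ∑ y ∈ Om, unifOn Om y = 1 := by
        rw [sum_congr rfl fun y hy => show unifOn Om y = 1 / (Om.card : ℝ) by simp [unifOn, hy]]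
        rw [sum_const, nsmul_eq_mul]; field_simp
      rw [h1, h2, sub_self]
    | succ t ih =>
      have h1 : ∑ y ∈ Om, D (t + 1) y = ∑ y, D (t + 1) y :=
        sum_subset (subset_univ _) fun y _ hy => hsupp _ y hy
      have h2 : ∑ y ∈ Om, D t y = ∑ y, D t y :=
        sum_subset (subset_univ _) fun y _ hy => hsupp _ y hy
      rw [h1]
      simp only [hstep]
      rw [sum_comm]
      simp only [← sum_mul]
      have h3 : ∀ x, ∑ y, P y x = 1 := fun x => by
        rw [← hrow x]; exact sum_congr rfl fun y _ => hsym y x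
      simp only [h3, one_mul]
      rw [← h2, ih]
  have hnorm : ∀ t, ∑ y, D (t + 1) y ^ 2 ≤ (1 - g) * ∑ y, D t y ^ 2 := by
    intro t
    simp only [hstep]
    have h1 := lazy_step P hsym hrow hnn hdiag (D t)
    have h2 := hP (D t) (hsum t)
    have h3 : ∑ x ∈ Om, D t x ^ 2 = ∑ x, D t x ^ 2 :=
      sum_subset (subset_univ _) fun y _ hy => by rw [hsupp _ y hy]; simp
    have h4 : ∑ x ∈ Om, D t x * (D t x - ∑ y ∈ Om, P x y * D t y) =
        ∑ x, D t x ^ 2 - ∑ x, D t x * ∑ y, P x y * D t y := by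
      rw [← sum_sub_distrib]
      rw [sum_subset (subset_univ Om) fun y _ hy => by rw [hsupp _ y hy, zero_mul]]
      refine sum_congr rfl fun x _ => ?_
      rw [sum_subset (subset_univ Om) fun y _ hy => by rw [hsupp _ y hy, mul_zero]]
      ring
    rw [h3, h4] at h2
    linarith
  have h0 : ∑ y, D 0 y ^ 2 ≤ 1 := by
    have h1 : ∑ y, D 0 y ^ 2 = ∑ y ∈ Om, D 0 y ^ 2 :=
      (sum_subset (subset_univ _) fun y _ hy => by rw [hsupp _ y hy]; simp).symm
    rw [h1]
    have h2 : ∀ y ∈ Om, D 0 y ^ 2 = (if x₀ = y then 1 else 0) - (if x₀ = y then 1 else 0) *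
        (2 * (1 / (Om.card : ℝ))) + (1 / (Om.card : ℝ)) ^ 2 := by
      intro y hy
      simp only [hD, pow_zero, unifOn, if_pos hy, Matrix.one_apply]
      split_ifs <;> ring
    rw [sum_congr rfl h2, sum_add_distrib, sum_sub_distrib, ← sum_mul, sum_ite_eq, if_pos hx₀,
      sum_const, nsmul_eq_mul]
    have h3 : (0 : ℝ) < Om.card := by positivity
    have h4 : (Om.card : ℝ) * (1 / (Om.card : ℝ)) ^ 2 = 1 / (Om.card : ℝ) := by field_simp
    rw [h4]
    have h5 : (0 : ℝ) < 1 / (Om.card : ℝ) := by positivity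
    linarith
  have hfin : ∀ t, ∑ y, D t y ^ 2 ≤ (1 - g) ^ t := by
    intro t
    induction t with
    | zero => simpa using h0
    | succ t ih =>
      calc ∑ y, D (t + 1) y ^ 2 ≤ (1 - g) * ∑ y, D t y ^ 2 := hnorm t
        _ ≤ (1 - g) * (1 - g) ^ t := mul_le_mul_of_nonneg_left ih (by linarith)
        _ = (1 - g) ^ (t + 1) := by rw [pow_succ]; ring
  exact hfin t

end Abstract

/-! ### the switch chain -/

theorem tv_of_poincare (n : ℕ) (hn : 4 ≤ n) (d : Fin n → ℕ) (hd : (realizations d).Nonempty)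
    (hP : ∀ f : Finset (Edge n) → ℝ,
        ((realizations d).card : ℝ) * (∑ G ∈ realizations d, f G ^ 2) -
            (∑ G ∈ realizations d, f G) ^ 2 ≤
          24 * (n : ℝ) ^ 2 * (n.choose 4 : ℝ) * (realizations d).card *
            ∑ G ∈ realizations d, f G * (f G - ∑ G' ∈ realizations d, kernel n G G' * f G')) :
    ∃ t : ℕ, t ≤ 2 * n ^ 8 ∧ ∀ G ∈ realizations d,
        tvDist (fun G' => (kernel n ^ t) G G') (unifOn (realizations d)) ≤ 1 / 4 := by
  refine ⟨2 * n ^ 8, le_rfl, fun G hG => ?_⟩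
  have hcard : (0 : ℝ) < (realizations d).card := by exact_mod_cast card_pos.mpr hd
  have hC : 1 ≤ n.choose 4 := Nat.choose_pos hn
  have hC' : (1 : ℝ) ≤ (n.choose 4 : ℝ) := by exact_mod_cast hC
  have hn' : (4 : ℝ) ≤ n := by exact_mod_cast hn
  set M : ℝ := 24 * (n : ℝ) ^ 2 * (n.choose 4 : ℝ) with hM
  have hM1 : 1 ≤ M := by
    have h1 : (1 : ℝ) ≤ (n : ℝ) ^ 2 := by nlinarith
    have h2 : (1 : ℝ) ≤ (n : ℝ) ^ 2 * (n.choose 4 : ℝ) := one_le_mul_of_one_le_of_one_le h1 hC'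
    rw [hM]; nlinarith
  have hM0 : 0 < M := by linarith
  have key := tv_abs (realizations d) (kernel n) kernel_symm (kernel_row hn) kernel_nonneg
    kernel_diag (fun x hx y hy => by
      by_contra h; exact hy (kernel_closed hx h)) (1 / M)
    (by rw [div_le_one hM0]; exact hM1)
    (fun f hf => by
      have h1 := hP f
      rw [hf] at h1
      have h2 : ((realizations d).card : ℝ) * (∑ G ∈ realizations d, f G ^ 2) ≤
          ((realizations d).card : ℝ) * (M * ∑ G ∈ realizations d,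
            f G * (f G - ∑ G' ∈ realizations d, kernel n G G' * f G')) := by
        calc _ ≤ _ := by simpa using h1
          _ = _ := by ring
      have h3 := le_of_mul_le_mul_left h2 hcard
      rw [one_div, inv_mul_le_iff₀ hM0]
      exact h3) G hG (2 * n ^ 8)
  -- bound on (1 - 1/M)^t
  have hM2 : M ≤ (n : ℝ) ^ 6 := by
    have h1 : (n.choose 4 : ℝ) ≤ (n : ℝ) ^ 4 / (Nat.factorial 4 : ℝ) := Nat.choose_le_pow_div 4 n
    have h2 : (Nat.factorial 4 : ℝ) = 24 := by norm_num [Nat.factorial]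
    rw [h2, le_div_iff₀ (by norm_num)] at h1
    calc M = (n : ℝ) ^ 2 * ((n.choose 4 : ℝ) * 24) := by rw [hM]; ring
      _ ≤ (n : ℝ) ^ 2 * (n : ℝ) ^ 4 := mul_le_mul_of_nonneg_left h1 (by positivity)
      _ = (n : ℝ) ^ 6 := by ring
  have hpow : (1 - 1 / M) ^ (2 * n ^ 8) ≤ Real.exp (-(2 * (n : ℝ) ^ 2)) := by
    have h1 : 1 - 1 / M ≤ Real.exp (-(1 / M)) := by
      have := Real.add_one_le_exp (-(1 / M)); linarith
    have h0 : 0 ≤ 1 - 1 / M := by
      have : 1 / M ≤ 1 := by rw [div_le_one hM0]; exact hM1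
      linarith
    calc (1 - 1 / M) ^ (2 * n ^ 8) ≤ Real.exp (-(1 / M)) ^ (2 * n ^ 8) :=
          pow_le_pow_left₀ h0 h1 _
      _ = Real.exp (((2 * n ^ 8 : ℕ) : ℝ) * (-(1 / M))) := by rw [Real.exp_nat_mul]
      _ ≤ Real.exp (-(2 * (n : ℝ) ^ 2)) := by
        apply Real.exp_le_exp.mpr
        push_cast
        have h3 : 2 * (n : ℝ) ^ 2 ≤ 2 * (n : ℝ) ^ 8 * (1 / M) := by
          rw [mul_one_div, le_div_iff₀ hM0]
          calc 2 * (n : ℝ) ^ 2 * M ≤ 2 * (n : ℝ) ^ 2 * (n : ℝ) ^ 6 :=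
                mul_le_mul_of_nonneg_left hM2 (by positivity)
            _ = 2 * (n : ℝ) ^ 8 := by ring
        linarith
  have hcs : (∑ G', |(kernel n ^ (2 * n ^ 8)) G G' - unifOn (realizations d) G'|) ^ 2 ≤
      (Fintype.card (Finset (Edge n)) : ℝ) *
        ∑ G', ((kernel n ^ (2 * n ^ 8)) G G' - unifOn (realizations d) G') ^ 2 := by
    have := sq_sum_le_card_mul_sum_sq (s := (univ : Finset (Finset (Edge n))))
      (f := fun G' => |(kernel n ^ (2 * n ^ 8)) G G' - unifOn (realizations d) G'|)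
    simpa [sq_abs] using this
  have hcardG : (Fintype.card (Finset (Edge n)) : ℝ) ≤ Real.exp ((n : ℝ) ^ 2) := by
    have h1 : Fintype.card (Finset (Edge n)) = 2 ^ (n.choose 2) := by
      rw [Fintype.card_finset, Sym2.card_subtype_not_diag, Fintype.card_fin]
    rw [h1]
    push_cast
    have h2 : (2 : ℝ) ≤ Real.exp 1 := by have := Real.add_one_le_exp (1 : ℝ); linarith
    calc (2 : ℝ) ^ (n.choose 2) ≤ Real.exp 1 ^ (n.choose 2) :=
          pow_le_pow_left₀ (by norm_num) h2 _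
      _ = Real.exp ((n.choose 2 : ℕ) : ℝ) := by
        rw [← Real.exp_nat_mul, mul_one]
      _ ≤ Real.exp ((n : ℝ) ^ 2) := by
        apply Real.exp_le_exp.mpr
        exact_mod_cast Nat.choose_le_pow n 2
  have hfinal : (∑ G', |(kernel n ^ (2 * n ^ 8)) G G' - unifOn (realizations d) G'|) ^ 2 ≤
      (1 / 2) ^ 2 := by
    calc _ ≤ (Fintype.card (Finset (Edge n)) : ℝ) *
        ∑ G', ((kernel n ^ (2 * n ^ 8)) G G' - unifOn (realizations d) G') ^ 2 := hcs
      _ ≤ Real.exp ((n : ℝ) ^ 2) * Real.exp (-(2 * (n : ℝ) ^ 2)) :=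
        mul_le_mul hcardG (key.trans hpow) (sum_nonneg fun _ _ => sq_nonneg _)
          (Real.exp_pos _).le
      _ = Real.exp (-((n : ℝ) ^ 2)) := by rw [← Real.exp_add]; congr 1; ring
      _ ≤ Real.exp (-16) := by
        apply Real.exp_le_exp.mpr
        nlinarith
      _ ≤ (1 / 2) ^ 2 := by
        rw [Real.exp_neg]
        have h1 := Real.add_one_le_exp (16 : ℝ)
        have h2 : (4 : ℝ) ≤ Real.exp 16 := by linarith
        calc (Real.exp 16)⁻¹ ≤ (4 : ℝ)⁻¹ := inv_anti₀ (by norm_num) h2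
          _ = _ := by norm_num
  have habs := abs_le_of_sq_le_sq hfinal (by norm_num)
  unfold tvDist
  have h := (le_abs_self _).trans habs
  have h' : (∑ a, |(fun G' => (kernel n ^ (2 * n ^ 8)) G G') a - unifOn (realizations d) a|) ≤
    1 / 2 := h
  linarith

end Crest.Agent.SwGap
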